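import Vale.Agent.P170.Ops

/-!
# Random k-SAT: the operator form of the satisfiability probability, and the first moment bound
-/

namespace Vale.P170

open Finset

namespace Bridge

variable {Ω κ : Type*} [Fintype κ]

theorem count_op (w : κ → ℝ) (c : κ → Set Ω) (m : ℕ) (f : Set Ω → ℝ) (S : Set Ω) :
    ((op w c) ^ m) f S = ∑ F : Fin m → κ, (∏ i, w (F i)) * f (S ∩ ⋂ i, c (F i)) := by
  induction m generalizing S with
  | zero => simp
  | succ m ih =>
    rw [pow_succ', Module.End.mul_apply, op_apply]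
    rw [← (Fin.consEquiv (fun _ : Fin (m + 1) => κ)).sum_comp, Fintype.sum_prod_type]
    apply Finset.sum_congr rfl
    intro i _
    rw [ih, Finset.mul_sum]
    apply Finset.sum_congr rfl
    intro F _
    have e1 : ∏ j, w ((Fin.consEquiv (fun _ : Fin (m + 1) => κ)) (i, F) j) =
        w i * ∏ j, w (F j) := by
      rw [Fin.prod_univ_succ]
      simp [Fin.consEquiv]
    have e2 : S ∩ ⋂ j, c ((Fin.consEquiv (fun _ : Fin (m + 1) => κ)) (i, F) j)
        = S ∩ c i ∩ ⋂ j, c (F j) := by
      ext σ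
      simp only [Set.mem_inter_iff, Set.mem_iInter]
      rw [Fin.forall_fin_succ]
      simp [Fin.consEquiv, and_assoc]
    rw [e1, e2]
    ring

end Bridge

theorem satT_iff {V : Type*} {k m : ℕ} (F : Fin m → Fin k → V × Bool) :
    SatT F ↔ (Set.univ ∩ ⋂ i, cset (F i)).Nonempty := by
  constructor
  · rintro ⟨σ, hσ⟩
    refine ⟨σ, Set.mem_univ _, ?_⟩
    rw [Set.mem_iInter]
    exact hσ
  · rintro ⟨σ, -, hσ⟩
    rw [Set.mem_iInter] at hσ
    exact ⟨σ, hσ⟩

/-- The operator form of the satisfiability probability is the counting form. -/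
theorem pS_eq_qSat (k n m : ℕ) : pS (Fin n) k m = qSat k n m := by
  classical
  unfold pS P qSat
  rw [Bridge.count_op, Finset.card_filter]
  push_cast
  rw [Finset.sum_div]
  apply Finset.sum_congr rfl
  intro F _
  rw [prod_const, card_univ, Fintype.card_fin, Fintype.card_fin, inv_pow]
  unfold ne
  by_cases h : SatT F
  · rw [if_pos h, if_pos ((satT_iff F).1 h)]
    ring
  · rw [if_neg h, if_neg (fun h' => h ((satT_iff F).2 h'))]
    ring

section first_moment

variable {V : Type*} [Fintype V] [DecidableEq V]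

open Classical in
/-- The number of assignments in the state. -/
noncomputable def numS (S : Set (V → Bool)) : ℝ := ∑ σ : V → Bool, if σ ∈ S then 1 else 0

theorem ne_le_numS (S : Set (V → Bool)) : ne S ≤ numS S := by
  classical
  unfold numS
  by_cases h : S.Nonempty
  · rw [ne_of_nonempty h]
    obtain ⟨σ, hσ⟩ := h
    refine le_trans (le_of_eq (if_pos hσ).symm)
      (single_le_sum (f := fun σ => if σ ∈ S then (1 : ℝ) else 0) ?_ (mem_univ σ))
    intro τ _
    split_ifs <;> norm_num
  · rw [ne_of_not h]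
    exact sum_nonneg fun τ _ => by split_ifs <;> norm_num

theorem lit_false [Nonempty V] (σ : V → Bool) :
    ∑ l : V × Bool, (2 * Fintype.card V : ℝ)⁻¹ * (if σ l.1 = l.2 then 0 else 1) = 1 / 2 := by
  classical
  rw [← mul_sum, Fintype.sum_prod_type]
  have h1 : ∀ v : V, ∑ b : Bool, (if σ v = b then (0 : ℝ) else 1) = 1 := by
    intro v
    cases σ v <;> simp
  simp only [h1]
  have : (0 : ℝ) < Fintype.card V := by exact_mod_cast Fintype.card_pos
  simp only [sum_const, card_univ, nsmul_eq_mul, mul_one]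
  field_simp

theorem clause_true [Nonempty V] (k : ℕ) (σ : V → Bool) :
    ∑ C : Fin k → V × Bool, ((2 * Fintype.card V : ℝ) ^ k)⁻¹ * ne ({σ} ∩ cset C) =
      1 - (1 / 2) ^ k := by
  classical
  have h1 : ∀ C : Fin k → V × Bool, ne ({σ} ∩ cset C) =
      1 - ∏ i, (if σ (C i).1 = (C i).2 then (0 : ℝ) else 1) := by
    intro C
    by_cases h : ∃ i, σ (C i).1 = (C i).2
    · rw [ne_of_nonempty (show (({σ} : Set (V → Bool)) ∩ cset C).Nonempty from ⟨σ, rfl, h⟩)]
      obtain ⟨i, hi⟩ := h
      have h0 : ∏ i, (if σ (C i).1 = (C i).2 then (0 : ℝ) else 1) = 0 :=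
        prod_eq_zero (mem_univ i) (if_pos hi)
      rw [h0, sub_zero]
    · have h1 : ∏ i, (if σ (C i).1 = (C i).2 then (0 : ℝ) else 1) = 1 :=
        prod_eq_one fun i _ => if_neg (fun hi => h ⟨i, hi⟩)
      rw [ne_of_not, h1, sub_self]
      · rintro ⟨τ, hτ, hC⟩
        rw [Set.mem_singleton_iff] at hτ
        subst hτ
        exact h hC
  simp only [h1, mul_sub, mul_one, sum_sub_distrib, P_weight_sum]
  rw [sum_prod_clause (fun _ l => if σ l.1 = l.2 then (0 : ℝ) else 1), prod_const, card_univ,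
    Fintype.card_fin, lit_false]

theorem P_numS [Nonempty V] (k : ℕ) :
    P V k (numS : Set (V → Bool) → ℝ) = (1 - (1 / 2 : ℝ) ^ k) • numS := by
  classical
  funext S
  rw [P_apply, Pi.smul_apply, smul_eq_mul]
  unfold numS
  simp only [mul_sum]
  rw [sum_comm]
  apply sum_congr rfl
  intro σ _
  rw [← mul_sum]
  by_cases hσ : σ ∈ S
  · rw [if_pos hσ, mul_one, ← clause_true k σ, mul_sum]
    apply sum_congr rfl
    intro C _
    congr 1
    by_cases hC : σ ∈ cset C
    · rw [if_pos ⟨hσ, hC⟩,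
        ne_of_nonempty (show (({σ} : Set (V → Bool)) ∩ cset C).Nonempty from ⟨σ, rfl, hC⟩)]
    · rw [if_neg (fun h => hC h.2), ne_of_not]
      rintro ⟨τ, hτ, hC'⟩
      rw [Set.mem_singleton_iff] at hτ
      subst hτ
      exact hC hC'
  · rw [if_neg hσ, mul_zero, mul_sum]
    apply sum_eq_zero
    intro C _
    rw [if_neg (fun h => hσ h.1), mul_zero]

/-- The first moment bound. -/
theorem pS_le [Nonempty V] (k m : ℕ) :
    pS V k m ≤ 2 ^ Fintype.card V * (1 - (1 / 2 : ℝ) ^ k) ^ m := by
  classical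
  have h1 : (P V k ^ m) ne ≤ (P V k ^ m) numS := (P_pos.pow m).mono ne_le_numS
  have h2 : (P V k ^ m) (numS : Set (V → Bool) → ℝ) = ((1 - (1 / 2 : ℝ) ^ k) ^ m) • numS := by
    induction m with
    | zero => simp
    | succ m ih =>
      have ih' := ih ((P_pos.pow m).mono ne_le_numS)
      rw [pow_succ_apply, P_numS, map_smul, ih', smul_smul, pow_succ']
  have h3 : (numS (Set.univ : Set (V → Bool)) : ℝ) = 2 ^ Fintype.card V := by
    unfold numS
    simp
  unfold pS
  refine (h1 Set.univ).trans (le_of_eq ?_)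
  rw [h2, Pi.smul_apply, h3, smul_eq_mul, mul_comm]

end first_moment

end Vale.P170
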