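import Vale.Agent.P170.Ops

/-!
# Random k-SAT: the covariance inequality
-/

namespace Vale.P170

open Finset

variable {V : Type*} [Fintype V] [DecidableEq V] {k : ℕ}

/-- Survival probability of the state `S` after `m` random clauses. -/
noncomputable def u (k m : ℕ) (S : Set (V → Bool)) : ℝ := (P V k ^ m) ne S

theorem u_zero (S : Set (V → Bool)) : u k 0 S = ne S := by simp [u]

theorem u_succ (m : ℕ) (S : Set (V → Bool)) :
    u k (m + 1) S = ∑ C : Fin k → V × Bool,
      ((2 * Fintype.card V : ℝ) ^ k)⁻¹ * u k m (S ∩ cset C) := by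
  unfold u
  rw [pow_succ_apply', P_apply]

theorem u_fun (m : ℕ) : (u k m : Set (V → Bool) → ℝ) = (P V k ^ m) ne := rfl

theorem u_add (m n : ℕ) (S : Set (V → Bool)) : u k (m + n) S = (P V k ^ m) (u k n) S := by
  show (P V k ^ (m + n)) ne S = (P V k ^ m) ((P V k ^ n) ne) S
  rw [pow_add_apply]

theorem u_nonneg (m : ℕ) (S : Set (V → Bool)) : 0 ≤ u k m S :=
  (P_pos.pow m) ne ne_nonneg S

theorem ne_mono_fun : Monotone (ne : Set (V → Bool) → ℝ) := fun _ _ h => ne_mono h

theorem u_mono_set (m : ℕ) : Monotone (u k m : Set (V → Bool) → ℝ) :=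
  op_pow_mono_set P_weight_nonneg _ ne_mono_fun m

theorem P_ne_le [Nonempty V] : P V k ne ≤ ne := by
  intro S
  rw [P_apply]
  calc ∑ C : Fin k → V × Bool, ((2 * Fintype.card V : ℝ) ^ k)⁻¹ * ne (S ∩ cset C)
      ≤ ∑ C : Fin k → V × Bool, ((2 * Fintype.card V : ℝ) ^ k)⁻¹ * ne S :=
        sum_le_sum fun C _ => mul_le_mul_of_nonneg_left (ne_mono Set.inter_subset_left)
          (P_weight_nonneg C)
    _ = ne S := by rw [← sum_mul, P_weight_sum, one_mul]

theorem u_succ_le [Nonempty V] (m : ℕ) (S : Set (V → Bool)) : u k (m + 1) S ≤ u k m S := by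
  unfold u
  rw [pow_succ_apply]
  exact (P_pos.pow m).mono P_ne_le S

theorem u_antitone [Nonempty V] (S : Set (V → Bool)) : Antitone fun m => u k m S :=
  antitone_nat_of_succ_le fun m => u_succ_le m S

theorem u_le_ne [Nonempty V] (m : ℕ) (S : Set (V → Bool)) : u k m S ≤ ne S := by
  have := u_antitone (k := k) S (Nat.zero_le m)
  simpa [u_zero] using this

theorem u_le_one [Nonempty V] (m : ℕ) (S : Set (V → Bool)) : u k m S ≤ 1 :=
  (u_le_ne m S).trans (ne_le_one S)

/-- `∏_i chi (C i)` as a function of the state. -/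
noncomputable def phi (C : Fin k → V × Bool) (S : Set (V → Bool)) : ℝ := ∏ i, chi (C i) S

theorem phi_nonneg (C : Fin k → V × Bool) (S : Set (V → Bool)) : 0 ≤ phi C S :=
  prod_nonneg fun i _ => chi_nonneg _ _

theorem u_sub_u (hk : 0 < k) (m : ℕ) (C : Fin k → V × Bool) (S : Set (V → Bool)) :
    u k m S - u k m (S ∩ cset C) = (P V k ^ m) (phi C) S := by
  have h1 : u k m (S ∩ cset C) = (P V k ^ m) (fun S => ne (S ∩ cset C)) S :=
    op_pow_inter _ _ m ne S (cset C)
  have h2 : phi C = ne - fun S => ne (S ∩ cset C) := by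
    funext S
    rw [Pi.sub_apply, ne_sub_ne hk]
    rfl
  rw [h2, map_sub, Pi.sub_apply, h1]
  rfl

/-- The product of the killing probabilities, averaged over the clause. -/
theorem bil_zero [Nonempty V] (hk : 0 < k) (S S' : Set (V → Bool)) :
    ∑ C : Fin k → V × Bool, ((2 * Fintype.card V : ℝ) ^ k)⁻¹ * (phi C S * phi C S')
      ≤ bfr S * bfr S' ^ (k - 1) := by
  have h1 : ∑ C : Fin k → V × Bool, ((2 * Fintype.card V : ℝ) ^ k)⁻¹ * (phi C S * phi C S')
      = (∑ l : V × Bool, (2 * Fintype.card V : ℝ)⁻¹ * (chi l S * chi l S')) ^ k := by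
    have := sum_prod_clause (V := V) (k := k) (fun _ l => chi l S * chi l S')
    rw [prod_const, card_univ, Fintype.card_fin] at this
    rw [← this]
    refine sum_congr rfl fun C _ => ?_
    rw [phi, phi, ← prod_mul_distrib]
  rw [h1]
  set x := ∑ l : V × Bool, (2 * Fintype.card V : ℝ)⁻¹ * (chi l S * chi l S') with hx
  have hx0 : 0 ≤ x := sum_nonneg fun l _ => mul_nonneg (L_weight_nonneg l)
    (mul_nonneg (chi_nonneg _ _) (chi_nonneg _ _))
  have hx1 : x ≤ bfr S := by
    rw [bfr_eq]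
    exact sum_le_sum fun l _ => mul_le_mul_of_nonneg_left
      (mul_le_of_le_one_right (chi_nonneg _ _) (chi_le_one _ _)) (L_weight_nonneg l)
  have hx2 : x ≤ bfr S' := by
    rw [bfr_eq]
    exact sum_le_sum fun l _ => mul_le_mul_of_nonneg_left
      (mul_le_of_le_one_left (chi_nonneg _ _) (chi_le_one _ _)) (L_weight_nonneg l)
  have hkk : x ^ k = x * x ^ (k - 1) := by
    rw [← pow_succ', Nat.sub_add_cancel hk]
  rw [hkk]
  exact mul_le_mul hx1 (pow_le_pow_left₀ hx0 hx2 _) (pow_nonneg hx0 _) (bfr_nonneg S)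

/-- `S ↦ bfr S ^ (k-1)`. -/
noncomputable def bpow (k : ℕ) (S : Set (V → Bool)) : ℝ := bfr S ^ (k - 1)

theorem bpow_nonneg (S : Set (V → Bool)) : 0 ≤ bpow k S := pow_nonneg (bfr_nonneg S) _

theorem bil_right [Nonempty V] (hk : 0 < k) (m' : ℕ) (S : Set (V → Bool)) :
    ∀ S' : Set (V → Bool),
    ∑ C : Fin k → V × Bool, ((2 * Fintype.card V : ℝ) ^ k)⁻¹ *
        (phi C S * (P V k ^ m') (phi C) S')
      ≤ bfr S * (P V k ^ m') (bpow k) S' := by
  induction m' with
  | zero => intro S'; simpa [bpow] using bil_zero hk S S'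
  | succ m' ih =>
    intro S'
    have h1 : ∀ C : Fin k → V × Bool, (P V k ^ (m' + 1)) (phi C) S'
        = ∑ C' : Fin k → V × Bool, ((2 * Fintype.card V : ℝ) ^ k)⁻¹ *
            (P V k ^ m') (phi C) (S' ∩ cset C') := fun C => by
      rw [pow_succ_apply', P_apply]
    simp only [h1, mul_sum]
    rw [sum_comm, pow_succ_apply', P_apply, mul_sum]
    refine sum_le_sum fun C' _ => ?_
    have h2 := mul_le_mul_of_nonneg_left (ih (S' ∩ cset C')) (P_weight_nonneg C')
    rw [mul_sum] at h2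
    calc ∑ C : Fin k → V × Bool, ((2 * Fintype.card V : ℝ) ^ k)⁻¹ *
          (phi C S * (((2 * Fintype.card V : ℝ) ^ k)⁻¹ * (P V k ^ m') (phi C) (S' ∩ cset C')))
        = ∑ C : Fin k → V × Bool, ((2 * Fintype.card V : ℝ) ^ k)⁻¹ *
          (((2 * Fintype.card V : ℝ) ^ k)⁻¹ * (phi C S * (P V k ^ m') (phi C) (S' ∩ cset C'))) :=
          sum_congr rfl fun C _ => by ring
      _ ≤ _ := h2
      _ = _ := by ring

theorem bil [Nonempty V] (hk : 0 < k) (m m' : ℕ) (S' : Set (V → Bool)) :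
    ∀ S : Set (V → Bool),
    ∑ C : Fin k → V × Bool, ((2 * Fintype.card V : ℝ) ^ k)⁻¹ *
        ((P V k ^ m) (phi C) S * (P V k ^ m') (phi C) S')
      ≤ (P V k ^ m) bfr S * (P V k ^ m') (bpow k) S' := by
  induction m with
  | zero => intro S; simpa using bil_right hk m' S S'
  | succ m ih =>
    intro S
    have h1 : ∀ C : Fin k → V × Bool, (P V k ^ (m + 1)) (phi C) S
        = ∑ C' : Fin k → V × Bool, ((2 * Fintype.card V : ℝ) ^ k)⁻¹ *
            (P V k ^ m) (phi C) (S ∩ cset C') := fun C => by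
      rw [pow_succ_apply', P_apply]
    simp only [h1, mul_sum, sum_mul]
    rw [sum_comm, pow_succ_apply', P_apply, sum_mul]
    refine sum_le_sum fun C' _ => ?_
    have h2 := mul_le_mul_of_nonneg_left (ih (S ∩ cset C')) (P_weight_nonneg C')
    rw [mul_sum] at h2
    calc ∑ C : Fin k → V × Bool, ((2 * Fintype.card V : ℝ) ^ k)⁻¹ *
          (((2 * Fintype.card V : ℝ) ^ k)⁻¹ * (P V k ^ m) (phi C) (S ∩ cset C') *
            (P V k ^ m') (phi C) S')
        = ∑ C : Fin k → V × Bool, ((2 * Fintype.card V : ℝ) ^ k)⁻¹ *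
          (((2 * Fintype.card V : ℝ) ^ k)⁻¹ * ((P V k ^ m) (phi C) (S ∩ cset C') *
            (P V k ^ m') (phi C) S')) :=
          sum_congr rfl fun C _ => by ring
      _ ≤ _ := h2
      _ = _ := by ring

/-- Elementary: with a probability vector `w` and `f ≤ f0`, `g ≤ g0`, the covariance is at most
the expectation of `(f0 - f) * (g0 - g)`. -/
theorem cov_le {ι : Type*} [Fintype ι] (w f g : ι → ℝ) (f0 g0 : ℝ)
    (hw : ∀ i, 0 ≤ w i) (hw1 : ∑ i, w i = 1) (hf : ∀ i, f i ≤ f0) (hg : ∀ i, g i ≤ g0) :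
    ∑ i, w i * (f i * g i) - (∑ i, w i * f i) * (∑ i, w i * g i)
      ≤ ∑ i, w i * ((f0 - f i) * (g0 - g i)) := by
  have h1 : ∑ i, w i * ((f0 - f i) * (g0 - g i))
      = f0 * g0 - f0 * (∑ i, w i * g i) - g0 * (∑ i, w i * f i) + ∑ i, w i * (f i * g i) := by
    have h2 : ∀ i, w i * ((f0 - f i) * (g0 - g i))
        = f0 * g0 * w i - f0 * (w i * g i) - g0 * (w i * f i) + w i * (f i * g i) := fun i => by ring
    simp only [h2, sum_add_distrib, sum_sub_distrib, ← mul_sum, hw1]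
    ring
  have h3 : 0 ≤ f0 - ∑ i, w i * f i := by
    have : f0 = ∑ i, w i * f0 := by rw [← sum_mul, hw1, one_mul]
    rw [sub_nonneg]
    calc ∑ i, w i * f i ≤ ∑ i, w i * f0 :=
          sum_le_sum fun i _ => mul_le_mul_of_nonneg_left (hf i) (hw i)
      _ = f0 := this.symm
  have h4 : 0 ≤ g0 - ∑ i, w i * g i := by
    have : g0 = ∑ i, w i * g0 := by rw [← sum_mul, hw1, one_mul]
    rw [sub_nonneg]
    calc ∑ i, w i * g i ≤ ∑ i, w i * g0 :=
          sum_le_sum fun i _ => mul_le_mul_of_nonneg_left (hg i) (hw i)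
      _ = g0 := this.symm
  rw [h1]
  nlinarith [mul_nonneg h3 h4]

/-- The pair function appearing at one step. -/
noncomputable def Q (k r d : ℕ) (S : Set (V → Bool)) : ℝ :=
  (P V k ^ r) bfr S * (P V k ^ (r + d)) (bpow k) S

theorem cov_bound [Nonempty V] (hk : 0 < k) (d m : ℕ) :
    ∀ S : Set (V → Bool), u k (m + d) S * (1 - u k m S)
      ≤ ∑ t ∈ range m, (P V k ^ t) (Q k (m - 1 - t) d) S := by
  induction m with
  | zero =>
    intro S
    rw [range_zero, sum_empty, u_zero, zero_add]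
    have h1 := u_le_ne (k := k) d S
    have h2 := u_nonneg (k := k) d S
    have h3 := ne_mul_self S
    have h4 := ne_le_one S
    nlinarith
  | succ m ih =>
    intro S
    set w : (Fin k → V × Bool) → ℝ := fun _ => ((2 * Fintype.card V : ℝ) ^ k)⁻¹ with hwdef
    have hw : ∀ C, 0 ≤ w C := P_weight_nonneg
    have hw1 : ∑ C, w C = 1 := P_weight_sum
    have e1 : u k (m + 1) S = ∑ C, w C * u k m (S ∩ cset C) := u_succ m S
    have e2 : u k (m + 1 + d) S = ∑ C, w C * u k (m + d) (S ∩ cset C) := by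
      rw [show m + 1 + d = (m + d) + 1 by ring]; exact u_succ (m + d) S
    have hc := cov_le w (fun C => u k m (S ∩ cset C)) (fun C => u k (m + d) (S ∩ cset C))
      (u k m S) (u k (m + d) S) hw hw1 (fun C => u_mono_set m Set.inter_subset_left)
      (fun C => u_mono_set (m + d) Set.inter_subset_left)
    have hb : ∑ C, w C * ((u k m S - u k m (S ∩ cset C)) *
        (u k (m + d) S - u k (m + d) (S ∩ cset C))) ≤ Q k m d S := by
      have := bil (V := V) hk m (m + d) S S
      refine le_trans (le_of_eq ?_) this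
      refine sum_congr rfl fun C _ => ?_
      rw [u_sub_u hk, u_sub_u hk]
    have hs : ∑ C, w C * (u k (m + d) (S ∩ cset C) * (1 - u k m (S ∩ cset C)))
        ≤ ∑ t ∈ range m, (P V k ^ (t + 1)) (Q k (m - 1 - t) d) S := by
      calc ∑ C, w C * (u k (m + d) (S ∩ cset C) * (1 - u k m (S ∩ cset C)))
          ≤ ∑ C, w C * ∑ t ∈ range m, (P V k ^ t) (Q k (m - 1 - t) d) (S ∩ cset C) :=
            sum_le_sum fun C _ => mul_le_mul_of_nonneg_left (ih _) (hw C)
        _ = ∑ t ∈ range m, (P V k ^ (t + 1)) (Q k (m - 1 - t) d) S := by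
            simp only [mul_sum]
            rw [sum_comm]
            refine sum_congr rfl fun t _ => ?_
            rw [pow_succ_apply', P_apply]
    have e3 : u k (m + 1 + d) S * (1 - u k (m + 1) S)
        = ∑ C, w C * (u k (m + d) (S ∩ cset C) * (1 - u k m (S ∩ cset C)))
          + (∑ C, w C * (u k m (S ∩ cset C) * u k (m + d) (S ∩ cset C))
            - (∑ C, w C * u k m (S ∩ cset C)) * (∑ C, w C * u k (m + d) (S ∩ cset C))) := by
      have h5 : ∀ C, w C * (u k (m + d) (S ∩ cset C) * (1 - u k m (S ∩ cset C)))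
          = w C * u k (m + d) (S ∩ cset C)
            - w C * (u k m (S ∩ cset C) * u k (m + d) (S ∩ cset C)) := fun C => by ring
      simp only [h5, sum_sub_distrib]
      rw [e1, e2]
      ring
    rw [e3, sum_range_succ']
    have e4 : ∀ t ∈ range m, (P V k ^ (t + 1)) (Q k (m - 1 - t) d) S
        = (P V k ^ (t + 1)) (Q k (m + 1 - 1 - (t + 1)) d) S := by
      intro t ht
      rw [mem_range] at ht
      rw [show m + 1 - 1 - (t + 1) = m - 1 - t by omega]
    rw [← sum_congr rfl e4]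
    have e5 : (P V k ^ 0) (Q k (m + 1 - 1 - 0) d) S = Q k m d S := by simp
    rw [e5]
    linarith

/-- Telescoping: `∑_{d<w} E b^k ≤ 1`. -/
theorem sum_bk_le [Nonempty V] (hk : 0 < k) (r w : ℕ) (S : Set (V → Bool)) :
    ∑ d ∈ range w, (P V k ^ (r + d)) (fun S => bfr S ^ k) S ≤ 1 := by
  have h1 : (fun S : Set (V → Bool) => bfr S ^ k) = ne - P V k ne := by
    funext S
    rw [Pi.sub_apply, ne_sub_P hk]
  have h2 : ∀ d, (P V k ^ (r + d)) (fun S => bfr S ^ k) S = u k (r + d) S - u k (r + (d + 1)) S := by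
    intro d
    rw [h1, map_sub, Pi.sub_apply, ← pow_succ_apply]
    rfl
  simp only [h2]
  rw [sum_range_sub' (fun d => u k (r + d) S)]
  have h3 := u_le_one (k := k) (r + 0) S
  have h4 := u_nonneg (k := k) (r + w) S
  linarith

theorem bpow_le [Nonempty V] (hk : 0 < k) (lam : ℝ) (hlam : 0 < lam) (S : Set (V → Bool)) :
    bpow k S ≤ lam * bfr S ^ k + (lam⁻¹) ^ (k - 1) := by
  unfold bpow
  have hb := bfr_nonneg S
  have hk' : bfr S ^ k = bfr S * bfr S ^ (k - 1) := by rw [← pow_succ', Nat.sub_add_cancel hk]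
  by_cases h : lam⁻¹ ≤ bfr S
  · have h1 : 1 ≤ lam * bfr S := by
      have := mul_le_mul_of_nonneg_left h hlam.le
      rwa [mul_inv_cancel₀ hlam.ne'] at this
    have h2 : 0 ≤ bfr S ^ (k - 1) := pow_nonneg hb _
    have h3 : 0 ≤ (lam⁻¹) ^ (k - 1) := by positivity
    rw [hk']
    nlinarith [mul_le_mul_of_nonneg_right h1 h2]
  · push Not at h
    have h1 : bfr S ^ (k - 1) ≤ (lam⁻¹) ^ (k - 1) := pow_le_pow_left₀ hb h.le _
    have h2 : 0 ≤ lam * bfr S ^ k := mul_nonneg hlam.le (pow_nonneg hb _)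
    linarith

theorem sum_bpow_le [Nonempty V] (hk : 0 < k) (lam : ℝ) (hlam : 0 < lam) (r w : ℕ)
    (S : Set (V → Bool)) :
    ∑ d ∈ range w, (P V k ^ (r + d)) (bpow k) S ≤ lam + w * (lam⁻¹) ^ (k - 1) := by
  have h1 : ∀ d, (P V k ^ (r + d)) (bpow k) S
      ≤ lam * (P V k ^ (r + d)) (fun S => bfr S ^ k) S + (lam⁻¹) ^ (k - 1) := by
    intro d
    have h2 : (bpow k : Set (V → Bool) → ℝ)
        ≤ lam • (fun S => bfr S ^ k) + fun _ => (lam⁻¹) ^ (k - 1) := fun S => bpow_le hk lam hlam S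
    have h3 := ((P_pos (V := V) (k := k)).pow (r + d)).mono h2 S
    rw [map_add, map_smul, P_pow_const] at h3
    simpa using h3
  calc ∑ d ∈ range w, (P V k ^ (r + d)) (bpow k) S
      ≤ ∑ d ∈ range w, (lam * (P V k ^ (r + d)) (fun S => bfr S ^ k) S + (lam⁻¹) ^ (k - 1)) :=
        sum_le_sum fun d _ => h1 d
    _ = lam * ∑ d ∈ range w, (P V k ^ (r + d)) (fun S => bfr S ^ k) S + w * (lam⁻¹) ^ (k - 1) := by
        rw [sum_add_distrib, ← mul_sum, sum_const, card_range, nsmul_eq_mul]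
    _ ≤ lam * 1 + w * (lam⁻¹) ^ (k - 1) := by
        have := mul_le_mul_of_nonneg_left (sum_bk_le (V := V) hk r w S) hlam.le
        linarith
    _ = _ := by ring

/-- **The covariance inequality.** -/
theorem cov_sum [Nonempty V] (hk : 0 < k) (lam : ℝ) (hlam : 0 < lam) (m w : ℕ)
    (S : Set (V → Bool)) :
    (1 - u k (m + 1) S) * ∑ d ∈ range w, u k (m + 1 + d) S
      ≤ (m + 1) * (lam + w * (lam⁻¹) ^ (k - 1)) * (P V k ^ m) bfr S := by
  have h1 : (1 - u k (m + 1) S) * ∑ d ∈ range w, u k (m + 1 + d) S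
      ≤ ∑ d ∈ range w, ∑ t ∈ range (m + 1), (P V k ^ t) (Q k (m - t) d) S := by
    rw [mul_sum]
    refine sum_le_sum fun d _ => ?_
    have := cov_bound (V := V) hk d (m + 1) S
    rw [mul_comm]
    simpa using this
  refine h1.trans ?_
  rw [sum_comm]
  have h2 : ∀ t ∈ range (m + 1), ∑ d ∈ range w, (P V k ^ t) (Q k (m - t) d) S
      ≤ (lam + w * (lam⁻¹) ^ (k - 1)) * (P V k ^ m) bfr S := by
    intro t ht
    rw [mem_range] at ht
    have e1 : ∑ d ∈ range w, (P V k ^ t) (Q k (m - t) d) S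
        = (P V k ^ t) (∑ d ∈ range w, Q k (m - t) d) S := by
      rw [map_sum, Finset.sum_apply]
    have e2 : (∑ d ∈ range w, Q k (m - t) d : Set (V → Bool) → ℝ)
        ≤ (lam + w * (lam⁻¹) ^ (k - 1)) • ((P V k ^ (m - t)) bfr) := by
      intro S'
      rw [Finset.sum_apply]
      simp only [Q, Pi.smul_apply, smul_eq_mul]
      rw [← mul_sum, mul_comm]
      exact mul_le_mul_of_nonneg_right (sum_bpow_le hk lam hlam _ _ _)
        ((P_pos.pow _) bfr bfr_nonneg S')
    rw [e1]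
    refine ((P_pos.pow t).mono e2 S).trans (le_of_eq ?_)
    rw [map_smul, Pi.smul_apply, smul_eq_mul, ← pow_add_apply,
      show t + (m - t) = m by omega]
  calc ∑ t ∈ range (m + 1), ∑ d ∈ range w, (P V k ^ t) (Q k (m - t) d) S
      ≤ ∑ t ∈ range (m + 1), (lam + w * (lam⁻¹) ^ (k - 1)) * (P V k ^ m) bfr S := sum_le_sum h2
    _ = _ := by rw [sum_const, card_range, nsmul_eq_mul]; push_cast; ring

end Vale.P170
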