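import Vale.Agent.P170.Model

/-!
# Random k-SAT: basic definitions

Two models of a random formula with `m` clauses on the variables `Fin n`:

* `probSat k n m` : the model of the problem (every clause is a uniform set of `k` literals on
  `k` distinct variables; the `m` clauses are independent);
* `qSat k n m` : the auxiliary model in which a clause is a `k`-tuple of independent uniform
  literals (repetitions allowed).
-/

namespace Vale.P170

open Finset

/-! ### The auxiliary model, and the operator formalism -/

/-- The set of assignments making the literal `l` true. -/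
def lset {V : Type*} (l : V × Bool) : Set (V → Bool) := {σ | σ l.1 = l.2}

/-- The set of assignments satisfying the clause `C 0 ∨ ⋯ ∨ C (k-1)`. -/
def cset {V : Type*} {k : ℕ} (C : Fin k → V × Bool) : Set (V → Bool) :=
  {σ | ∃ i, σ (C i).1 = (C i).2}

/-- Satisfiability of a tuple of `k`-tuples of literals. -/
def SatT {V : Type*} {k m : ℕ} (F : Fin m → Fin k → V × Bool) : Prop :=
  ∃ σ : V → Bool, ∀ i, ∃ j, σ (F i j).1 = (F i j).2

open Classical in
/-- The probability that `m` independent uniform `k`-tuples of literals are satisfiable. -/
noncomputable def qSat (k n m : ℕ) : ℝ :=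
  ((Finset.univ.filter fun F : Fin m → Fin k → Fin n × Bool => SatT F).card : ℝ)
    / ((2 * n : ℝ) ^ k) ^ m

open Classical in
/-- Indicator of nonemptiness. -/
noncomputable def ne {Ω : Type*} (S : Set Ω) : ℝ := if S.Nonempty then 1 else 0

/-- The operator `f ↦ (S ↦ ∑ i, w i * f (S ∩ c i))`. -/
noncomputable def op {κ Ω : Type*} [Fintype κ] (w : κ → ℝ) (c : κ → Set Ω) :
    Module.End ℝ (Set Ω → ℝ) where
  toFun f S := ∑ i, w i * f (S ∩ c i)
  map_add' f g := by
    funext S
    simp [mul_add, Finset.sum_add_distrib]
  map_smul' a f := by
    funext S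
    simp only [Pi.smul_apply, smul_eq_mul, RingHom.id_apply, Finset.mul_sum]
    exact Finset.sum_congr rfl fun i _ => by ring

/-- Adding one uniform random `k`-clause. -/
noncomputable def P (V : Type*) [Fintype V] [DecidableEq V] (k : ℕ) :
    Module.End ℝ (Set (V → Bool) → ℝ) :=
  op (fun _ : Fin k → V × Bool => ((2 * Fintype.card V : ℝ) ^ k)⁻¹) cset

/-- Adding one uniform random literal. -/
noncomputable def L (V : Type*) [Fintype V] [DecidableEq V] :
    Module.End ℝ (Set (V → Bool) → ℝ) :=
  op (fun _ : V × Bool => (2 * Fintype.card V : ℝ)⁻¹) lset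

/-- Probability that `m` random `k`-clauses are satisfiable (operator form). -/
noncomputable def pS (V : Type*) [Fintype V] [DecidableEq V] (k m : ℕ) : ℝ :=
  (P V k ^ m) ne Set.univ

open Classical in
/-- `χ l S = 1` if `S` is nonempty but has no assignment making `l` true; otherwise `0`. -/
noncomputable def chi {V : Type*} (l : V × Bool) (S : Set (V → Bool)) : ℝ :=
  if S.Nonempty ∧ ¬ (S ∩ lset l).Nonempty then 1 else 0

/-- Fraction of the literals that kill `S`. -/
noncomputable def bfr {V : Type*} [Fintype V] [DecidableEq V] (S : Set (V → Bool)) : ℝ :=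
  (∑ l : V × Bool, chi l S) / (2 * Fintype.card V)

/-- Expected fraction of killing literals after `m` random clauses. -/
noncomputable def eS (V : Type*) [Fintype V] [DecidableEq V] (k m : ℕ) : ℝ :=
  (P V k ^ m) bfr Set.univ

end Vale.P170
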