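import Vale.Agent.P170.Cov

/-!
# Random k-SAT: if random literals kill with good probability, so do a few random clauses
-/

namespace Vale.P170

open Finset

variable {V : Type*} [Fintype V] [DecidableEq V] {k : ℕ}

/-- Indicator of emptiness. -/
noncomputable def em {Ω : Type*} (S : Set Ω) : ℝ := 1 - ne S

theorem em_nonneg {Ω : Type*} (S : Set Ω) : 0 ≤ em S := sub_nonneg.2 (ne_le_one S)

theorem em_le_one {Ω : Type*} (S : Set Ω) : em S ≤ 1 := by
  have := ne_nonneg S
  unfold em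
  linarith

theorem em_anti {Ω : Type*} : Antitone (em : Set Ω → ℝ) := fun S T h => by
  have := ne_mono h
  unfold em
  linarith

/-- Probability that `j` random literals kill `S`. -/
noncomputable def tau (j : ℕ) (S : Set (V → Bool)) : ℝ := (L V ^ j) em S

theorem tau_zero (S : Set (V → Bool)) : tau 0 S = em S := by simp [tau]

theorem tau_succ (j : ℕ) (S : Set (V → Bool)) :
    tau (j + 1) S = ∑ l : V × Bool, (2 * Fintype.card V : ℝ)⁻¹ * tau j (S ∩ lset l) := by
  unfold tau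
  rw [pow_succ_apply', L_apply]

theorem tau_nonneg (j : ℕ) (S : Set (V → Bool)) : 0 ≤ tau j S :=
  ((L_pos (V := V)).pow j) em em_nonneg S

theorem tau_le_one [Nonempty V] (j : ℕ) (S : Set (V → Bool)) : tau j S ≤ 1 := by
  have h := ((L_pos (V := V)).pow j).mono (f := em) (g := fun _ => 1) (fun S => em_le_one S) S
  rwa [L_pow_const] at h

theorem tau_anti (j : ℕ) : Antitone (tau j : Set (V → Bool) → ℝ) :=
  op_pow_anti_set L_weight_nonneg _ em_anti j

theorem u_cset_le (r : ℕ) (C : Fin k → V × Bool) (S : Set (V → Bool)) :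
    u k r (S ∩ cset C) ≤ ∑ i, u k r (S ∩ lset (C i)) := by
  have h1 : u k r (S ∩ cset C) = (P V k ^ r) (fun S => ne (S ∩ cset C)) S :=
    op_pow_inter _ _ r ne S (cset C)
  have h2 : ∀ i, u k r (S ∩ lset (C i)) = (P V k ^ r) (fun S => ne (S ∩ lset (C i))) S :=
    fun i => op_pow_inter _ _ r ne S (lset (C i))
  rw [h1]
  simp only [h2]
  have h3 : (fun S : Set (V → Bool) => ne (S ∩ cset C))
      ≤ ∑ i, fun S : Set (V → Bool) => ne (S ∩ lset (C i)) := by
    intro S
    rw [Finset.sum_apply]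
    show ne (S ∩ cset C) ≤ ∑ i, ne (S ∩ lset (C i))
    by_cases h : (S ∩ cset C).Nonempty
    · obtain ⟨σ, hσ, i, hi⟩ := h
      refine (ne_le_one _).trans (le_trans ?_
        (single_le_sum (fun i _ => ne_nonneg (S ∩ lset (C i))) (mem_univ i)))
      have h5 : (S ∩ lset (C i)).Nonempty := ⟨σ, hσ, hi⟩
      rw [ne_of_nonempty h5]
    · rw [ne_of_not h]
      exact sum_nonneg fun i _ => ne_nonneg _
  have h4 := ((P_pos (V := V) (k := k)).pow r).mono h3 S
  rw [map_sum, Finset.sum_apply] at h4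
  exact h4

theorem hit [Nonempty V] (r : ℕ) (G : Finset (V × Bool)) (γ ε : ℝ) (hγ0 : 0 ≤ γ)
    (hγ : γ ≤ ∑ l : V × Bool, (2 * Fintype.card V : ℝ)⁻¹ * (if l ∈ G then 1 else 0))
    (hγ1 : γ ≤ 1) (hε : 0 ≤ ε) (S0 : Set (V → Bool))
    (hG : ∀ l ∈ G, u k r (S0 ∩ lset l) ≤ ε) (s : ℕ) :
    ∀ S ⊆ S0, u k (s + r) S ≤ (1 - γ ^ k) ^ s + k * ε := by
  have h1γ : 0 ≤ 1 - γ ^ k := sub_nonneg.2 (pow_le_one₀ hγ0 hγ1)
  induction s with
  | zero =>
    intro S _
    have h1 := u_le_one (k := k) (0 + r) S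
    have h2 : (0 : ℝ) ≤ k * ε := by positivity
    rw [pow_zero]
    linarith
  | succ s ih =>
    intro S hS
    set A : ℝ := (1 - γ ^ k) ^ s with hA
    have hA0 : 0 ≤ A := pow_nonneg h1γ s
    have hkey : ∀ C : Fin k → V × Bool, u k (s + r) (S ∩ cset C)
        ≤ (k * ε + A) - A * ∏ i, (if C i ∈ G then (1 : ℝ) else 0) := by
      intro C
      by_cases hC : ∀ i, C i ∈ G
      · have h1 : ∏ i, (if C i ∈ G then (1 : ℝ) else 0) = 1 :=
          prod_eq_one fun i _ => if_pos (hC i)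
        rw [h1]
        have h2 : u k (s + r) (S ∩ cset C) ≤ u k r (S ∩ cset C) :=
          u_antitone (k := k) (S ∩ cset C) (Nat.le_add_left r s)
        have h3 : u k r (S ∩ cset C) ≤ ∑ i : Fin k, ε := by
          refine (u_cset_le r C S).trans (sum_le_sum fun i _ => ?_)
          exact (u_mono_set r (Set.inter_subset_inter_left _ hS)).trans (hG _ (hC i))
        rw [sum_const, card_univ, Fintype.card_fin, nsmul_eq_mul] at h3
        linarith
      · have h1 : 0 = ∏ i, (if C i ∈ G then (1 : ℝ) else 0) := by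
          push Not at hC
          obtain ⟨i, hi⟩ := hC
          exact (prod_eq_zero (mem_univ i) (if_neg hi)).symm
        rw [← h1]
        have := ih (S ∩ cset C) (Set.inter_subset_left.trans hS)
        linarith
    have hsum : u k (s + 1 + r) S ≤ (k * ε + A) -
        A * ∑ C : Fin k → V × Bool, ((2 * Fintype.card V : ℝ) ^ k)⁻¹ *
          ∏ i, (if C i ∈ G then (1 : ℝ) else 0) := by
      rw [show s + 1 + r = (s + r) + 1 by ring, u_succ]
      calc ∑ C : Fin k → V × Bool, ((2 * Fintype.card V : ℝ) ^ k)⁻¹ * u k (s + r) (S ∩ cset C)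
          ≤ ∑ C : Fin k → V × Bool, ((2 * Fintype.card V : ℝ) ^ k)⁻¹ *
              ((k * ε + A) - A * ∏ i, (if C i ∈ G then (1 : ℝ) else 0)) :=
            sum_le_sum fun C _ => mul_le_mul_of_nonneg_left (hkey C) (P_weight_nonneg C)
        _ = (∑ _C : Fin k → V × Bool, ((2 * Fintype.card V : ℝ) ^ k)⁻¹) * (k * ε + A) -
            A * ∑ C : Fin k → V × Bool, ((2 * Fintype.card V : ℝ) ^ k)⁻¹ *
              ∏ i, (if C i ∈ G then (1 : ℝ) else 0) := by
            rw [mul_sum, sum_mul, ← sum_sub_distrib]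
            exact sum_congr rfl fun C _ => by ring
        _ = _ := by rw [P_weight_sum, one_mul]
    have hprod := sum_prod_clause (V := V) (k := k) (fun _ l => if l ∈ G then (1 : ℝ) else 0)
    rw [prod_const, card_univ, Fintype.card_fin] at hprod
    rw [hprod] at hsum
    have hpow : γ ^ k ≤ (∑ l : V × Bool, (2 * Fintype.card V : ℝ)⁻¹ *
        (if l ∈ G then (1 : ℝ) else 0)) ^ k := pow_le_pow_left₀ hγ0 hγ k
    have h5 := mul_le_mul_of_nonneg_left hpow hA0
    have h6 : (1 - γ ^ k) ^ (s + 1) = A - A * γ ^ k := by rw [pow_succ]; ring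
    rw [h6]
    linarith

/-- **Kill lemma.** -/
theorem kill [Nonempty V] (hk : 0 < k) (δ : ℝ) (hδ : 0 < δ) (s1 : ℕ) (j : ℕ) :
    ∀ S : Set (V → Bool), δ * 2 ^ j ≤ tau j S →
      u k (j * s1) S ≤ (2 * k : ℝ) ^ j * (1 - δ ^ k) ^ s1 := by
  induction j with
  | zero =>
    intro S hS
    rw [pow_zero, mul_one, tau_zero] at hS
    have h1 : ne S = 0 := by
      by_contra h
      have h2 : S.Nonempty := by
        by_contra h3
        exact h (ne_of_not h3)
      rw [em, ne_of_nonempty h2] at hS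
      linarith
    have hδ1 : δ ≤ 1 := hS.trans (em_le_one S)
    have h3 : 0 ≤ (1 - δ ^ k) ^ s1 := pow_nonneg (sub_nonneg.2 (pow_le_one₀ hδ.le hδ1)) _
    rw [zero_mul, u_zero, h1]
    simpa using h3
  | succ j ih =>
    intro S hS
    classical
    have hδj : δ ≤ δ * 2 ^ j := le_mul_of_one_le_right hδ.le (one_le_pow₀ (by norm_num))
    have hle1 : δ * 2 ^ (j + 1) ≤ 1 := hS.trans (tau_le_one _ _)
    have hδ1 : δ ≤ 1 := by
      have : δ ≤ δ * 2 ^ (j + 1) := le_mul_of_one_le_right hδ.le (one_le_pow₀ (by norm_num))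
      linarith
    set ε0 : ℝ := (1 - δ ^ k) ^ s1 with hε0
    have hε0' : 0 ≤ ε0 := pow_nonneg (sub_nonneg.2 (pow_le_one₀ hδ.le hδ1)) _
    set G : Finset (V × Bool) := univ.filter fun l => δ * 2 ^ j ≤ tau j (S ∩ lset l) with hGdef
    have hsum : δ * 2 ^ (j + 1) ≤ ∑ l : V × Bool, (2 * Fintype.card V : ℝ)⁻¹ *
        (if l ∈ G then 1 else 0) + δ * 2 ^ j := by
      refine hS.trans ?_
      rw [tau_succ]
      have h1 : δ * 2 ^ j = ∑ _l : V × Bool, (2 * Fintype.card V : ℝ)⁻¹ * (δ * 2 ^ j) := by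
        rw [← sum_mul, L_weight_sum, one_mul]
      rw [h1, ← sum_add_distrib]
      refine sum_le_sum fun l _ => ?_
      rw [← mul_add]
      refine mul_le_mul_of_nonneg_left ?_ (L_weight_nonneg l)
      by_cases hl : l ∈ G
      · rw [if_pos hl]
        have := tau_le_one j (S ∩ lset l)
        have h2 : 0 ≤ δ * 2 ^ j := by positivity
        linarith
      · rw [if_neg hl, zero_add]
        rw [hGdef, mem_filter] at hl
        push Not at hl
        exact (hl (mem_univ l)).le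
    have hγ : δ ≤ ∑ l : V × Bool, (2 * Fintype.card V : ℝ)⁻¹ * (if l ∈ G then 1 else 0) := by
      rw [pow_succ] at hsum
      linarith
    have hε : 0 ≤ (2 * k : ℝ) ^ j * ε0 := by positivity
    have h1 := hit (k := k) (j * s1) G δ ((2 * k : ℝ) ^ j * ε0) hδ.le hγ hδ1 hε S
      (fun l hl => ih _ (by rw [hGdef, mem_filter] at hl; exact hl.2)) s1 S subset_rfl
    rw [show s1 + j * s1 = (j + 1) * s1 by ring, ← hε0] at h1
    refine h1.trans ?_
    have hk1 : (1 : ℝ) ≤ k := by exact_mod_cast hk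
    have h2 : (1 : ℝ) ≤ (2 * k : ℝ) ^ j := one_le_pow₀ (by linarith)
    have h3 : (1 : ℝ) ≤ k * (2 * k : ℝ) ^ j := by nlinarith
    calc ε0 + k * ((2 * k : ℝ) ^ j * ε0)
        = (1 + k * (2 * k : ℝ) ^ j) * ε0 := by ring
      _ ≤ (k * (2 * k : ℝ) ^ j + k * (2 * k : ℝ) ^ j) * ε0 := by
          refine mul_le_mul_of_nonneg_right ?_ hε0'
          linarith
      _ = (2 * k : ℝ) ^ (j + 1) * ε0 := by ring

end Vale.P170
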