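import Vale.Agent.P170.Defs

/-! P170, module M4: at density 1/100 a random formula (literal-tuple model) is satisfiable
with probability at least 1/2 (Hall's theorem and a union bound). -/

namespace Vale.P170

open Finset

/-- the variables of a clause -/
def cvars {n k : ℕ} (C : Fin k → Fin n × Bool) : Finset (Fin n) :=
  Finset.univ.image fun j => (C j).1

lemma sat_of_hall {n k m : ℕ} (F : Fin m → Fin k → Fin n × Bool)
    (h : ∀ s : Finset (Fin m), s.card ≤ (s.biUnion fun i => cvars (F i)).card) : SatT F := by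
  classical
  obtain ⟨f, hf, hf2⟩ := (Finset.all_card_le_biUnion_card_iff_exists_injective _).mp h
  have hj' : ∀ i, ∃ j, (F i j).1 = f i := by
    intro i
    have := hf2 i
    simpa [cvars] using this
  choose j hj using hj'
  refine ⟨fun v => if h : ∃ i, f i = v then (F h.choose (j h.choose)).2 else true,
    fun i => ⟨j i, ?_⟩⟩
  have hex : ∃ i', f i' = (F i (j i)).1 := ⟨i, (hj i).symm⟩
  have hc : hex.choose = i := hf (hex.choose_spec.trans (hj i))
  simp only [dif_pos hex]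
  rw [hc]

/-- formulas whose clauses with index in `A` only use variables in `X` -/
def badSet {n : ℕ} (k m : ℕ) (A : Finset (Fin m)) (X : Finset (Fin n)) :
    Finset (Fin m → Fin k → Fin n × Bool) :=
  Fintype.piFinset fun i => if i ∈ A then Fintype.piFinset fun _ => X ×ˢ (univ : Finset Bool)
    else univ

lemma card_badSet {n : ℕ} (k m : ℕ) (A : Finset (Fin m)) (X : Finset (Fin n)) :
    (badSet k m A X).card = ((2 * X.card)^k)^A.card * ((2 * n)^k)^(m - A.card) := by
  classical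
  unfold badSet
  rw [Fintype.card_piFinset]
  have e : ∀ i : Fin m, (if i ∈ A then Fintype.piFinset fun _ : Fin k => X ×ˢ (univ : Finset Bool)
      else univ).card = if i ∈ A then (2 * X.card)^k else (2 * n)^k := by
    intro i
    split_ifs
    · rw [Fintype.card_piFinset]
      simp [mul_comm]
    · simp [mul_comm]
  rw [Finset.prod_congr rfl (fun i _ => e i), Finset.prod_ite, Finset.prod_const,
    Finset.prod_const]
  congr 2
  · congr 1
    ext i; simp
  · have : (univ.filter fun i : Fin m => i ∉ A) = Aᶜ := by ext i; simp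
    rw [this, Finset.card_compl, Fintype.card_fin]

lemma fail_mem {n k m : ℕ} (hk : 1 ≤ k) (hmn : m ≤ n) (F : Fin m → Fin k → Fin n × Bool)
    (hF : ¬ SatT F) : ∃ s ∈ Ico 1 m, ∃ A ∈ powersetCard (s+1) (univ : Finset (Fin m)),
      ∃ X ∈ powersetCard s (univ : Finset (Fin n)), F ∈ badSet k m A X := by
  classical
  have h : ¬ ∀ s : Finset (Fin m), s.card ≤ (s.biUnion fun i => cvars (F i)).card :=
    fun h => hF (sat_of_hall F h)
  push Not at h
  obtain ⟨A, hA⟩ := h
  have hAm : A.card ≤ m := by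
    have := card_le_univ A
    rwa [Fintype.card_fin] at this
  have hpos : 1 ≤ A.card := by omega
  have hne : 1 ≤ (A.biUnion fun i => cvars (F i)).card := by
    rw [Nat.one_le_iff_ne_zero, ← Nat.pos_iff_ne_zero, Finset.card_pos]
    obtain ⟨i, hi⟩ := Finset.card_pos.mp hpos
    refine ⟨(F i ⟨0, hk⟩).1, ?_⟩
    rw [mem_biUnion]
    exact ⟨i, hi, mem_image.mpr ⟨⟨0, hk⟩, mem_univ _, rfl⟩⟩
  obtain ⟨s, hs⟩ := Nat.exists_eq_add_of_le' hpos
  obtain ⟨X, hX1, hX2⟩ := Finset.exists_superset_card_eq (s := A.biUnion fun i => cvars (F i))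
    (n := s) (by omega) (by rw [Fintype.card_fin]; omega)
  refine ⟨s, by rw [mem_Ico]; omega, A, ?_, X, ?_, ?_⟩
  · rw [mem_powersetCard]; exact ⟨subset_univ _, hs⟩
  · rw [mem_powersetCard]; exact ⟨subset_univ _, hX2⟩
  · unfold badSet
    rw [Fintype.mem_piFinset]
    intro i
    split_ifs with hi
    · rw [Fintype.mem_piFinset]
      intro j
      rw [mem_product]
      refine ⟨hX1 ?_, mem_univ _⟩
      rw [mem_biUnion]
      exact ⟨i, hi, mem_image.mpr ⟨j, mem_univ _, rfl⟩⟩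
    · exact mem_univ _

open Classical in
lemma card_fail {n k m : ℕ} (hk : 1 ≤ k) (hmn : m ≤ n) :
    (Finset.univ.filter fun F : Fin m → Fin k → Fin n × Bool => ¬ SatT F).card ≤
      ∑ s ∈ Ico 1 m, m.choose (s+1) * (n.choose s *
        (((2 * s)^k)^(s+1) * ((2 * n)^k)^(m - (s+1)))) := by
  have hsub : (Finset.univ.filter fun F : Fin m → Fin k → Fin n × Bool => ¬ SatT F) ⊆
      (Ico 1 m).biUnion fun s => (powersetCard (s+1) (univ : Finset (Fin m))).biUnion fun A =>
        (powersetCard s (univ : Finset (Fin n))).biUnion fun X => badSet k m A X := by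
    intro F hF
    rw [mem_filter] at hF
    obtain ⟨s, hs, A, hA, X, hX, hm⟩ := fail_mem hk hmn F hF.2
    rw [mem_biUnion]
    refine ⟨s, hs, ?_⟩
    rw [mem_biUnion]
    refine ⟨A, hA, ?_⟩
    rw [mem_biUnion]
    exact ⟨X, hX, hm⟩
  refine (card_le_card hsub).trans (card_biUnion_le.trans ?_)
  apply Finset.sum_le_sum
  intro s _
  refine card_biUnion_le.trans ?_
  have h1 : ∀ A ∈ powersetCard (s+1) (univ : Finset (Fin m)),
      ((powersetCard s (univ : Finset (Fin n))).biUnion fun X => badSet k m A X).card ≤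
        n.choose s * (((2 * s)^k)^(s+1) * ((2 * n)^k)^(m - (s+1))) := by
    intro A hA
    refine card_biUnion_le.trans ?_
    have h2 : ∀ X ∈ powersetCard s (univ : Finset (Fin n)), (badSet k m A X).card ≤
        ((2 * s)^k)^(s+1) * ((2 * n)^k)^(m - (s+1)) := by
      intro X hX
      rw [mem_powersetCard] at hA hX
      rw [card_badSet, hA.2, hX.2]
    refine (Finset.sum_le_card_nsmul _ _ _ h2).trans ?_
    rw [card_powersetCard, card_univ, Fintype.card_fin, smul_eq_mul]
  refine (Finset.sum_le_card_nsmul _ _ _ h1).trans ?_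
  rw [card_powersetCard, card_univ, Fintype.card_fin, smul_eq_mul]

lemma term_bound {n k m s : ℕ} (hk : 3 ≤ k) (hn : 1 ≤ n) (hm : 100 * m ≤ n) (hs1 : 1 ≤ s)
    (hsm : s < m) :
    (m.choose (s+1) : ℝ) * ((n.choose s : ℝ) * (((s:ℝ)/n)^k)^(s+1)) ≤ (1/100) * (1/2)^s := by
  have hn0 : (0:ℝ) < n := by exact_mod_cast hn
  have hx0 : (0:ℝ) ≤ (s:ℝ)/n := by positivity
  have hsn : (s:ℝ) ≤ n := by
    have : s ≤ n := by omega
    exact_mod_cast this
  have hx1 : (s:ℝ)/n ≤ 1 := by rw [div_le_one hn0]; exact hsn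
  have hmn : (m:ℝ)/n ≤ 1/100 := by
    rw [div_le_iff₀ hn0]
    have : (100 * m : ℝ) ≤ n := by exact_mod_cast hm
    linarith
  have h1 : (((s:ℝ)/n)^k)^(s+1) ≤ ((s:ℝ)/n)^(s+1) * ((s:ℝ)/n)^s := by
    calc (((s:ℝ)/n)^k)^(s+1) ≤ (((s:ℝ)/n)^3)^(s+1) :=
          pow_le_pow_left₀ (by positivity) (pow_le_pow_of_le_one hx0 hx1 hk) _
      _ = ((s:ℝ)/n)^(s+1) * ((s:ℝ)/n)^s * ((s:ℝ)/n)^(s+2) := by ring
      _ ≤ ((s:ℝ)/n)^(s+1) * ((s:ℝ)/n)^s * 1 := by
          apply mul_le_mul_of_nonneg_left (pow_le_one₀ hx0 hx1) (by positivity)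
      _ = _ := by rw [mul_one]
  have h2 : (m.choose (s+1) : ℝ) * ((s:ℝ)/n)^(s+1) ≤ (1/100)^(s+1) * Real.exp s := by
    have c1 : (m.choose (s+1) : ℝ) ≤ (m:ℝ)^(s+1) / (s+1).factorial :=
      Nat.choose_le_pow_div (s+1) m
    calc (m.choose (s+1) : ℝ) * ((s:ℝ)/n)^(s+1)
        ≤ ((m:ℝ)^(s+1) / (s+1).factorial) * ((s:ℝ)/n)^(s+1) :=
          mul_le_mul_of_nonneg_right c1 (by positivity)
      _ = ((m:ℝ)/n)^(s+1) * ((s:ℝ)^(s+1) / (s+1).factorial) := by
          rw [div_pow, div_pow]; ring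
      _ ≤ (1/100)^(s+1) * Real.exp s := by
          apply mul_le_mul (pow_le_pow_left₀ (by positivity) hmn _)
            (Real.pow_div_factorial_le_exp _ (by positivity) _) (by positivity) (by positivity)
  have h3 : (n.choose s : ℝ) * ((s:ℝ)/n)^s ≤ Real.exp s := by
    have c1 : (n.choose s : ℝ) ≤ (n:ℝ)^s / s.factorial := Nat.choose_le_pow_div s n
    calc (n.choose s : ℝ) * ((s:ℝ)/n)^s ≤ ((n:ℝ)^s / s.factorial) * ((s:ℝ)/n)^s :=
          mul_le_mul_of_nonneg_right c1 (by positivity)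
      _ = (s:ℝ)^s / s.factorial := by
          rw [div_pow]; field_simp
      _ ≤ Real.exp s := Real.pow_div_factorial_le_exp _ (by positivity) _
  have he : Real.exp s * Real.exp s ≤ 50^s := by
    have h4 : Real.exp (s:ℝ) = Real.exp 1 ^ s := by
      rw [← Real.exp_nat_mul, mul_one]
    rw [h4, ← mul_pow]
    apply pow_le_pow_left₀ (by positivity)
    have := Real.exp_one_lt_d9
    have := Real.exp_pos 1
    nlinarith
  calc (m.choose (s+1) : ℝ) * ((n.choose s : ℝ) * (((s:ℝ)/n)^k)^(s+1))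
      ≤ (m.choose (s+1) : ℝ) * ((n.choose s : ℝ) * (((s:ℝ)/n)^(s+1) * ((s:ℝ)/n)^s)) := by
        apply mul_le_mul_of_nonneg_left _ (by positivity)
        exact mul_le_mul_of_nonneg_left h1 (by positivity)
    _ = ((m.choose (s+1) : ℝ) * ((s:ℝ)/n)^(s+1)) * ((n.choose s : ℝ) * ((s:ℝ)/n)^s) := by ring
    _ ≤ ((1/100)^(s+1) * Real.exp s) * Real.exp s :=
        mul_le_mul h2 h3 (by positivity) (by positivity)
    _ = (1/100)^(s+1) * (Real.exp s * Real.exp s) := by ring
    _ ≤ (1/100)^(s+1) * 50^s := mul_le_mul_of_nonneg_left he (by positivity)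
    _ = (1/100) * ((1/100)*50)^s := by rw [pow_succ, mul_pow]; ring
    _ = (1/100) * (1/2)^s := by norm_num

theorem qSat_pos (k n : ℕ) (hk : 3 ≤ k) (hn : 1 ≤ n) : 1 / 2 ≤ qSat k n (n / 100) := by
  classical
  obtain ⟨m, hm⟩ : ∃ m, m = n / 100 := ⟨_, rfl⟩
  rw [← hm]
  have hm100 : 100 * m ≤ n := by omega
  have hn0 : (0:ℝ) < n := by exact_mod_cast hn
  have hcf := card_fail (n := n) (k := k) (m := m) (by omega) (by omega)
  set S := Finset.univ.filter fun F : Fin m → Fin k → Fin n × Bool => SatT F with hS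
  set U := Finset.univ.filter fun F : Fin m → Fin k → Fin n × Bool => ¬ SatT F with hU
  have htot : (S.card : ℝ) + U.card = ((2 * n : ℝ)^k)^m := by
    have h1 := Finset.card_filter_add_card_filter_not (s := (Finset.univ : Finset (Fin m → Fin k → Fin n × Bool)))
      (p := fun F => SatT F)
    have h2 : (Finset.univ : Finset (Fin m → Fin k → Fin n × Bool)).card = ((2 * n)^k)^m := by
      rw [card_univ]
      simp [mul_comm]
    rw [h2] at h1
    have h3 : (S.card : ℝ) + U.card = ((S.card + U.card : ℕ) : ℝ) := by push_cast; ring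
    rw [h3, hS, hU]
    have h4 : (((2 * n)^k)^m : ℝ) = ((((2 * n)^k)^m : ℕ) : ℝ) := by push_cast; ring
    rw [h4]
    exact_mod_cast h1
  have hT : (0:ℝ) < ((2 * n : ℝ)^k)^m := by positivity
  have hU2 : (U.card : ℝ) ≤ (1/50) * ((2 * n : ℝ)^k)^m := by
    have h5 : (U.card : ℝ) ≤ ∑ s ∈ Ico 1 m, ((1/100) * (1/2)^s) * ((2 * n : ℝ)^k)^m := by
      refine (Nat.cast_le.mpr hcf).trans ?_
      rw [Nat.cast_sum]
      apply Finset.sum_le_sum
      intro s hs
      rw [mem_Ico] at hs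
      have h6 := term_bound hk hn hm100 hs.1 hs.2
      have h7 := mul_le_mul_of_nonneg_right h6 hT.le
      refine le_trans (le_of_eq ?_) h7
      have h8 : ((2 * n : ℝ)^k)^m = ((2 * n : ℝ)^k)^(s+1) * ((2 * n : ℝ)^k)^(m-(s+1)) := by
        rw [← pow_add]; congr 1; omega
      have h9 : ((2 * s : ℝ)^k)^(s+1) = (((s:ℝ)/n)^k)^(s+1) * ((2 * n : ℝ)^k)^(s+1) := by
        rw [← mul_pow, ← mul_pow]
        congr 2
        field_simp
      push_cast
      rw [h8, h9]
      ring
    refine h5.trans ?_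
    rw [← Finset.sum_mul, ← Finset.mul_sum]
    apply mul_le_mul_of_nonneg_right _ hT.le
    have h10 : ∑ s ∈ Ico 1 m, (1/2:ℝ)^s ≤ 2 := by
      refine le_trans ?_ (sum_geometric_two_le m)
      apply Finset.sum_le_sum_of_subset_of_nonneg
      · intro s hs; rw [mem_Ico] at hs; rw [mem_range]; exact hs.2
      · intro s _ _; positivity
    linarith
  have hq : qSat k n m = S.card / ((2 * n : ℝ)^k)^m := by
    unfold qSat
    rw [hS]
  rw [hq, le_div_iff₀ hT]
  linarith

end Vale.P170
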