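import Mathlib

/-! P170, module M5: from the abstract properties of `P n m` to a limiting threshold. -/

namespace Vale.P170

open Finset Filter Topology

namespace M5

theorem rpow_split {N : ℝ} (hN : 0 < N) : N ^ (0.99 : ℝ) = N * N ^ (-0.01 : ℝ) := by
  have h := Real.rpow_add hN 1 (-0.01)
  rw [Real.rpow_one] at h
  rw [← h]
  norm_num

theorem tendsto_small : Tendsto (fun N : ℕ => (N : ℝ) ^ (-0.01 : ℝ)) atTop (𝓝 0) :=
  (tendsto_rpow_neg_atTop (by norm_num : (0 : ℝ) < 0.01)).comp tendsto_natCast_atTop_atTop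

theorem ev_w {δ : ℝ} (hδ : 0 < δ) :
    ∀ᶠ N : ℕ in atTop, 2 * ((⌈(N : ℝ) ^ (0.99 : ℝ)⌉₊ : ℕ) : ℝ) + 3 ≤ δ * N := by
  have h1 : ∀ᶠ N : ℕ in atTop, (N : ℝ) ^ (-0.01 : ℝ) < δ / 4 :=
    tendsto_small.eventually_lt_const (by linarith)
  have h2 : ∀ᶠ N : ℕ in atTop, 10 / δ ≤ (N : ℝ) :=
    tendsto_natCast_atTop_atTop.eventually_ge_atTop _
  filter_upwards [h1, h2, eventually_ge_atTop 1] with N hN1 hN2 hN3
  have hNp : (0 : ℝ) < N := by exact_mod_cast hN3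
  have h3 : ((⌈(N : ℝ) ^ (0.99 : ℝ)⌉₊ : ℕ) : ℝ) < (N : ℝ) ^ (0.99 : ℝ) + 1 :=
    Nat.ceil_lt_add_one (by positivity)
  have h4 : (N : ℝ) ^ (0.99 : ℝ) ≤ N * (δ / 4) := by
    rw [rpow_split hNp]
    exact mul_le_mul_of_nonneg_left hN1.le hNp.le
  rw [div_le_iff₀ hδ] at hN2
  linarith

theorem binom_cheb (M : ℕ) (hM : 1 ≤ M) (x : ℝ) (hx0 : 0 ≤ x) (hx1 : x ≤ 1) :
    3 / 4 ≤ ∑ j ∈ (range (M + 1)).filter (fun j : ℕ => ((j : ℝ) - x * M) ^ 2 ≤ M),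
      (M.choose j : ℝ) * x ^ j * (1 - x) ^ (M - j) := by
  have hx2 : 0 ≤ 1 - x := by linarith
  have hMp : (0 : ℝ) < M := by exact_mod_cast hM
  have hb : ∀ j : ℕ, 0 ≤ (M.choose j : ℝ) * x ^ j * (1 - x) ^ (M - j) := fun j => by positivity
  have htot : ∑ j ∈ range (M + 1), (M.choose j : ℝ) * x ^ j * (1 - x) ^ (M - j) = 1 := by
    have h := add_pow x (1 - x) M
    rw [show x + (1 - x) = 1 by ring, one_pow] at h
    refine Eq.trans ?_ h.symm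
    exact sum_congr rfl fun j _ => by ring
  have hvar : ∑ j ∈ range (M + 1), ((j : ℝ) - x * M) ^ 2 *
      ((M.choose j : ℝ) * x ^ j * (1 - x) ^ (M - j)) = M * (x * (1 - x)) := by
    have h := congrArg (Polynomial.eval x) (bernsteinPolynomial.variance ℝ M)
    simp only [bernsteinPolynomial, Polynomial.eval_finsetSum, Polynomial.eval_mul,
      Polynomial.eval_pow, Polynomial.eval_sub, Polynomial.eval_natCast, Polynomial.eval_X,
      Polynomial.eval_one, nsmul_eq_mul] at h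
    calc _ = ∑ j ∈ range (M + 1), ((M : ℝ) * x - j) ^ 2 *
          ((M.choose j : ℝ) * x ^ j * (1 - x) ^ (M - j)) :=
          sum_congr rfl fun j _ => by ring
      _ = _ := by rw [h]; ring
  have hsplit := sum_filter_add_sum_filter_not (range (M + 1))
    (fun j : ℕ => ((j : ℝ) - x * M) ^ 2 ≤ M)
    (fun j => (M.choose j : ℝ) * x ^ j * (1 - x) ^ (M - j))
  have hcomp : (∑ j ∈ (range (M + 1)).filter (fun j : ℕ => ¬ ((j : ℝ) - x * M) ^ 2 ≤ M),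
      (M.choose j : ℝ) * x ^ j * (1 - x) ^ (M - j)) * M ≤ M * (x * (1 - x)) := by
    rw [← hvar, sum_mul]
    calc _ ≤ ∑ j ∈ (range (M + 1)).filter (fun j : ℕ => ¬ ((j : ℝ) - x * M) ^ 2 ≤ M),
          ((j : ℝ) - x * M) ^ 2 * ((M.choose j : ℝ) * x ^ j * (1 - x) ^ (M - j)) := by
          apply sum_le_sum
          intro j hj
          have h := (mem_filter.mp hj).2
          push Not at h
          rw [mul_comm]
          exact mul_le_mul_of_nonneg_right h.le (hb j)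
      _ ≤ _ := by
          apply sum_le_sum_of_subset_of_nonneg (filter_subset _ _)
          intro j _ _
          exact mul_nonneg (sq_nonneg _) (hb j)
  have hq : x * (1 - x) ≤ 1 / 4 := by nlinarith [sq_nonneg (x - 1 / 2)]
  have hc2 : (∑ j ∈ (range (M + 1)).filter (fun j : ℕ => ¬ ((j : ℝ) - x * M) ^ 2 ≤ M),
      (M.choose j : ℝ) * x ^ j * (1 - x) ^ (M - j)) ≤ 1 / 4 := by
    by_contra hcon
    replace hcon := not_le.mp hcon
    have h5 : (M : ℝ) * (x * (1 - x)) ≤ M * (1 / 4) := mul_le_mul_of_nonneg_left hq hMp.le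
    have h6 : (1 / 4 : ℝ) * M < (∑ j ∈ (range (M + 1)).filter
      (fun j : ℕ => ¬ ((j : ℝ) - x * M) ^ 2 ≤ M),
      (M.choose j : ℝ) * x ^ j * (1 - x) ^ (M - j)) * M := mul_lt_mul_of_pos_right hcon hMp
    linarith
  rw [htot] at hsplit
  linarith

/-- the window property without the a priori bound on `t` -/
theorem window' (k : ℕ) (P : ℕ → ℕ → ℝ)
    (hFM : ∀ n m, P n m ≤ 2 ^ n * (1 - (1 / 2 : ℝ) ^ k) ^ m)
    (hW : ∀ c1 : ℝ, ∃ N0 : ℕ, ∀ N ≥ N0, ∀ t : ℕ,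
      ((t + 2 * ⌈(N : ℝ) ^ (0.99 : ℝ)⌉₊ : ℕ) : ℝ) ≤ c1 * N →
      (N : ℝ) ^ (-0.01 : ℝ) ≤ P N (t + 2 * ⌈(N : ℝ) ^ (0.99 : ℝ)⌉₊) →
      1 - (N : ℝ) ^ (-0.01 : ℝ) ≤ P N t) :
    ∃ N0 : ℕ, ∀ N ≥ N0, ∀ t : ℕ,
      (N : ℝ) ^ (-0.01 : ℝ) ≤ P N (t + 2 * ⌈(N : ℝ) ^ (0.99 : ℝ)⌉₊) →
      1 - (N : ℝ) ^ (-0.01 : ℝ) ≤ P N t := by
  obtain ⟨N0, hN0⟩ := hW (2 ^ (k + 1))
  refine ⟨max N0 1, ?_⟩
  intro N hN t ht
  have hN1 : N0 ≤ N := (le_max_left _ _).trans hN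
  have hN2 : 1 ≤ N := (le_max_right _ _).trans hN
  set T : ℕ := t + 2 * ⌈(N : ℝ) ^ (0.99 : ℝ)⌉₊ with hT
  by_cases hcase : (T : ℝ) ≤ 2 ^ (k + 1) * N
  · exact hN0 N hN1 t hcase ht
  · exfalso
    push Not at hcase
    have hNp : (1 : ℝ) ≤ N := by exact_mod_cast hN2
    have hy0 : (0 : ℝ) < (1 / 2 : ℝ) ^ k := by positivity
    have hy1 : (1 / 2 : ℝ) ^ k ≤ 1 := pow_le_one₀ (by norm_num) (by norm_num)
    have h1 : (1 - (1 / 2 : ℝ) ^ k) ^ T ≤ Real.exp (-2 * N) := by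
      calc (1 - (1 / 2 : ℝ) ^ k) ^ T ≤ (Real.exp (-(1 / 2 : ℝ) ^ k)) ^ T :=
            pow_le_pow_left₀ (by linarith) (Real.one_sub_le_exp_neg _) _
        _ = Real.exp (T * (-(1 / 2 : ℝ) ^ k)) := by rw [← Real.exp_nat_mul]
        _ ≤ Real.exp (-2 * N) := by
            apply Real.exp_le_exp.mpr
            have h2 : (2 : ℝ) ^ (k + 1) * (1 / 2 : ℝ) ^ k = 2 := by
              rw [pow_succ, mul_right_comm, ← mul_pow]
              norm_num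
            have h3 : 2 ^ (k + 1) * (N : ℝ) * (1 / 2 : ℝ) ^ k ≤ T * (1 / 2 : ℝ) ^ k :=
              mul_le_mul_of_nonneg_right hcase.le hy0.le
            have h4 : 2 ^ (k + 1) * (N : ℝ) * (1 / 2 : ℝ) ^ k = 2 * N := by
              rw [mul_right_comm, h2]
            linarith
    have h5 : (2 : ℝ) ^ N ≤ Real.exp N := by
      have h6 : (2 : ℝ) ≤ Real.exp 1 := by
        have := Real.add_one_le_exp (1 : ℝ)
        linarith
      calc (2 : ℝ) ^ N ≤ Real.exp 1 ^ N := pow_le_pow_left₀ (by norm_num) h6 _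
        _ = Real.exp N := by rw [← Real.exp_nat_mul, mul_one]
    have h7 : P N T ≤ Real.exp (-N) := by
      calc P N T ≤ 2 ^ N * (1 - (1 / 2 : ℝ) ^ k) ^ T := hFM N T
        _ ≤ Real.exp N * Real.exp (-2 * N) :=
            mul_le_mul h5 h1 (pow_nonneg (by linarith) _) (Real.exp_pos _).le
        _ = Real.exp (-N) := by rw [← Real.exp_add]; congr 1; ring
    have h8 : (N : ℝ)⁻¹ ≤ (N : ℝ) ^ (-0.01 : ℝ) := by
      rw [← Real.rpow_neg_one]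
      exact Real.rpow_le_rpow_of_exponent_le hNp (by norm_num)
    have h9 : Real.exp (-N) < (N : ℝ)⁻¹ := by
      rw [Real.exp_neg]
      apply inv_strictAnti₀ (by linarith)
      have := Real.add_one_le_exp (N : ℝ)
      linarith
    linarith

theorem stepB (P : ℕ → ℕ → ℝ) (h0 : ∀ n m, 0 ≤ P n m) (hanti : ∀ n, Antitone (P n))
    (hW : ∃ N0 : ℕ, ∀ N ≥ N0, ∀ t : ℕ,
      (N : ℝ) ^ (-0.01 : ℝ) ≤ P N (t + 2 * ⌈(N : ℝ) ^ (0.99 : ℝ)⌉₊) →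
      1 - (N : ℝ) ^ (-0.01 : ℝ) ≤ P N t)
    (c c' : ℝ) (hc : 0 ≤ c) (hcc : c < c')
    (hev : ∀ᶠ n : ℕ in atTop, P n ⌊c * n⌋₊ < 1 / 2) :
    Tendsto (fun n : ℕ => P n ⌊c' * n⌋₊) atTop (𝓝 0) := by
  obtain ⟨N0, hN0⟩ := hW
  have h1 : ∀ᶠ N : ℕ in atTop, (N : ℝ) ^ (-0.01 : ℝ) < 1 / 2 :=
    tendsto_small.eventually_lt_const (by norm_num)
  have hlt : ∀ᶠ n : ℕ in atTop, P n ⌊c' * n⌋₊ ≤ (n : ℝ) ^ (-0.01 : ℝ) := by
    filter_upwards [hev, h1, ev_w (sub_pos.mpr hcc), eventually_ge_atTop N0] with n hn1 hn2 hn3 hn4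
    by_contra hcon
    push Not at hcon
    have hle : ⌊c * n⌋₊ + 2 * ⌈(n : ℝ) ^ (0.99 : ℝ)⌉₊ ≤ ⌊c' * n⌋₊ := by
      apply Nat.le_floor
      push_cast
      have := Nat.floor_le (mul_nonneg hc (Nat.cast_nonneg n) : 0 ≤ c * (n : ℝ))
      nlinarith
    have h2 := hanti n hle
    have h3 := hN0 n hn4 ⌊c * n⌋₊ (hcon.le.trans h2)
    linarith
  exact squeeze_zero' (Eventually.of_forall fun n => h0 n _) hlt tendsto_small

section stepA

variable {P : ℕ → ℕ → ℝ} {N0 : ℕ} {c' ε : ℝ}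

theorem part_large (hanti : ∀ n, Antitone (P n))
    (hN0 : ∀ N ≥ N0, ∀ t : ℕ,
      (N : ℝ) ^ (-0.01 : ℝ) ≤ P N (t + 2 * ⌈(N : ℝ) ^ (0.99 : ℝ)⌉₊) →
      1 - (N : ℝ) ^ (-0.01 : ℝ) ≤ P N t)
    (hε : 0 < ε) (hcε : ε ≤ c') {n : ℕ} (hn1 : 1 ≤ n) (hn2 : N0 ≤ n)
    (hn3 : (n : ℝ) ^ (-0.01 : ℝ) ≤ 1 / 8)
    (hn4 : Real.sqrt (3 * c') + 4 ≤ ε * (1 - (3 / 2 : ℝ) ^ (-0.01 : ℝ)) * (n : ℝ) ^ (0.01 : ℝ))
    {q qi : ℕ} (hqi : 1 ≤ qi) (hq3 : q ≤ 3 * qi) (hq2 : 3 * qi ≤ 2 * q)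
    (IH : 1 / 2 ≤ P (qi * n) ⌊(c' - ε + ε * (qi : ℝ) ^ (-0.01 : ℝ)) * ((qi * n : ℕ) : ℝ)⌋₊)
    {M : ℕ} (hM : (M : ℝ) ≤ (c' - ε + ε * (q : ℝ) ^ (-0.01 : ℝ)) * ((q * n : ℕ) : ℝ))
    {j : ℕ} (hj : (j : ℝ) ≤ M * ((qi : ℝ) / q) + Real.sqrt M) :
    7 / 8 ≤ P (qi * n) j := by
  have hq1 : 1 ≤ q := by omega
  have hqR : (1 : ℝ) ≤ q := by exact_mod_cast hq1
  have hqp : (0 : ℝ) < q := by linarith
  have hqiR : (1 : ℝ) ≤ qi := by exact_mod_cast hqi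
  have hqip : (0 : ℝ) < qi := by linarith
  have hnR : (1 : ℝ) ≤ n := by exact_mod_cast hn1
  have hnp : (0 : ℝ) < n := by linarith
  have hq3R : (q : ℝ) ≤ 3 * qi := by exact_mod_cast hq3
  have hq2R : 3 * (qi : ℝ) ≤ 2 * q := by exact_mod_cast hq2
  obtain ⟨Ni, hNi⟩ : ∃ Ni : ℝ, Ni = ((qi * n : ℕ) : ℝ) := ⟨_, rfl⟩
  have hNi' : Ni = qi * n := by rw [hNi]; push_cast; ring
  have hNi1 : 1 ≤ Ni := by rw [hNi']; nlinarith
  have hNip : 0 < Ni := by linarith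
  have hnNi : (n : ℝ) ≤ Ni := by rw [hNi']; nlinarith
  have hc'p : 0 < c' := by linarith
  -- powers
  have hqpow1 : (q : ℝ) ^ (-0.01 : ℝ) ≤ 1 :=
    Real.rpow_le_one_of_one_le_of_nonpos hqR (by norm_num)
  have hqpow0 : 0 ≤ (q : ℝ) ^ (-0.01 : ℝ) := by positivity
  have hqpow : (q : ℝ) ^ (-0.01 : ℝ) ≤ (3 / 2 : ℝ) ^ (-0.01 : ℝ) * (qi : ℝ) ^ (-0.01 : ℝ) := by
    rw [← Real.mul_rpow (by norm_num) hqip.le]
    exact Real.rpow_le_rpow_of_nonpos (by positivity) (by linarith) (by norm_num)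
  have hNpow : Ni ^ (-0.01 : ℝ) = (qi : ℝ) ^ (-0.01 : ℝ) * (n : ℝ) ^ (-0.01 : ℝ) := by
    rw [hNi', Real.mul_rpow hqip.le hnp.le]
  have hnn : (n : ℝ) ^ (-0.01 : ℝ) * (n : ℝ) ^ (0.01 : ℝ) = 1 := by
    rw [← Real.rpow_add hnp]
    norm_num
  have hN99 : Ni ^ (0.99 : ℝ) = Ni * Ni ^ (-0.01 : ℝ) := rpow_split hNip
  have hkey : Ni ^ (0.99 : ℝ) * (n : ℝ) ^ (0.01 : ℝ) = Ni * (qi : ℝ) ^ (-0.01 : ℝ) := by
    rw [hN99, hNpow]
    calc Ni * ((qi : ℝ) ^ (-0.01 : ℝ) * (n : ℝ) ^ (-0.01 : ℝ)) * (n : ℝ) ^ (0.01 : ℝ)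
        = Ni * (qi : ℝ) ^ (-0.01 : ℝ) * ((n : ℝ) ^ (-0.01 : ℝ) * (n : ℝ) ^ (0.01 : ℝ)) := by ring
      _ = _ := by rw [hnn, mul_one]
  have hN99p : 1 ≤ Ni ^ (0.99 : ℝ) := Real.one_le_rpow hNi1 (by norm_num)
  -- bound of M
  have hMq : (M : ℝ) * ((qi : ℝ) / q) ≤ (c' - ε + ε * (q : ℝ) ^ (-0.01 : ℝ)) * Ni := by
    calc (M : ℝ) * ((qi : ℝ) / q)
        ≤ ((c' - ε + ε * (q : ℝ) ^ (-0.01 : ℝ)) * ((q * n : ℕ) : ℝ)) * ((qi : ℝ) / q) :=
          mul_le_mul_of_nonneg_right hM (by positivity)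
      _ = (c' - ε + ε * (q : ℝ) ^ (-0.01 : ℝ)) * Ni := by
          rw [hNi']
          push_cast
          field_simp
  have hMs : Real.sqrt M ≤ Real.sqrt (3 * c') * Ni ^ (0.99 : ℝ) := by
    have hM1 : (M : ℝ) ≤ (3 * c') * Ni := by
      have e1 : (c' - ε + ε * (q : ℝ) ^ (-0.01 : ℝ)) ≤ c' := by nlinarith
      have e2 : ((q * n : ℕ) : ℝ) ≤ 3 * Ni := by
        rw [hNi']
        push_cast
        nlinarith
      calc (M : ℝ) ≤ (c' - ε + ε * (q : ℝ) ^ (-0.01 : ℝ)) * ((q * n : ℕ) : ℝ) := hM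
        _ ≤ c' * ((q * n : ℕ) : ℝ) := mul_le_mul_of_nonneg_right e1 (Nat.cast_nonneg _)
        _ ≤ c' * (3 * Ni) := mul_le_mul_of_nonneg_left e2 hc'p.le
        _ = (3 * c') * Ni := by ring
    have hs : Real.sqrt Ni ≤ Ni ^ (0.99 : ℝ) := by
      rw [Real.sqrt_eq_rpow]
      exact Real.rpow_le_rpow_of_exponent_le hNi1 (by norm_num)
    calc Real.sqrt M ≤ Real.sqrt ((3 * c') * Ni) := Real.sqrt_le_sqrt hM1
      _ = Real.sqrt (3 * c') * Real.sqrt Ni := Real.sqrt_mul (by positivity) _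
      _ ≤ _ := mul_le_mul_of_nonneg_left hs (Real.sqrt_nonneg _)
  have hceil : ((⌈Ni ^ (0.99 : ℝ)⌉₊ : ℕ) : ℝ) ≤ 2 * Ni ^ (0.99 : ℝ) := by
    have := Nat.ceil_lt_add_one (a := Ni ^ (0.99 : ℝ)) (by positivity)
    linarith
  have hmain : (j : ℝ) + 2 * ((⌈Ni ^ (0.99 : ℝ)⌉₊ : ℕ) : ℝ) ≤
      (c' - ε + ε * (qi : ℝ) ^ (-0.01 : ℝ)) * Ni := by
    have e1 : (Real.sqrt (3 * c') + 4) * Ni ^ (0.99 : ℝ) ≤
        ε * (1 - (3 / 2 : ℝ) ^ (-0.01 : ℝ)) * (Ni * (qi : ℝ) ^ (-0.01 : ℝ)) := by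
      calc (Real.sqrt (3 * c') + 4) * Ni ^ (0.99 : ℝ)
          ≤ (ε * (1 - (3 / 2 : ℝ) ^ (-0.01 : ℝ)) * (n : ℝ) ^ (0.01 : ℝ)) * Ni ^ (0.99 : ℝ) :=
            mul_le_mul_of_nonneg_right hn4 (by positivity)
        _ = ε * (1 - (3 / 2 : ℝ) ^ (-0.01 : ℝ)) *
              (Ni ^ (0.99 : ℝ) * (n : ℝ) ^ (0.01 : ℝ)) := by ring
        _ = _ := by rw [hkey]
    have e2 : ε * (q : ℝ) ^ (-0.01 : ℝ) * Ni ≤
        ε * ((3 / 2 : ℝ) ^ (-0.01 : ℝ) * (qi : ℝ) ^ (-0.01 : ℝ)) * Ni := by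
      apply mul_le_mul_of_nonneg_right _ hNip.le
      exact mul_le_mul_of_nonneg_left hqpow hε.le
    linarith
  have hle : j + 2 * ⌈((qi * n : ℕ) : ℝ) ^ (0.99 : ℝ)⌉₊ ≤
      ⌊(c' - ε + ε * (qi : ℝ) ^ (-0.01 : ℝ)) * ((qi * n : ℕ) : ℝ)⌋₊ := by
    apply Nat.le_floor
    rw [← hNi]
    have e : ((j + 2 * ⌈Ni ^ (0.99 : ℝ)⌉₊ : ℕ) : ℝ) =
        (j : ℝ) + 2 * ((⌈Ni ^ (0.99 : ℝ)⌉₊ : ℕ) : ℝ) := by
      rw [Nat.cast_add, Nat.cast_mul, Nat.cast_ofNat]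
    rw [e]
    exact hmain
  have h2 := hanti (qi * n) hle
  have h3 : ((qi * n : ℕ) : ℝ) ^ (-0.01 : ℝ) ≤ 1 / 8 := by
    rw [← hNi]
    refine le_trans ?_ hn3
    exact Real.rpow_le_rpow_of_nonpos hnp hnNi (by norm_num)
  have h4 := hN0 (qi * n) (hn2.trans (Nat.le_mul_of_pos_left n hqi)) j
    (h3.trans ((by norm_num : (1 / 8 : ℝ) ≤ 1 / 2).trans (IH.trans h2)))
  linarith

theorem claim_q (h0 : ∀ n m, 0 ≤ P n m) (hanti : ∀ n, Antitone (P n)) (hzero : ∀ n, P n 0 = 1)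
    (hSM : ∀ n1 n2 m : ℕ, 1 ≤ n1 → 1 ≤ n2 →
      ∑ j ∈ range (m + 1), (m.choose j : ℝ) * ((n1 : ℝ) / (n1 + n2)) ^ j *
        ((n2 : ℝ) / (n1 + n2)) ^ (m - j) * (P n1 j * P n2 (m - j)) ≤ P (n1 + n2) m)
    (hN0 : ∀ N ≥ N0, ∀ t : ℕ,
      (N : ℝ) ^ (-0.01 : ℝ) ≤ P N (t + 2 * ⌈(N : ℝ) ^ (0.99 : ℝ)⌉₊) →
      1 - (N : ℝ) ^ (-0.01 : ℝ) ≤ P N t)
    (hε : 0 < ε) (hcε : ε ≤ c') {n : ℕ} (hn1 : 1 ≤ n) (hn2 : N0 ≤ n)
    (hn3 : (n : ℝ) ^ (-0.01 : ℝ) ≤ 1 / 8)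
    (hn4 : Real.sqrt (3 * c') + 4 ≤ ε * (1 - (3 / 2 : ℝ) ^ (-0.01 : ℝ)) * (n : ℝ) ^ (0.01 : ℝ))
    (hstart : 1 / 2 ≤ P n ⌊c' * n⌋₊) :
    ∀ q : ℕ, 1 ≤ q →
      1 / 2 ≤ P (q * n) ⌊(c' - ε + ε * (q : ℝ) ^ (-0.01 : ℝ)) * ((q * n : ℕ) : ℝ)⌋₊ := by
  intro q
  induction q using Nat.strong_induction_on with
  | _ q ih =>
    intro hq
    rcases Nat.lt_or_ge q 2 with hq2 | hq2
    · have hq1 : q = 1 := by omega
      subst hq1
      simpa using hstart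
    · set q1 := q / 2 with hq1def
      set q2 := q - q / 2 with hq2def
      have a1 : 1 ≤ q1 := by omega
      have a2 : 1 ≤ q2 := by omega
      have IH1 := ih q1 (by omega) a1
      have IH2 := ih q2 (by omega) a2
      set M := ⌊(c' - ε + ε * (q : ℝ) ^ (-0.01 : ℝ)) * ((q * n : ℕ) : ℝ)⌋₊ with hMdef
      have hqp : (0 : ℝ) < q := by exact_mod_cast (by omega : 0 < q)
      have hqpow0 : 0 ≤ (q : ℝ) ^ (-0.01 : ℝ) := by positivity
      have hM : (M : ℝ) ≤ (c' - ε + ε * (q : ℝ) ^ (-0.01 : ℝ)) * ((q * n : ℕ) : ℝ) := by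
        apply Nat.floor_le
        apply mul_nonneg _ (Nat.cast_nonneg _)
        nlinarith
      rcases Nat.eq_zero_or_pos M with hM0 | hM0
      · rw [hM0, hzero]
        norm_num
      · have hn1p : 1 ≤ q1 * n := Nat.mul_pos a1 hn1
        have hn2p : 1 ≤ q2 * n := Nat.mul_pos a2 hn1
        have hsum : q1 * n + q2 * n = q * n := by
          rw [← add_mul]
          congr 1
          omega
        have hnp : (0 : ℝ) < n := by exact_mod_cast hn1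
        have hq12 : (q1 : ℝ) + q2 = q := by exact_mod_cast (by omega : q1 + q2 = q)
        have hx1 : ((q1 * n : ℕ) : ℝ) / (((q1 * n : ℕ) : ℝ) + ((q2 * n : ℕ) : ℝ)) = (q1 : ℝ) / q := by
          push_cast
          rw [← add_mul, hq12]
          field_simp
        have hx2 : ((q2 * n : ℕ) : ℝ) / (((q1 * n : ℕ) : ℝ) + ((q2 * n : ℕ) : ℝ)) =
            1 - (q1 : ℝ) / q := by
          push_cast
          rw [← add_mul, hq12]
          field_simp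
          linarith
        have hSM' := hSM (q1 * n) (q2 * n) M hn1p hn2p
        rw [hsum, hx1, hx2] at hSM'
        refine le_trans ?_ hSM'
        have hxn : 0 ≤ (q1 : ℝ) / q := by positivity
        have hxl : (q1 : ℝ) / q ≤ 1 := by
          rw [div_le_one hqp]
          have : (0 : ℝ) ≤ q2 := Nat.cast_nonneg _
          linarith
        have hch := binom_cheb M hM0 ((q1 : ℝ) / q) hxn hxl
        have hterm : ∀ j ∈ (range (M + 1)).filter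
            (fun j : ℕ => ((j : ℝ) - (q1 : ℝ) / q * M) ^ 2 ≤ M),
            (M.choose j : ℝ) * ((q1 : ℝ) / q) ^ j * (1 - (q1 : ℝ) / q) ^ (M - j) * (49 / 64) ≤
            (M.choose j : ℝ) * ((q1 : ℝ) / q) ^ j * (1 - (q1 : ℝ) / q) ^ (M - j) *
              (P (q1 * n) j * P (q2 * n) (M - j)) := by
          intro j hj
          obtain ⟨hj1, hj2⟩ := mem_filter.mp hj
          have hjM : j ≤ M := by
            have := mem_range.mp hj1
            omega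
          have habs := Real.abs_le_sqrt hj2
          obtain ⟨hl, hu⟩ := abs_le.mp habs
          have p1 : 7 / 8 ≤ P (q1 * n) j :=
            part_large hanti hN0 hε hcε hn1 hn2 hn3 hn4 a1 (by omega) (by omega) IH1 hM
              (by linarith)
          have p2 : 7 / 8 ≤ P (q2 * n) (M - j) := by
            apply part_large hanti hN0 hε hcε hn1 hn2 hn3 hn4 a2 (by omega) (by omega) IH2 hM
            rw [Nat.cast_sub hjM]
            have e1 : (q2 : ℝ) / q = 1 - (q1 : ℝ) / q := by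
              rw [← hq12]
              have : (q1 : ℝ) + q2 ≠ 0 := by rw [hq12]; exact hqp.ne'
              field_simp
              ring
            rw [e1]
            linarith
          apply mul_le_mul_of_nonneg_left
          · nlinarith
          · have : 0 ≤ 1 - (q1 : ℝ) / q := by linarith
            positivity
        calc (1 / 2 : ℝ) ≤ 3 / 4 * (49 / 64) := by norm_num
          _ ≤ (∑ j ∈ (range (M + 1)).filter (fun j : ℕ => ((j : ℝ) - (q1 : ℝ) / q * M) ^ 2 ≤ M),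
                (M.choose j : ℝ) * ((q1 : ℝ) / q) ^ j * (1 - (q1 : ℝ) / q) ^ (M - j)) *
                (49 / 64) := mul_le_mul_of_nonneg_right hch (by norm_num)
          _ = ∑ j ∈ (range (M + 1)).filter (fun j : ℕ => ((j : ℝ) - (q1 : ℝ) / q * M) ^ 2 ≤ M),
                (M.choose j : ℝ) * ((q1 : ℝ) / q) ^ j * (1 - (q1 : ℝ) / q) ^ (M - j) *
                (49 / 64) := sum_mul _ _ _
          _ ≤ ∑ j ∈ (range (M + 1)).filter (fun j : ℕ => ((j : ℝ) - (q1 : ℝ) / q * M) ^ 2 ≤ M),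
                (M.choose j : ℝ) * ((q1 : ℝ) / q) ^ j * (1 - (q1 : ℝ) / q) ^ (M - j) *
                  (P (q1 * n) j * P (q2 * n) (M - j)) := sum_le_sum hterm
          _ ≤ _ := by
              apply sum_le_sum_of_subset_of_nonneg (filter_subset _ _)
              intro j _ _
              have h5 : 0 ≤ 1 - (q1 : ℝ) / q := by linarith
              have h6 := h0 (q1 * n) j
              have h7 := h0 (q2 * n) (M - j)
              positivity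

end stepA

theorem exp_neg_two_mul_le {x : ℝ} (hx0 : 0 ≤ x) (hx1 : x ≤ 1 / 2) :
    Real.exp (-(2 * x)) ≤ 1 - x := by
  rw [Real.exp_neg]
  have h1 : 1 + 2 * x ≤ Real.exp (2 * x) := by
    have := Real.add_one_le_exp (2 * x)
    linarith
  have h2 : (Real.exp (2 * x))⁻¹ ≤ (1 + 2 * x)⁻¹ := inv_anti₀ (by linarith) h1
  refine h2.trans ?_
  rw [inv_le_iff_one_le_mul₀ (by linarith)]
  nlinarith

theorem stepA (P : ℕ → ℕ → ℝ) (h0 : ∀ n m, 0 ≤ P n m) (h1 : ∀ n m, P n m ≤ 1)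
    (hanti : ∀ n, Antitone (P n)) (hzero : ∀ n, P n 0 = 1)
    (hSM : ∀ n1 n2 m : ℕ, 1 ≤ n1 → 1 ≤ n2 →
      ∑ j ∈ range (m + 1), (m.choose j : ℝ) * ((n1 : ℝ) / (n1 + n2)) ^ j *
        ((n2 : ℝ) / (n1 + n2)) ^ (m - j) * (P n1 j * P n2 (m - j)) ≤ P (n1 + n2) m)
    (hW : ∃ N0 : ℕ, ∀ N ≥ N0, ∀ t : ℕ,
      (N : ℝ) ^ (-0.01 : ℝ) ≤ P N (t + 2 * ⌈(N : ℝ) ^ (0.99 : ℝ)⌉₊) →
      1 - (N : ℝ) ^ (-0.01 : ℝ) ≤ P N t)
    (c c' : ℝ) (hc : 0 ≤ c) (hcc : c < c')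
    (hfreq : ∃ᶠ n : ℕ in atTop, 1 / 2 ≤ P n ⌊c' * n⌋₊) :
    Tendsto (fun n : ℕ => P n ⌊c * n⌋₊) atTop (𝓝 1) := by
  obtain ⟨N0, hN0⟩ := hW
  obtain ⟨ε, hε⟩ : ∃ ε : ℝ, c' = c + 4 * ε := ⟨(c' - c) / 4, by ring⟩
  have hεp : 0 < ε := by linarith
  have hcε : ε ≤ c' := by linarith
  have hc'p : 0 < c' := by linarith
  have hθ : (3 / 2 : ℝ) ^ (-0.01 : ℝ) < 1 :=
    Real.rpow_lt_one_of_one_lt_of_neg (by norm_num) (by norm_num)
  have hev : ∀ᶠ n : ℕ in atTop, 1 ≤ n ∧ N0 ≤ n ∧ (n : ℝ) ^ (-0.01 : ℝ) ≤ 1 / 8 ∧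
      Real.sqrt (3 * c') + 4 ≤ ε * (1 - (3 / 2 : ℝ) ^ (-0.01 : ℝ)) * (n : ℝ) ^ (0.01 : ℝ) := by
    have e1 : ∀ᶠ n : ℕ in atTop, (n : ℝ) ^ (-0.01 : ℝ) < 1 / 8 :=
      tendsto_small.eventually_lt_const (by norm_num)
    have e2 : Tendsto (fun n : ℕ => (n : ℝ) ^ (0.01 : ℝ)) atTop atTop :=
      (tendsto_rpow_atTop (by norm_num : (0 : ℝ) < 0.01)).comp tendsto_natCast_atTop_atTop
    have hη : 0 < ε * (1 - (3 / 2 : ℝ) ^ (-0.01 : ℝ)) := mul_pos hεp (by linarith)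
    have e3 := e2.eventually_ge_atTop
      ((Real.sqrt (3 * c') + 4) / (ε * (1 - (3 / 2 : ℝ) ^ (-0.01 : ℝ))))
    filter_upwards [e1, e3, eventually_ge_atTop 1, eventually_ge_atTop N0] with n a1 a2 a3 a4
    refine ⟨a3, a4, a1.le, ?_⟩
    rw [div_le_iff₀ hη] at a2
    linarith
  obtain ⟨n, hn, hn1, hn2, hn3, hn4⟩ := (hfreq.and_eventually hev).exists
  have hclaim := claim_q h0 hanti hzero hSM hN0 hεp hcε hn1 hn2 hn3 hn4 hn
  have hnp : (0 : ℝ) < n := by exact_mod_cast hn1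
  have hγ : 0 < Real.exp (-(2 * n * c')) / 2 := by positivity
  have hlow : ∀ᶠ N : ℕ in atTop,
      Real.exp (-(2 * n * c')) / 2 ≤ P N ⌊(c' - 2 * ε) * N⌋₊ := by
    have hb : ∀ᶠ N : ℕ in atTop, (c' - ε) * n / ε ≤ (N : ℝ) :=
      tendsto_natCast_atTop_atTop.eventually_ge_atTop _
    filter_upwards [eventually_ge_atTop (2 * n), hb] with N hN1 hN2
    rw [div_le_iff₀ hεp] at hN2
    have hdm : N / n * n + N % n = N := Nat.div_add_mod' N n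
    have hq1 : 1 ≤ N / n := by
      rw [Nat.one_le_div_iff hn1]
      omega
    have hrn : N % n < n := Nat.mod_lt _ hn1
    obtain ⟨q, hq⟩ : ∃ q, q = N / n := ⟨_, rfl⟩
    obtain ⟨r, hr⟩ : ∃ r, r = N % n := ⟨_, rfl⟩
    rw [← hq, ← hr] at hdm
    rw [← hq] at hq1
    rw [← hr] at hrn
    have hNR : (q : ℝ) * n + r = N := by exact_mod_cast hdm
    have hrnR : (r : ℝ) ≤ n := by exact_mod_cast hrn.le
    have hr0 : (0 : ℝ) ≤ r := Nat.cast_nonneg _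
    have hNp : (0 : ℝ) < N := by
      have : (0 : ℝ) < q := by exact_mod_cast hq1
      have := mul_pos this hnp
      linarith
    have hN2n : 2 * (n : ℝ) ≤ N := by exact_mod_cast hN1
    obtain ⟨m, hm⟩ : ∃ m, m = ⌊(c' - 2 * ε) * (N : ℝ)⌋₊ := ⟨_, rfl⟩
    rw [← hm]
    have hqpow0 : 0 ≤ (q : ℝ) ^ (-0.01 : ℝ) := by positivity
    have hmle : m ≤ ⌊(c' - ε + ε * (q : ℝ) ^ (-0.01 : ℝ)) * ((q * n : ℕ) : ℝ)⌋₊ := by
      rw [hm]
      apply Nat.floor_mono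
      have e1 : (c' - ε) * ((q : ℝ) * n) ≤
          (c' - ε + ε * (q : ℝ) ^ (-0.01 : ℝ)) * ((q * n : ℕ) : ℝ) := by
        push_cast
        apply mul_le_mul_of_nonneg_right _ (by positivity)
        nlinarith
      refine le_trans ?_ e1
      have e2 : (c' - ε) * ((q : ℝ) * n) = (c' - ε) * N - (c' - ε) * r := by
        rw [← hNR]; ring
      rw [e2]
      have e3 : (c' - ε) * (r : ℝ) ≤ (c' - ε) * n :=
        mul_le_mul_of_nonneg_left hrnR (by linarith)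
      nlinarith
    have hP : 1 / 2 ≤ P (q * n) m := (hclaim q hq1).trans (hanti _ hmle)
    have hexp1 : Real.exp (-(2 * n * c')) ≤ 1 := by
      rw [Real.exp_le_one_iff]
      have : 0 ≤ 2 * (n : ℝ) * c' := by positivity
      linarith
    rcases Nat.eq_zero_or_pos r with hr1 | hr1
    · have hNq : N = q * n := by omega
      rw [hNq]
      linarith
    · have hqn : 1 ≤ q * n := Nat.mul_pos hq1 hn1
      have h := hSM (q * n) r m hqn hr1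
      rw [hdm] at h
      refine le_trans ?_ h
      have hx0 : (0 : ℝ) ≤ ((q * n : ℕ) : ℝ) / (((q * n : ℕ) : ℝ) + r) := by positivity
      have hy0 : (0 : ℝ) ≤ (r : ℝ) / (((q * n : ℕ) : ℝ) + r) := by positivity
      have hs := single_le_sum (s := range (m + 1)) (f := fun j => (m.choose j : ℝ) *
        (((q * n : ℕ) : ℝ) / (((q * n : ℕ) : ℝ) + r)) ^ j *
        ((r : ℝ) / (((q * n : ℕ) : ℝ) + r)) ^ (m - j) * (P (q * n) j * P r (m - j)))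
        (fun j _ => by
          have a1 := h0 (q * n) j
          have a2 := h0 r (m - j)
          positivity) (mem_range.mpr (Nat.lt_succ_self m))
      refine le_trans ?_ hs
      simp only [Nat.choose_self, Nat.cast_one, one_mul, Nat.sub_self, pow_zero, mul_one, hzero]
      have hx : ((q * n : ℕ) : ℝ) / (((q * n : ℕ) : ℝ) + r) = 1 - (r : ℝ) / N := by
        push_cast
        rw [hNR]
        field_simp
        linarith
      rw [hx]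
      have hrN : (r : ℝ) / N ≤ n / N := div_le_div_of_nonneg_right hrnR hNp.le
      have hnN : (n : ℝ) / N ≤ 1 / 2 := by
        rw [div_le_iff₀ hNp]
        linarith
      have hbase : Real.exp (-(2 * (n / N))) ≤ 1 - (r : ℝ) / N :=
        (exp_neg_two_mul_le (by positivity) hnN).trans (by linarith)
      have hpow : Real.exp (-(2 * n * c')) ≤ (1 - (r : ℝ) / N) ^ m := by
        calc Real.exp (-(2 * n * c')) ≤ Real.exp (m * (-(2 * (n / N)))) := by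
              apply Real.exp_le_exp.mpr
              have hmN : (m : ℝ) ≤ c' * N := by
                rw [hm]
                refine (Nat.floor_le ?_).trans ?_
                · apply mul_nonneg _ hNp.le
                  linarith
                · nlinarith
              have e3 : (m : ℝ) * (n / N) ≤ c' * n := by
                calc (m : ℝ) * (n / N) ≤ (c' * N) * (n / N) :=
                      mul_le_mul_of_nonneg_right hmN (by positivity)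
                  _ = c' * n := by field_simp
              nlinarith
          _ = Real.exp (-(2 * (n / N))) ^ m := by rw [← Real.exp_nat_mul]
          _ ≤ _ := pow_le_pow_left₀ (Real.exp_pos _).le hbase _
      calc Real.exp (-(2 * n * c')) / 2 = Real.exp (-(2 * n * c')) * (1 / 2) := by ring
        _ ≤ (1 - (r : ℝ) / N) ^ m * P (q * n) m :=
          mul_le_mul hpow hP (by norm_num) ((Real.exp_pos _).le.trans hpow)
  have hres : ∀ᶠ N : ℕ in atTop, 1 - (N : ℝ) ^ (-0.01 : ℝ) ≤ P N ⌊c * N⌋₊ := by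
    have e1 : ∀ᶠ N : ℕ in atTop, (N : ℝ) ^ (-0.01 : ℝ) < Real.exp (-(2 * n * c')) / 2 :=
      tendsto_small.eventually_lt_const hγ
    have e2 := ev_w (by linarith : 0 < 2 * ε)
    filter_upwards [hlow, e1, e2, eventually_ge_atTop N0] with N b1 b2 b3 b4
    apply hN0 N b4
    have hle : ⌊c * N⌋₊ + 2 * ⌈(N : ℝ) ^ (0.99 : ℝ)⌉₊ ≤ ⌊(c' - 2 * ε) * N⌋₊ := by
      apply Nat.le_floor
      have b5 := Nat.floor_le (mul_nonneg hc (Nat.cast_nonneg N) : 0 ≤ c * (N : ℝ))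
      have b6 : ((⌊c * (N : ℝ)⌋₊ + 2 * ⌈(N : ℝ) ^ (0.99 : ℝ)⌉₊ : ℕ) : ℝ) =
          ((⌊c * (N : ℝ)⌋₊ : ℕ) : ℝ) + 2 * ((⌈(N : ℝ) ^ (0.99 : ℝ)⌉₊ : ℕ) : ℝ) := by
        rw [Nat.cast_add, Nat.cast_mul, Nat.cast_ofNat]
      rw [b6, hε]
      linarith
    have b7 := hanti N hle
    linarith
  have hone : Tendsto (fun N : ℕ => 1 - (N : ℝ) ^ (-0.01 : ℝ)) atTop (𝓝 1) := by
    have := tendsto_small.const_sub 1
    simpa using this
  exact tendsto_of_tendsto_of_tendsto_of_le_of_le' hone tendsto_const_nhds hres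
    (Eventually.of_forall fun N => h1 N _)

end M5

open M5 in
theorem threshold_of (k : ℕ) (hk : 1 ≤ k) (P : ℕ → ℕ → ℝ)
    (h0 : ∀ n m, 0 ≤ P n m) (h1 : ∀ n m, P n m ≤ 1) (hanti : ∀ n, Antitone (P n))
    (hzero : ∀ n, P n 0 = 1)
    (hFM : ∀ n m, P n m ≤ 2 ^ n * (1 - (1 / 2 : ℝ) ^ k) ^ m)
    (hSM : ∀ n1 n2 m : ℕ, 1 ≤ n1 → 1 ≤ n2 →
      ∑ j ∈ range (m + 1), (m.choose j : ℝ) * ((n1 : ℝ) / (n1 + n2)) ^ j *
        ((n2 : ℝ) / (n1 + n2)) ^ (m - j) * (P n1 j * P n2 (m - j)) ≤ P (n1 + n2) m)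
    (hW : ∀ c1 : ℝ, ∃ N0 : ℕ, ∀ N ≥ N0, ∀ t : ℕ,
      ((t + 2 * ⌈(N : ℝ) ^ (0.99 : ℝ)⌉₊ : ℕ) : ℝ) ≤ c1 * N →
      (N : ℝ) ^ (-0.01 : ℝ) ≤ P N (t + 2 * ⌈(N : ℝ) ^ (0.99 : ℝ)⌉₊) →
      1 - (N : ℝ) ^ (-0.01 : ℝ) ≤ P N t)
    (hpos : ∀ n, 1 ≤ n → 1 / 2 ≤ P n (n / 100)) :
    ∃ α : ℝ, 0 < α ∧
      (∀ c : ℝ, 0 ≤ c → c < α → Tendsto (fun n : ℕ => P n ⌊c * n⌋₊) atTop (𝓝 1)) ∧
      (∀ c : ℝ, α < c → Tendsto (fun n : ℕ => P n ⌊c * n⌋₊) atTop (𝓝 0)) := by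
  have hW' := window' k P hFM hW
  let S : Set ℝ := {c : ℝ | 0 ≤ c ∧ ∃ᶠ n : ℕ in atTop, 1 / 2 ≤ P n ⌊c * n⌋₊}
  have hmem : (1 / 100 : ℝ) ∈ S := by
    refine ⟨by norm_num, Eventually.frequently ?_⟩
    filter_upwards [eventually_ge_atTop 1] with n hn
    have e : ⌊(1 / 100 : ℝ) * n⌋₊ = n / 100 := by
      rw [show (1 / 100 : ℝ) * n = (n : ℝ) / ((100 : ℕ) : ℝ) by push_cast; ring]
      rw [Nat.floor_div_natCast, Nat.floor_natCast]
    rw [e]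
    exact hpos n hn
  have hbdd : BddAbove S := by
    refine ⟨2 ^ (k + 2), ?_⟩
    intro c hcS
    by_contra hcon
    push Not at hcon
    obtain ⟨hc0, hfreq⟩ := hcS
    have hev : ∀ᶠ n : ℕ in atTop, ¬ (1 / 2 ≤ P n ⌊c * n⌋₊) := by
      filter_upwards [eventually_ge_atTop 2] with n hn
      have hnR : (2 : ℝ) ≤ n := by exact_mod_cast hn
      have hy0 : (0 : ℝ) < (1 / 2 : ℝ) ^ k := by positivity
      have hy1 : (1 / 2 : ℝ) ^ k ≤ 1 := pow_le_one₀ (by norm_num) (by norm_num)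
      have h2 : (2 : ℝ) ^ (k + 2) * (1 / 2 : ℝ) ^ k = 4 := by
        rw [pow_add, mul_right_comm, ← mul_pow]
        norm_num
      have hfl : c * n < (⌊c * (n : ℝ)⌋₊ : ℝ) + 1 := Nat.lt_floor_add_one _
      have hexp : (1 - (1 / 2 : ℝ) ^ k) ^ ⌊c * (n : ℝ)⌋₊ ≤ Real.exp (-(4 * n - 1)) := by
        calc (1 - (1 / 2 : ℝ) ^ k) ^ ⌊c * (n : ℝ)⌋₊
            ≤ (Real.exp (-(1 / 2 : ℝ) ^ k)) ^ ⌊c * (n : ℝ)⌋₊ :=
              pow_le_pow_left₀ (by linarith) (Real.one_sub_le_exp_neg _) _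
          _ = Real.exp ((⌊c * (n : ℝ)⌋₊ : ℝ) * (-(1 / 2 : ℝ) ^ k)) := by rw [← Real.exp_nat_mul]
          _ ≤ Real.exp (-(4 * n - 1)) := by
              apply Real.exp_le_exp.mpr
              have h3 : 2 ^ (k + 2) * (n : ℝ) ≤ c * n :=
                mul_le_mul_of_nonneg_right hcon.le (by linarith)
              have h4 : (2 ^ (k + 2) * (n : ℝ) - 1) * (1 / 2 : ℝ) ^ k ≤
                  (⌊c * (n : ℝ)⌋₊ : ℝ) * (1 / 2 : ℝ) ^ k :=
                mul_le_mul_of_nonneg_right (by linarith) hy0.le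
              have h5 : (2 ^ (k + 2) * (n : ℝ) - 1) * (1 / 2 : ℝ) ^ k =
                  4 * n - (1 / 2 : ℝ) ^ k := by
                rw [sub_mul, mul_right_comm, h2, one_mul]
              linarith
      have h5 : (2 : ℝ) ^ n ≤ Real.exp n := by
        have h6 : (2 : ℝ) ≤ Real.exp 1 := by
          have := Real.add_one_le_exp (1 : ℝ)
          linarith
        calc (2 : ℝ) ^ n ≤ Real.exp 1 ^ n := pow_le_pow_left₀ (by norm_num) h6 _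
          _ = Real.exp n := by rw [← Real.exp_nat_mul, mul_one]
      have h7 : P n ⌊c * n⌋₊ ≤ Real.exp (-1) := by
        calc P n ⌊c * n⌋₊ ≤ 2 ^ n * (1 - (1 / 2 : ℝ) ^ k) ^ ⌊c * (n : ℝ)⌋₊ := hFM n _
          _ ≤ Real.exp n * Real.exp (-(4 * n - 1)) :=
              mul_le_mul h5 hexp (pow_nonneg (by linarith) _) (Real.exp_pos _).le
          _ = Real.exp (n + -(4 * n - 1)) := by rw [← Real.exp_add]
          _ ≤ Real.exp (-1) := Real.exp_le_exp.mpr (by linarith)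
      have h8 : Real.exp (-1) < 1 / 2 := by
        rw [Real.exp_neg]
        rw [inv_lt_comm₀ (Real.exp_pos _) (by norm_num)]
        have := Real.exp_one_gt_d9
        norm_num
        linarith
      linarith
    exact hfreq (hev.mono fun n hn => hn)
  have hα1 : (1 / 100 : ℝ) ≤ sSup S := le_csSup hbdd hmem
  refine ⟨sSup S, by linarith, ?_, ?_⟩
  · intro c hc hlt
    obtain ⟨c', hc'S, hcc'⟩ := exists_lt_of_lt_csSup ⟨_, hmem⟩ hlt
    exact stepA P h0 h1 hanti hzero hSM hW' c c' hc hcc' hc'S.2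
  · intro c hlt
    obtain ⟨d, hd1, hd2⟩ := exists_between hlt
    have hd0 : 0 ≤ d := by linarith
    have hdS : d ∉ S := fun h => by
      have := le_csSup hbdd h
      linarith
    have hev : ∀ᶠ n : ℕ in atTop, P n ⌊d * n⌋₊ < 1 / 2 := by
      by_contra hcon
      apply hdS
      refine ⟨hd0, ?_⟩
      rw [Filter.not_eventually] at hcon
      exact hcon.mono fun n hn => not_lt.mp hn
    exact stepB P h0 hanti hW' d c hd0 hd2 hev

end Vale.P170
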