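import Mathlib

/-! P170, module M6: the asymptotic computation giving the polynomially narrow window. -/

namespace Vale.P170

open Finset Filter Topology

namespace M6

/-- The numerical inequality behind `k ≥ 3`. -/
theorem expo (κ : ℝ) (hκ : 3 ≤ κ) : 1 / κ + 1 / 15 ≤ (κ - 1) / (2 * κ - 1) := by
  have h1 : 0 < κ := by linarith
  have h2 : 0 < 2 * κ - 1 := by linarith
  have h3 : (κ - 1) / (2 * κ - 1) - (1 / κ + 1 / 15)
      = (κ - 3) * (13 * κ - 5) / (15 * κ * (2 * κ - 1)) := by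
    rw [div_add_div _ _ h1.ne' (by norm_num), div_sub_div _ _ h2.ne' (by positivity),
      div_eq_div_iff (by positivity) (by positivity)]
    ring
  have h4 : 0 ≤ (κ - 3) * (13 * κ - 5) / (15 * κ * (2 * κ - 1)) := by
    apply div_nonneg
    · exact mul_nonneg (by linarith) (by linarith)
    · positivity
  linarith

/-- The final comparison for one `N`. -/
theorem core (k : ℕ) (hk : 3 ≤ k) (p e : ℕ → ℝ) (t w : ℕ) (c1 x q lam : ℝ)
    (hx1 : 1 ≤ x) (hanti : Antitone p)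
    (he0 : ∀ m, 0 ≤ e m) (hlam : lam = x ^ (1 / (k : ℝ)))
    (hW1 : ∀ m : ℕ, (1 - p (m + 1)) * ∑ d ∈ range w, p (m + 1 + d) ≤
        (m + 1) * (lam + w * (lam⁻¹) ^ (k - 1)) * e m)
    (ht : ((t + 2 * w : ℕ) : ℝ) ≤ c1 * x) (hc1 : 0 < c1)
    (hw : x ^ (0.99 : ℝ) ≤ w) (hwx : (w : ℝ) ≤ x)
    (hq : q = x ^ (-0.01 : ℝ)) (h1 : q ≤ p (t + 2 * w)) (h2 : p t < 1 - q) :
    w * (x ^ (-(0.03 + 1 / (k : ℝ))) / (2 * c1)) ≤ ∑ n ∈ Ico t (t + w), e n := by
  have hx0 : 0 < x := by linarith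
  have hk0 : (0 : ℝ) < k := by exact_mod_cast (by omega : 0 < k)
  have hq0 : 0 < q := by rw [hq]; positivity
  have hlam0 : 0 < lam := by rw [hlam]; positivity
  have hwpos : (0 : ℝ) < w := lt_of_lt_of_le (by positivity) hw
  -- `lam + w lam^{-(k-1)} ≤ 2 lam`
  have hlk : lam ^ k = x := by
    rw [hlam, ← Real.rpow_natCast, ← Real.rpow_mul hx0.le, one_div, inv_mul_cancel₀ hk0.ne',
      Real.rpow_one]
  have hK : lam + w * (lam⁻¹) ^ (k - 1) ≤ 2 * lam := by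
    have h3 : (w : ℝ) * (lam⁻¹) ^ (k - 1) ≤ lam := by
      rw [inv_pow, ← div_eq_mul_inv, div_le_iff₀ (by positivity), ← pow_succ',
        Nat.sub_add_cancel (by omega), hlk]
      exact hwx
    linarith
  have key : ∀ n ∈ Ico t (t + w), x ^ (-(0.03 + 1 / (k : ℝ))) / (2 * c1) ≤ e n := by
    intro n hn
    rw [mem_Ico] at hn
    have h3 : q ≤ 1 - p (n + 1) := by
      have : p (n + 1) ≤ p t := hanti (by omega)
      linarith
    have h4 : (w : ℝ) * q ≤ ∑ d ∈ range w, p (n + 1 + d) := by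
      calc (w : ℝ) * q = ∑ _d ∈ range w, q := by rw [sum_const, card_range, nsmul_eq_mul]
        _ ≤ ∑ d ∈ range w, p (n + 1 + d) := by
          refine sum_le_sum fun d hd => ?_
          rw [mem_range] at hd
          exact h1.trans (hanti (by omega))
    have h5 : q * (w * q) ≤ (n + 1) * (lam + w * (lam⁻¹) ^ (k - 1)) * e n :=
      (mul_le_mul h3 h4 (by positivity) (hq0.le.trans h3)).trans (hW1 n)
    have h6 : ((n : ℝ) + 1) ≤ c1 * x := by
      refine le_trans ?_ ht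
      exact_mod_cast (by omega : n + 1 ≤ t + 2 * w)
    have h7 : (n + 1) * (lam + w * (lam⁻¹) ^ (k - 1)) * e n ≤ (c1 * x) * (2 * lam) * e n := by
      refine mul_le_mul_of_nonneg_right ?_ (he0 n)
      exact mul_le_mul h6 hK (by positivity) (by positivity)
    have h8 : q * (w * q) ≤ (c1 * x) * (2 * lam) * e n := h5.trans h7
    have h9 : x ^ (0.97 : ℝ) ≤ q * (w * q) := by
      have e1 : q * (x ^ (0.99 : ℝ) * q) = x ^ (0.97 : ℝ) := by
        rw [hq, ← Real.rpow_add hx0, ← Real.rpow_add hx0]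
        norm_num
      rw [← e1]
      gcongr
    have h10 : x ^ (0.97 : ℝ) ≤ (c1 * x) * (2 * lam) * e n := h9.trans h8
    rw [div_le_iff₀ (by positivity)]
    have e2 : x ^ (-(0.03 + 1 / (k : ℝ))) * (x * lam) = x ^ (0.97 : ℝ) := by
      rw [hlam]
      nth_rewrite 2 [← Real.rpow_one x]
      rw [← Real.rpow_add hx0, ← Real.rpow_add hx0]
      congr 1
      ring
    have h11 : x ^ (-(0.03 + 1 / (k : ℝ))) * (x * lam) ≤ (e n * (2 * c1)) * (x * lam) := by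
      rw [e2]
      calc x ^ (0.97 : ℝ) ≤ (c1 * x) * (2 * lam) * e n := h10
        _ = _ := by ring
    exact le_of_mul_le_mul_right h11 (by positivity)
  calc w * (x ^ (-(0.03 + 1 / (k : ℝ))) / (2 * c1))
      = ∑ _n ∈ Ico t (t + w), x ^ (-(0.03 + 1 / (k : ℝ))) / (2 * c1) := by
        rw [sum_const, Nat.card_Ico, Nat.add_sub_cancel_left, nsmul_eq_mul]
    _ ≤ _ := sum_le_sum key

/-- The upper bound for one `N`. -/
theorem upper (k : ℕ) (hk : 3 ≤ k) (w j0 s1 : ℕ) (c1 x δ τ B : ℝ)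
    (hx1 : 1 ≤ x) (hw : x ^ (0.99 : ℝ) ≤ w)
    (hδ : δ = 0.005 / k) (hj0 : (j0 : ℝ) ≤ δ * Real.log x) (hj0' : δ * Real.log x ≤ j0 + 1)
    (hτ : τ = x ^ (-(1 / (2 * (k : ℝ) - 1))))
    (hB : B = Real.exp (1 / δ))
    (hs1 : (s1 : ℝ) ≤ 2 * x ^ ((k : ℝ) * (1 / (2 * (k : ℝ) - 1)) + 0.01))
    (hlog : 2 * (δ * Real.log x) ≤ x ^ (0.005 : ℝ))
    (hjx : (j0 : ℝ) / (2 * x) ≤ τ) :
    Real.exp (c1 * k / 2) * (w * (τ + j0 / (2 * x)) ^ (k - 1) + 2 * (j0 * s1)) +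
          w * (B⁻¹) ^ j0 * Real.exp (c1 * k / 2 * B)
      ≤ w * (x ^ (-(0.03 + 1 / (k : ℝ))) * ((Real.exp (c1 * k / 2) * (2 ^ (k - 1) + 2)
          + B * Real.exp (c1 * k / 2 * B)) * x ^ (-0.01 : ℝ))) := by
  have hx0 : 0 < x := by linarith
  have hk3 : (3 : ℝ) ≤ k := by exact_mod_cast hk
  have hk0 : (0 : ℝ) < k := by linarith
  have hwpos : (0 : ℝ) < w := lt_of_lt_of_le (by positivity) hw
  have hδ0 : 0 < δ := by rw [hδ]; positivity
  have hex := expo k hk3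
  have h21 : (0 : ℝ) < 2 * k - 1 := by linarith
  set y : ℝ := x ^ (-(0.03 + 1 / (k : ℝ))) * x ^ (-0.01 : ℝ) with hy
  have hy' : y = x ^ (-(0.04 + 1 / (k : ℝ))) := by
    rw [hy, ← Real.rpow_add hx0]
    congr 1
    ring
  -- first term
  have hτ0 : 0 < τ := by rw [hτ]; positivity
  have t1 : (τ + j0 / (2 * x)) ^ (k - 1) ≤ 2 ^ (k - 1) * y := by
    have h3 : (τ + j0 / (2 * x)) ^ (k - 1) ≤ (2 * τ) ^ (k - 1) := by
      refine pow_le_pow_left₀ (by positivity) (by linarith) _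
    refine h3.trans ?_
    rw [mul_pow]
    refine mul_le_mul_of_nonneg_left ?_ (by positivity)
    rw [hτ, ← Real.rpow_natCast, ← Real.rpow_mul hx0.le, hy']
    refine Real.rpow_le_rpow_of_exponent_le hx1 ?_
    rw [Nat.cast_sub (by omega)]
    push_cast
    have h4 : -(1 / (2 * (k : ℝ) - 1)) * ((k : ℝ) - 1) = -(((k : ℝ) - 1) / (2 * k - 1)) := by
      ring
    rw [h4]
    norm_num at hex ⊢
    linarith
  -- second term
  have t2 : 2 * ((j0 : ℝ) * s1) ≤ w * (2 * y) := by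
    have h3 : 2 * ((j0 : ℝ) * s1) ≤ x ^ (0.005 : ℝ) *
        (2 * x ^ ((k : ℝ) * (1 / (2 * (k : ℝ) - 1)) + 0.01)) := by
      have h4 : 2 * (j0 : ℝ) ≤ x ^ (0.005 : ℝ) := by linarith
      calc 2 * ((j0 : ℝ) * s1) = (2 * j0) * s1 := by ring
        _ ≤ _ := mul_le_mul h4 hs1 (Nat.cast_nonneg _) (by positivity)
    refine h3.trans ?_
    have h5 : x ^ (0.005 : ℝ) * (2 * x ^ ((k : ℝ) * (1 / (2 * (k : ℝ) - 1)) + 0.01))
        = 2 * x ^ ((k : ℝ) * (1 / (2 * (k : ℝ) - 1)) + 0.015) := by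
      rw [← mul_assoc, mul_comm (x ^ (0.005 : ℝ)) 2, mul_assoc, ← Real.rpow_add hx0]
      congr 2
      ring
    rw [h5]
    have h6 : x ^ ((k : ℝ) * (1 / (2 * (k : ℝ) - 1)) + 0.015) ≤ x ^ (0.99 : ℝ) * y := by
      rw [hy', ← Real.rpow_add hx0]
      refine Real.rpow_le_rpow_of_exponent_le hx1 ?_
      have h7 : (k : ℝ) * (1 / (2 * (k : ℝ) - 1)) = 1 - ((k : ℝ) - 1) / (2 * k - 1) := by
        rw [eq_sub_iff_add_eq, mul_one_div, ← add_div, div_eq_one_iff_eq h21.ne']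
        ring
      rw [h7]
      norm_num at hex ⊢
      linarith
    have h8 : x ^ (0.99 : ℝ) * y ≤ w * y := by
      refine mul_le_mul_of_nonneg_right hw ?_
      rw [hy']
      positivity
    linarith
  -- third term
  have hBpos : 0 < B := by rw [hB]; positivity
  have t3 : (B⁻¹) ^ j0 ≤ B * y := by
    have h3 : (B⁻¹) ^ j0 = Real.exp (-(j0 / δ)) := by
      rw [hB, ← Real.exp_neg, ← Real.exp_nat_mul]
      congr 1
      ring
    have h4 : B * x⁻¹ = Real.exp (1 / δ - Real.log x) := by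
      rw [Real.exp_sub, Real.exp_log hx0, hB]
      exact (div_eq_mul_inv _ _).symm
    have h5 : (B⁻¹) ^ j0 ≤ B * x⁻¹ := by
      rw [h3, h4]
      refine Real.exp_le_exp.2 ?_
      have h6 : Real.log x ≤ (j0 + 1) / δ := by
        rw [le_div_iff₀ hδ0]
        linarith
      have h7 : ((j0 : ℝ) + 1) / δ = j0 / δ + 1 / δ := by ring
      linarith
    refine h5.trans (mul_le_mul_of_nonneg_left ?_ hBpos.le)
    rw [hy', ← Real.rpow_neg_one]
    refine Real.rpow_le_rpow_of_exponent_le hx1 ?_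
    have h8 : 1 / (k : ℝ) ≤ 1 / 3 := one_div_le_one_div_of_le (by norm_num) hk3
    norm_num at h8 ⊢
    linarith
  have hE1 : 0 < Real.exp (c1 * k / 2) := Real.exp_pos _
  have hE2 : 0 < Real.exp (c1 * k / 2 * B) := Real.exp_pos _
  calc Real.exp (c1 * k / 2) * (w * (τ + j0 / (2 * x)) ^ (k - 1) + 2 * (j0 * s1)) +
          w * (B⁻¹) ^ j0 * Real.exp (c1 * k / 2 * B)
      ≤ Real.exp (c1 * k / 2) * (w * (2 ^ (k - 1) * y) + w * (2 * y)) +
          w * (B * y) * Real.exp (c1 * k / 2 * B) := by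
        gcongr
    _ = _ := by rw [hy]; ring

end M6

theorem window_of (k : ℕ) (hk : 3 ≤ k) (p e : ℕ → ℕ → ℝ)
    (hp0 : ∀ N m, 0 ≤ p N m) (hp1 : ∀ N m, p N m ≤ 1) (hanti : ∀ N, Antitone (p N))
    (he0 : ∀ N m, 0 ≤ e N m)
    (hW1 : ∀ N m w : ℕ, ∀ lam : ℝ, 1 ≤ N → 0 < lam →
      (1 - p N (m + 1)) * ∑ d ∈ range w, p N (m + 1 + d) ≤
        (m + 1) * (lam + w * (lam⁻¹) ^ (k - 1)) * e N m)
    (hE : ∀ (N a w j0 s1 : ℕ) (c1 τ B : ℝ), 1 ≤ N → ((a + w : ℕ) : ℝ) ≤ c1 * N →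
      0 < τ → τ ≤ 1 → 1 ≤ B →
      (2 * k : ℝ) ^ j0 * (1 - (τ / 2 ^ j0) ^ k) ^ s1 ≤ 1 / 2 →
      ∑ n ∈ Ico a (a + w), e N n ≤
        Real.exp (c1 * k / 2) * (w * (τ + j0 / (2 * N)) ^ (k - 1) + 2 * (j0 * s1)) +
          w * (B⁻¹) ^ j0 * Real.exp (c1 * k / 2 * B))
    (c1 : ℝ) :
    ∃ N0 : ℕ, ∀ N ≥ N0, ∀ t : ℕ,
      ((t + 2 * ⌈(N : ℝ) ^ (0.99 : ℝ)⌉₊ : ℕ) : ℝ) ≤ c1 * N →
      (N : ℝ) ^ (-0.01 : ℝ) ≤ p N (t + 2 * ⌈(N : ℝ) ^ (0.99 : ℝ)⌉₊) →
      1 - (N : ℝ) ^ (-0.01 : ℝ) ≤ p N t := by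
  rcases le_or_gt c1 0 with hc1 | hc1
  · -- vacuous case
    refine ⟨1, fun N hN t ht _ => ?_⟩
    exfalso
    have hN' : (0 : ℝ) < N := by exact_mod_cast hN
    have h1 : 0 < ⌈(N : ℝ) ^ (0.99 : ℝ)⌉₊ := Nat.ceil_pos.2 (by positivity)
    have h2 : (1 : ℝ) ≤ ((t + 2 * ⌈(N : ℝ) ^ (0.99 : ℝ)⌉₊ : ℕ) : ℝ) := by
      exact_mod_cast (by omega : 1 ≤ t + 2 * ⌈(N : ℝ) ^ (0.99 : ℝ)⌉₊)
    have h3 : c1 * N ≤ 0 := mul_nonpos_of_nonpos_of_nonneg hc1 hN'.le
    linarith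
  have hk3 : (3 : ℝ) ≤ k := by exact_mod_cast hk
  have hk0 : (0 : ℝ) < k := by linarith
  set δ : ℝ := 0.005 / k with hδ
  have hδ0 : 0 < δ := by rw [hδ]; positivity
  set B : ℝ := Real.exp (1 / δ) with hB
  have hB1 : 1 ≤ B := by rw [hB]; exact Real.one_le_exp (by positivity)
  set a : ℝ := 1 / (2 * (k : ℝ) - 1) with ha
  have h21 : (0 : ℝ) < 2 * k - 1 := by linarith
  have ha0 : 0 < a := by rw [ha]; positivity
  have ha1 : a ≤ 1 / 5 := by
    rw [ha]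
    exact one_div_le_one_div_of_le (by norm_num) (by linarith)
  set Cc : ℝ := Real.exp (c1 * k / 2) * (2 ^ (k - 1) + 2) + B * Real.exp (c1 * k / 2 * B) with hCc
  have hcast : Tendsto (fun N : ℕ => (N : ℝ)) atTop atTop := tendsto_natCast_atTop_atTop
  have hL : ∀ r : ℝ, 0 < r → ∀ C : ℝ, 0 < C →
      ∀ᶠ N : ℕ in atTop, Real.log (N : ℝ) ≤ C * (N : ℝ) ^ r := by
    intro r hr C hC
    have h1 := (isLittleO_log_rpow_atTop hr).bound hC
    filter_upwards [hcast.eventually h1, hcast.eventually_ge_atTop 1] with N h2 h3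
    have h4 : 0 ≤ Real.log (N : ℝ) := Real.log_nonneg h3
    have h5 : 0 ≤ (N : ℝ) ^ r := by positivity
    rw [Real.norm_of_nonneg h4, Real.norm_of_nonneg h5] at h2
    exact h2
  -- the eventual conditions
  have ev1 : ∀ᶠ N : ℕ in atTop, (1 : ℝ) ≤ N := hcast.eventually_ge_atTop 1
  have ev2 : ∀ᶠ N : ℕ in atTop, 2 * (δ * Real.log (N : ℝ)) ≤ (N : ℝ) ^ (0.005 : ℝ) := by
    filter_upwards [hL 0.005 (by norm_num) (1 / (2 * δ)) (by positivity)] with N h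
    have h1 : 2 * (δ * Real.log (N : ℝ)) ≤ 2 * (δ * (1 / (2 * δ) * (N : ℝ) ^ (0.005 : ℝ))) := by
      gcongr
    refine h1.trans (le_of_eq ?_)
    field_simp
  have ev3 : ∀ᶠ N : ℕ in atTop, δ * Real.log (2 * k) * Real.log (N : ℝ) + Real.log 2
      ≤ (N : ℝ) ^ (0.005 : ℝ) := by
    have hl2 : 0 < Real.log 2 := Real.log_pos (by norm_num)
    have hl2k : 0 < Real.log (2 * k) := Real.log_pos (by linarith)
    have h2 : ∀ᶠ N : ℕ in atTop, 2 * Real.log 2 ≤ (N : ℝ) ^ (0.005 : ℝ) :=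
      ((tendsto_rpow_atTop (by norm_num : (0 : ℝ) < 0.005)).comp hcast).eventually_ge_atTop _
    filter_upwards [hL 0.005 (by norm_num) (1 / (2 * (δ * Real.log (2 * k)))) (by positivity),
      h2] with N h h2
    have h1 : δ * Real.log (2 * k) * Real.log (N : ℝ) ≤
        δ * Real.log (2 * k) * (1 / (2 * (δ * Real.log (2 * k))) * (N : ℝ) ^ (0.005 : ℝ)) := by
      gcongr
    have h3 : δ * Real.log (2 * k) * (1 / (2 * (δ * Real.log (2 * k))) * (N : ℝ) ^ (0.005 : ℝ))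
        = (N : ℝ) ^ (0.005 : ℝ) / 2 := by
      field_simp
    rw [h3] at h1
    linarith
  have ev4 : ∀ᶠ N : ℕ in atTop, δ * Real.log (N : ℝ) / (2 * N) ≤ (N : ℝ) ^ (-a) := by
    filter_upwards [hL (1 - a) (by linarith) (1 / δ) (by positivity), ev1] with N h h1
    have hN0 : (0 : ℝ) < N := by linarith
    rw [div_le_iff₀ (by positivity)]
    have h2 : δ * Real.log (N : ℝ) ≤ δ * (1 / δ * (N : ℝ) ^ (1 - a)) := by gcongr
    have h3 : δ * (1 / δ * (N : ℝ) ^ (1 - a)) = (N : ℝ) ^ (1 - a) := by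
      field_simp
    have h4 : (N : ℝ) ^ (1 - a) = (N : ℝ) ^ (-a) * N := by
      rw [sub_eq_neg_add, Real.rpow_add hN0, Real.rpow_one]
    have h5 : 0 ≤ (N : ℝ) ^ (-a) * N := by positivity
    rw [h3, h4] at h2
    linarith
  have ev5 : ∀ᶠ N : ℕ in atTop, Cc * (N : ℝ) ^ (-0.01 : ℝ) < 1 / (2 * c1) := by
    have h1 : Tendsto (fun N : ℕ => Cc * (N : ℝ) ^ (-0.01 : ℝ)) atTop (𝓝 (Cc * 0)) :=
      ((tendsto_rpow_neg_atTop (by norm_num : (0 : ℝ) < 0.01)).comp hcast).const_mul Cc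
    rw [mul_zero] at h1
    exact h1.eventually_lt_const (by positivity)
  have ev6 : ∀ᶠ N : ℕ in atTop, (N : ℝ) ^ (0.99 : ℝ) + 1 ≤ N := by
    have h2 : ∀ᶠ N : ℕ in atTop, 2 ≤ (N : ℝ) ^ (0.01 : ℝ) :=
      ((tendsto_rpow_atTop (by norm_num : (0 : ℝ) < 0.01)).comp hcast).eventually_ge_atTop _
    filter_upwards [h2, ev1] with N h h1
    have hN0 : (0 : ℝ) < N := by linarith
    have h3 : (N : ℝ) = (N : ℝ) ^ (0.99 : ℝ) * (N : ℝ) ^ (0.01 : ℝ) := by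
      rw [← Real.rpow_add hN0]
      norm_num
    have h4 : (1 : ℝ) ≤ (N : ℝ) ^ (0.99 : ℝ) := Real.one_le_rpow h1 (by norm_num)
    nlinarith
  obtain ⟨N0, hN0⟩ := eventually_atTop.1
    (((((ev1.and ev2).and ev3).and ev4).and ev5).and ev6)
  refine ⟨N0, fun N hN t ht hq => ?_⟩
  obtain ⟨⟨⟨⟨⟨e1, e2⟩, e3⟩, e4⟩, e5⟩, e6⟩ := hN0 N hN
  by_contra hcon
  push Not at hcon
  set x : ℝ := (N : ℝ) with hx
  have hx0 : 0 < x := by linarith
  set w : ℕ := ⌈x ^ (0.99 : ℝ)⌉₊ with hw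
  have hwge : x ^ (0.99 : ℝ) ≤ w := Nat.le_ceil _
  have hwle : (w : ℝ) ≤ x := by
    have h1 := Nat.ceil_lt_add_one (by positivity : 0 ≤ x ^ (0.99 : ℝ))
    rw [← hw] at h1
    linarith
  have hwpos : (0 : ℝ) < w := lt_of_lt_of_le (by positivity) hwge
  have hN1 : 1 ≤ N := by
    rw [hx] at e1
    exact_mod_cast e1
  set lam : ℝ := x ^ (1 / (k : ℝ)) with hlam
  have hlow := M6.core k hk (p N) (e N) t w c1 x (x ^ (-0.01 : ℝ)) lam e1 (hanti N)
    (he0 N) hlam (fun m => hW1 N m w lam hN1 (by positivity)) ht hc1 hwge hwle rfl hq hcon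
  -- parameters for the upper bound
  set j0 : ℕ := ⌊δ * Real.log x⌋₊ with hj0
  have hlogx : 0 ≤ Real.log x := Real.log_nonneg e1
  have hj0le : (j0 : ℝ) ≤ δ * Real.log x := Nat.floor_le (by positivity)
  have hj0ge : δ * Real.log x ≤ j0 + 1 := (Nat.lt_floor_add_one _).le
  set τ : ℝ := x ^ (-a) with hτ
  have hτ0 : 0 < τ := by positivity
  have hτ1 : τ ≤ 1 := Real.rpow_le_one_of_one_le_of_nonpos e1 (by linarith)
  set s1 : ℕ := ⌈x ^ ((k : ℝ) * a + 0.01)⌉₊ with hs1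
  have hs1ge : x ^ ((k : ℝ) * a + 0.01) ≤ s1 := Nat.le_ceil _
  have hs1le : (s1 : ℝ) ≤ 2 * x ^ ((k : ℝ) * a + 0.01) := by
    have h1 := Nat.ceil_lt_add_one (by positivity : 0 ≤ x ^ ((k : ℝ) * a + 0.01))
    have h2 : (1 : ℝ) ≤ x ^ ((k : ℝ) * a + 0.01) := Real.one_le_rpow e1 (by positivity)
    rw [← hs1] at h1
    linarith
  -- the kill condition
  have h2j : (2 : ℝ) ^ j0 ≤ x ^ δ := by
    rw [Real.rpow_def_of_pos hx0, ← Real.rpow_natCast, Real.rpow_def_of_pos (by norm_num)]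
    refine Real.exp_le_exp.2 ?_
    have hl2 : Real.log 2 ≤ 1 := by
      have := Real.log_le_sub_one_of_pos (by norm_num : (0 : ℝ) < 2)
      linarith
    calc Real.log 2 * (j0 : ℝ) ≤ 1 * (δ * Real.log x) :=
          mul_le_mul hl2 hj0le (Nat.cast_nonneg _) (by norm_num)
      _ = _ := by ring
  have hy : x ^ (-((k : ℝ) * (a + δ))) ≤ (τ / 2 ^ j0) ^ k := by
    have h1 : x ^ (-(a + δ)) ≤ τ / 2 ^ j0 := by
      rw [le_div_iff₀ (by positivity), neg_add, Real.rpow_add hx0, mul_assoc]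
      calc x ^ (-a) * (x ^ (-δ) * 2 ^ j0) ≤ x ^ (-a) * (x ^ (-δ) * x ^ δ) := by gcongr
        _ = x ^ (-a) := by rw [← Real.rpow_add hx0]; simp
    calc x ^ (-((k : ℝ) * (a + δ))) = (x ^ (-(a + δ))) ^ k := by
          rw [← Real.rpow_natCast, ← Real.rpow_mul hx0.le]
          congr 1
          ring
      _ ≤ _ := pow_le_pow_left₀ (by positivity) h1 _
  have hy1 : (τ / 2 ^ j0) ^ k ≤ 1 := by
    refine pow_le_one₀ (by positivity) ?_
    rw [div_le_one (by positivity)]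
    exact hτ1.trans (one_le_pow₀ (by norm_num))
  have hys : x ^ (0.005 : ℝ) ≤ (τ / 2 ^ j0) ^ k * s1 := by
    calc x ^ (0.005 : ℝ) = x ^ (-((k : ℝ) * (a + δ))) * x ^ ((k : ℝ) * a + 0.01) := by
          rw [← Real.rpow_add hx0]
          congr 1
          rw [hδ]
          field_simp
          ring
      _ ≤ _ := by gcongr
  have hkill : (2 * k : ℝ) ^ j0 * (1 - (τ / 2 ^ j0) ^ k) ^ s1 ≤ 1 / 2 := by
    have h1 : (1 - (τ / 2 ^ j0) ^ k) ^ s1 ≤ Real.exp (-((τ / 2 ^ j0) ^ k * s1)) := by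
      have h2 : 1 - (τ / 2 ^ j0) ^ k ≤ Real.exp (-((τ / 2 ^ j0) ^ k)) := by
        have := Real.add_one_le_exp (-((τ / 2 ^ j0) ^ k))
        linarith
      calc (1 - (τ / 2 ^ j0) ^ k) ^ s1 ≤ (Real.exp (-((τ / 2 ^ j0) ^ k))) ^ s1 :=
            pow_le_pow_left₀ (by linarith) h2 _
        _ = _ := by
            rw [← Real.exp_nat_mul]
            congr 1
            ring
    have h3 : (2 * k : ℝ) ^ j0 ≤ Real.exp (δ * Real.log (2 * k) * Real.log x) := by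
      have hl2k : 0 < Real.log (2 * k) := Real.log_pos (by linarith)
      rw [← Real.rpow_natCast, Real.rpow_def_of_pos (by positivity)]
      refine Real.exp_le_exp.2 ?_
      calc Real.log (2 * k) * (j0 : ℝ) ≤ Real.log (2 * k) * (δ * Real.log x) := by gcongr
        _ = _ := by ring
    calc (2 * k : ℝ) ^ j0 * (1 - (τ / 2 ^ j0) ^ k) ^ s1
        ≤ Real.exp (δ * Real.log (2 * k) * Real.log x) *
            Real.exp (-((τ / 2 ^ j0) ^ k * s1)) :=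
          mul_le_mul h3 h1 (pow_nonneg (by linarith) _) (Real.exp_pos _).le
      _ = Real.exp (δ * Real.log (2 * k) * Real.log x - (τ / 2 ^ j0) ^ k * s1) := by
          rw [← Real.exp_add]
          congr 1
      _ ≤ Real.exp (-Real.log 2) := Real.exp_le_exp.2 (by linarith)
      _ = 1 / 2 := by rw [Real.exp_neg, Real.exp_log (by norm_num)]; norm_num
  have hup := hE N t w j0 s1 c1 τ B hN1 (by
    refine le_trans ?_ ht
    exact_mod_cast (by omega : t + w ≤ t + 2 * w)) hτ0 hτ1 hB1 hkill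
  have hjx : (j0 : ℝ) / (2 * x) ≤ τ := by
    refine le_trans ?_ e4
    gcongr
  have hup2 := M6.upper k hk w j0 s1 c1 x δ τ B e1 hwge hδ hj0le hj0ge (by rw [hτ, ha]) hB
    (by rw [← ha]; exact hs1le) e2 hjx
  have hfin := (hlow.trans hup).trans hup2
  have hfin2 := le_of_mul_le_mul_left hfin hwpos
  rw [div_eq_mul_one_div] at hfin2
  have hfin3 := le_of_mul_le_mul_left hfin2 (by positivity)
  rw [← hCc] at hfin3
  linarith

end Vale.P170
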