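import Vale.Agent.P170.Defs

/-! P170, module M7: comparison of the literal-tuple model `qSat` with the proper-clause model
`probSat`. -/

namespace Vale.P170.Tr

open Finset Filter Topology

section ops
variable {κ κ' Ω : Type*} [Fintype κ] [Fintype κ']

lemma op_apply (w : κ → ℝ) (c : κ → Set Ω) (f : Set Ω → ℝ) (S : Set Ω) :
    op w c f S = ∑ i, w i * f (S ∩ c i) := rfl

lemma op_pow_apply (w : κ → ℝ) (c : κ → Set Ω) (m : ℕ) (f : Set Ω → ℝ) (S : Set Ω) :
    ((op w c)^m) f S = ∑ F : Fin m → κ, (∏ i, w (F i)) * f (S ∩ ⋂ i, c (F i)) := by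
  induction m generalizing S with
  | zero => simp
  | succ m ih =>
    rw [pow_succ', Module.End.mul_apply, op_apply]
    rw [← (Fin.consEquiv (fun _ : Fin (m+1) => κ)).sum_comp, Fintype.sum_prod_type]
    apply Finset.sum_congr rfl
    intro i _
    rw [ih, Finset.mul_sum]
    apply Finset.sum_congr rfl
    intro F _
    have e1 : ∏ j, w ((Fin.consEquiv (fun _ : Fin (m+1) => κ)) (i, F) j) = w i * ∏ j, w (F j) := by
      rw [Fin.prod_univ_succ]
      simp [Fin.consEquiv]
    have e2 : S ∩ ⋂ j, c ((Fin.consEquiv (fun _ : Fin (m+1) => κ)) (i, F) j)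
        = S ∩ c i ∩ ⋂ j, c (F j) := by
      ext σ
      simp only [Set.mem_inter_iff, Set.mem_iInter]
      rw [Fin.forall_fin_succ]
      simp [Fin.consEquiv, and_assoc]
    rw [e1, e2]
    ring

lemma op_comm (w : κ → ℝ) (c : κ → Set Ω) (w' : κ' → ℝ) (c' : κ' → Set Ω) :
    Commute (op w c) (op w' c') := by
  apply LinearMap.ext
  intro f
  funext S
  rw [Module.End.mul_apply, Module.End.mul_apply, op_apply, op_apply]
  simp only [op_apply, Finset.mul_sum]
  rw [Finset.sum_comm]
  apply Finset.sum_congr rfl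
  intro i _
  apply Finset.sum_congr rfl
  intro j _
  rw [Set.inter_right_comm]
  ring

lemma op_add (w w' : κ → ℝ) (c : κ → Set Ω) : op (fun i => w i + w' i) c = op w c + op w' c := by
  apply LinearMap.ext
  intro f
  funext S
  rw [LinearMap.add_apply, Pi.add_apply, op_apply, op_apply, op_apply, ← Finset.sum_add_distrib]
  apply Finset.sum_congr rfl
  intro i _
  ring

/-- nonnegative and monotone functions of the set of solutions -/
def Good (f : Set Ω → ℝ) : Prop := (∀ S, 0 ≤ f S) ∧ ∀ S S' : Set Ω, S ⊆ S' → f S ≤ f S'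

lemma good_ne : Good (ne : Set Ω → ℝ) := by
  constructor
  · intro S; unfold ne; split_ifs <;> norm_num
  · intro S S' h
    unfold ne
    split_ifs with h1 h2
    · exact le_rfl
    · exact absurd (h1.mono h) h2
    · norm_num
    · exact le_rfl

lemma Good.op {w : κ → ℝ} (hw : ∀ i, 0 ≤ w i) (c : κ → Set Ω) {f : Set Ω → ℝ} (hf : Good f) :
    Good (op w c f) := by
  constructor
  · intro S
    rw [op_apply]
    exact Finset.sum_nonneg (fun i _ => mul_nonneg (hw i) (hf.1 _))
  · intro S S' h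
    rw [op_apply, op_apply]
    apply Finset.sum_le_sum
    intro i _
    exact mul_le_mul_of_nonneg_left (hf.2 _ _ (Set.inter_subset_inter_left _ h)) (hw i)

lemma Good.op_pow {w : κ → ℝ} (hw : ∀ i, 0 ≤ w i) (c : κ → Set Ω) {f : Set Ω → ℝ} (hf : Good f)
    (m : ℕ) : Good (((Vale.P170.op w c)^m) f) := by
  induction m with
  | zero => simpa using hf
  | succ m ih =>
    rw [pow_succ', Module.End.mul_apply]
    exact ih.op hw c

lemma Good.op_le {w : κ → ℝ} (hw : ∀ i, 0 ≤ w i) (c : κ → Set Ω) {f : Set Ω → ℝ} (hf : Good f)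
    (S : Set Ω) : Vale.P170.op w c f S ≤ (∑ i, w i) * f S := by
  rw [op_apply, Finset.sum_mul]
  apply Finset.sum_le_sum
  intro i _
  exact mul_le_mul_of_nonneg_left (hf.2 _ _ Set.inter_subset_left) (hw i)

lemma Good.op_pow_le {w : κ → ℝ} (hw : ∀ i, 0 ≤ w i) (c : κ → Set Ω) {f : Set Ω → ℝ}
    (hf : Good f) (m : ℕ) (S : Set Ω) :
    ((Vale.P170.op w c)^m) f S ≤ (∑ i, w i)^m * f S := by
  induction m with
  | zero => simp
  | succ m ih =>
    rw [pow_succ', Module.End.mul_apply]
    refine ((hf.op_pow hw c m).op_le hw c S).trans ?_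
    rw [pow_succ']
    have h0 : 0 ≤ ∑ i, w i := Finset.sum_nonneg (fun i _ => hw i)
    calc (∑ i, w i) * ((Vale.P170.op w c)^m) f S ≤ (∑ i, w i) * ((∑ i, w i)^m * f S) :=
          mul_le_mul_of_nonneg_left ih h0
      _ = _ := by ring

end ops

/-! ### the three operators -/

variable {k n : ℕ}

/-- proper ordered clauses -/
def Inj (C : Fin k → Fin n × Bool) : Prop := Function.Injective fun j => (C j).1

/-- assignments satisfying a set of literals -/
def dset (D : Finset (Fin n × Bool)) : Set (Fin n → Bool) := {σ | ∃ l ∈ D, σ l.1 = l.2}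

open Classical in
/-- proper ordered clauses as a finset -/
noncomputable def Oset (k n : ℕ) : Finset (Fin k → Fin n × Bool) := univ.filter Inj

open Classical in
noncomputable def TO (k n : ℕ) : Module.End ℝ (Set (Fin n → Bool) → ℝ) :=
  op (fun C : Fin k → Fin n × Bool => if Inj C then 1 else 0) cset

open Classical in
noncomputable def TI (k n : ℕ) : Module.End ℝ (Set (Fin n → Bool) → ℝ) :=
  op (fun C : Fin k → Fin n × Bool => if Inj C then 0 else 1) cset

noncomputable def TA (k n : ℕ) : Module.End ℝ (Set (Fin n → Bool) → ℝ) :=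
  op (fun _ : Fin k → Fin n × Bool => 1) cset

noncomputable def TP (k n : ℕ) : Module.End ℝ (Set (Fin n → Bool) → ℝ) :=
  op (fun _ : properClauses k n => 1) (fun D => dset (D : Finset (Fin n × Bool)))

lemma TA_eq (k n : ℕ) : TA k n = TI k n + TO k n := by
  classical
  unfold TA TI TO
  rw [← op_add]
  congr 1
  funext C
  split_ifs <;> simp

lemma cset_eq_dset (C : Fin k → Fin n × Bool) : cset C = dset (univ.image C) := by
  ext σ
  simp [cset, dset]

lemma mem_of_image {C : Fin k → Fin n × Bool} {D : Finset (Fin n × Bool)}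
    (h : univ.image C = D) (j : Fin k) : C j ∈ D := by
  rw [← h]; exact mem_image_of_mem _ (mem_univ j)

lemma exists_of_image {C : Fin k → Fin n × Bool} {D : Finset (Fin n × Bool)}
    (h : univ.image C = D) {x : Fin n × Bool} (hx : x ∈ D) : ∃ j, C j = x := by
  rw [← h, mem_image] at hx
  obtain ⟨j, _, hj⟩ := hx
  exact ⟨j, hj⟩

open Classical in
lemma card_fiber {D : Finset (Fin n × Bool)} (hD : D ∈ properClauses k n) :
    (univ.filter fun C : Fin k → Fin n × Bool => Inj C ∧ univ.image C = D).card = k.factorial := by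
  have hD' := hD
  rw [properClauses, mem_filter] at hD'
  obtain ⟨-, hcard, hprop⟩ := hD'
  have e0 : Fin k ≃ {x // x ∈ D} := Fintype.equivOfCardEq (by simp [hcard])
  have e : {C : Fin k → Fin n × Bool // Inj C ∧ univ.image C = D} ≃ (Fin k ≃ {x // x ∈ D}) :=
    { toFun := fun C => Equiv.ofBijective
        (fun j => (⟨C.1 j, mem_of_image C.2.2 j⟩ : {x // x ∈ D}))
        ⟨fun i j h => C.2.1 (congrArg Prod.fst (congrArg Subtype.val h)), fun x => by
          obtain ⟨j, hj⟩ := exists_of_image C.2.2 x.2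
          exact ⟨j, Subtype.ext hj⟩⟩
      invFun := fun e => ⟨fun j => (e j).1, fun i j h => e.injective (Subtype.ext
          (hprop _ (e i).2 _ (e j).2 h)), by
          ext x
          rw [mem_image]
          constructor
          · rintro ⟨j, _, rfl⟩; exact (e j).2
          · intro hx
            exact ⟨e.symm ⟨x, hx⟩, mem_univ _, by simp⟩⟩
      left_inv := fun C => by
        apply Subtype.ext
        funext j
        rfl
      right_inv := fun e => by
        apply Equiv.ext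
        intro j
        apply Subtype.ext
        rfl }
  rw [← Fintype.card_subtype, Fintype.card_congr e, Fintype.card_equiv e0, Fintype.card_fin]

lemma TO_eq (k n : ℕ) : TO k n = (k.factorial : ℝ) • TP k n := by
  classical
  apply LinearMap.ext
  intro f
  funext S
  rw [LinearMap.smul_apply, Pi.smul_apply, smul_eq_mul, TO, TP, op_apply, op_apply]
  simp only [one_mul, ite_mul, zero_mul]
  rw [← Finset.sum_filter]
  have hmaps : ∀ C ∈ (univ.filter fun C : Fin k → Fin n × Bool => Inj C),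
      univ.image C ∈ properClauses k n := by
    intro C hC
    rw [mem_filter] at hC
    have hinj : Function.Injective C := fun i j h => hC.2 (congrArg Prod.fst h)
    rw [properClauses, mem_filter]
    refine ⟨mem_univ _, ?_, ?_⟩
    · rw [card_image_of_injective _ hinj, card_univ, Fintype.card_fin]
    · intro l hl l' hl' h
      rw [mem_image] at hl hl'
      obtain ⟨i, _, rfl⟩ := hl
      obtain ⟨j, _, rfl⟩ := hl'
      rw [hC.2 h]
  rw [← Finset.sum_fiberwise_of_maps_to hmaps]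
  have h1 : ∀ D ∈ properClauses k n,
      ∑ C ∈ (univ.filter fun C : Fin k → Fin n × Bool => Inj C) with univ.image C = D,
        f (S ∩ cset C) = (k.factorial : ℝ) * f (S ∩ dset D) := by
    intro D hD
    have h2 : ∀ C ∈ (univ.filter fun C : Fin k → Fin n × Bool => Inj C).filter
        (fun C => univ.image C = D), f (S ∩ cset C) = f (S ∩ dset D) := by
      intro C hC
      rw [mem_filter] at hC
      rw [cset_eq_dset, hC.2]
    rw [Finset.sum_congr rfl h2, Finset.sum_const, nsmul_eq_mul, filter_filter, card_fiber hD]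
  rw [Finset.sum_congr rfl h1, ← Finset.mul_sum]
  congr 1
  exact (Finset.sum_coe_sort (properClauses k n) (fun D => f (S ∩ dset D))).symm

/-! ### counting -/

lemma sum_ne_count {κ Ω : Type*} [Fintype κ] (c : κ → Set Ω) (m : ℕ)
    (p : (Fin m → κ) → Prop) [DecidablePred p] (hp : ∀ F, p F ↔ (⋂ i, c (F i)).Nonempty) :
    ((op (fun _ : κ => (1:ℝ)) c)^m) ne Set.univ = ((univ.filter p).card : ℝ) := by
  classical
  rw [op_pow_apply, Finset.card_filter, Nat.cast_sum]
  apply Finset.sum_congr rfl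
  intro F _
  rw [Finset.prod_const_one, one_mul, Set.univ_inter, ne]
  by_cases h : p F
  · rw [if_pos ((hp F).mp h), if_pos h]; simp
  · rw [if_neg (fun h' => h ((hp F).mpr h')), if_neg h]; simp

lemma TA_pow_ne (k n m : ℕ) (hn : 1 ≤ n) :
    ((TA k n)^m) ne Set.univ = qSat k n m * ((2 * n : ℝ)^k)^m := by
  classical
  have hn0 : (0:ℝ) < n := by exact_mod_cast hn
  unfold TA qSat
  rw [sum_ne_count _ m (fun F => SatT F)]
  · rw [div_mul_cancel₀]
    positivity
  · intro F
    simp only [SatT, Set.Nonempty, Set.mem_iInter, cset, Set.mem_ofPred_eq]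

lemma TP_pow_ne (k n m : ℕ) :
    ((TP k n)^m) ne Set.univ = probSat k n m * ((properClauses k n).card : ℝ)^m := by
  classical
  unfold TP
  rw [sum_ne_count _ m (fun F : Fin m → properClauses k n =>
    Satisfiable fun i => (F i : Finset (Fin n × Bool)))]
  · unfold probSat
    by_cases h : ((properClauses k n).card : ℝ)^m = 0
    · rw [h, mul_zero]
      have hm : m ≠ 0 := by rintro rfl; simp at h
      have hc : (properClauses k n).card = 0 := by
        have := pow_eq_zero_iff hm |>.mp h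
        exact_mod_cast this
      have : IsEmpty (properClauses k n) := by
        rw [card_eq_zero] at hc
        rw [hc]; infer_instance
      have he : IsEmpty (Fin m → properClauses k n) := by
        obtain ⟨m', rfl⟩ := Nat.exists_eq_succ_of_ne_zero hm
        exact ⟨fun F => this.elim (F 0)⟩
      simp
    · rw [div_mul_cancel₀ _ h]
  · intro F
    simp only [Satisfiable, Set.Nonempty, Set.mem_iInter, dset, Set.mem_ofPred_eq]

/-- number of proper ordered clauses -/
noncomputable def oc (k n : ℕ) : ℝ := by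
  classical exact ∑ C : Fin k → Fin n × Bool, if Inj C then 1 else 0

/-- number of improper ordered clauses -/
noncomputable def ic (k n : ℕ) : ℝ := by
  classical exact ∑ C : Fin k → Fin n × Bool, if Inj C then 0 else 1

lemma oc_eq_mul (k n : ℕ) : oc k n = (k.factorial : ℝ) * ((properClauses k n).card : ℝ) := by
  classical
  have h1 : TO k n (fun _ => 1) Set.univ = oc k n := by
    rw [TO, op_apply, oc]
    simp only [mul_one]
  have h2 : TP k n (fun _ => 1) Set.univ = ((properClauses k n).card : ℝ) := by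
    rw [TP, op_apply]
    simp
  rw [← h1, TO_eq, LinearMap.smul_apply, Pi.smul_apply, smul_eq_mul, h2]

lemma ic_add_oc (k n : ℕ) : ic k n + oc k n = (2 * n : ℝ)^k := by
  classical
  rw [ic, oc, ← Finset.sum_add_distrib]
  have : ∀ C : Fin k → Fin n × Bool, ((if Inj C then (0:ℝ) else 1) + (if Inj C then 1 else 0)) = 1 := by
    intro C; split_ifs <;> norm_num
  simp only [this]
  simp [mul_comm]

lemma oc_nonneg (k n : ℕ) : 0 ≤ oc k n := by
  rw [oc_eq_mul]; positivity

lemma ic_nonneg (k n : ℕ) : 0 ≤ ic k n := by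
  classical
  unfold ic
  apply Finset.sum_nonneg
  intro C _
  split_ifs <;> norm_num

lemma oc_eq (k n : ℕ) : oc k n = ((n.descFactorial k : ℕ) : ℝ) * 2^k := by
  classical
  have e : {C : Fin k → Fin n × Bool // Inj C} ≃ (Fin k ↪ Fin n) × (Fin k → Bool) :=
    { toFun := fun C => (⟨fun j => (C.1 j).1, C.2⟩, fun j => (C.1 j).2)
      invFun := fun p => ⟨fun j => (p.1 j, p.2 j), p.1.injective⟩
      left_inv := fun C => by
        apply Subtype.ext
        funext j
        rfl
      right_inv := fun p => rfl }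
  have h1 : oc k n = (((univ.filter fun C : Fin k → Fin n × Bool => Inj C).card : ℕ) : ℝ) := by
    unfold oc
    rw [Finset.sum_boole]
  rw [h1, ← Fintype.card_subtype, Fintype.card_congr e, Fintype.card_prod,
    Fintype.card_embedding_eq]
  simp

lemma oc_ge (k n : ℕ) (hn : 1 ≤ n) (hkn : k ≤ n) :
    (2 * n : ℝ)^k * (1 - (k:ℝ)^2/n) ≤ oc k n := by
  have hn0 : (0:ℝ) < n := by exact_mod_cast hn
  have hkn' : (k:ℝ) ≤ n := by exact_mod_cast hkn
  have h1 : (((n + 1 - k : ℕ) : ℝ))^k ≤ ((n.descFactorial k : ℕ) : ℝ) := by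
    exact_mod_cast Nat.pow_sub_le_descFactorial n k
  have h2 : (n:ℝ) - k ≤ ((n + 1 - k : ℕ) : ℝ) := by
    rw [Nat.cast_sub (by omega)]; push_cast; linarith
  have h3 : ((n:ℝ) - k)^k ≤ ((n.descFactorial k : ℕ) : ℝ) :=
    (pow_le_pow_left₀ (by linarith) h2 k).trans h1
  have h4 : 1 - (k:ℝ)^2/n ≤ (1 - (k:ℝ)/n)^k := by
    have h5 : (k:ℝ)/n ≤ 1 := by rw [div_le_one hn0]; exact hkn'
    have := one_add_mul_le_pow (a := -((k:ℝ)/n)) (by linarith) k
    have e1 : 1 + (k:ℝ) * -((k:ℝ)/n) = 1 - (k:ℝ)^2/n := by ring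
    have e2 : 1 + -((k:ℝ)/n) = 1 - (k:ℝ)/n := by ring
    rw [e1, e2] at this
    exact this
  rw [oc_eq]
  calc (2 * n : ℝ)^k * (1 - (k:ℝ)^2/n) ≤ (2 * n : ℝ)^k * (1 - (k:ℝ)/n)^k :=
        mul_le_mul_of_nonneg_left h4 (by positivity)
    _ = ((n:ℝ) - k)^k * 2^k := by
        rw [← mul_pow, ← mul_pow]
        congr 1
        field_simp
    _ ≤ ((n.descFactorial k : ℕ) : ℝ) * 2^k := mul_le_mul_of_nonneg_right h3 (by positivity)

lemma TO_pow_ne (k n m : ℕ) : ((TO k n)^m) ne Set.univ = probSat k n m * (oc k n)^m := by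
  rw [TO_eq, smul_pow, LinearMap.smul_apply, Pi.smul_apply, smul_eq_mul, TP_pow_ne, oc_eq_mul,
    mul_pow]
  ring

lemma TO_weight_nonneg (C : Fin k → Fin n × Bool) [Decidable (Inj C)] :
    (0:ℝ) ≤ if Inj C then 1 else 0 := by split_ifs <;> norm_num

lemma good_TO (k n m : ℕ) : Good (((TO k n)^m) ne) := by
  classical
  unfold TO
  exact good_ne.op_pow (fun C => by split_ifs <;> norm_num) cset m

lemma TI_pow_le (k n ν : ℕ) {f : Set (Fin n → Bool) → ℝ} (hf : Good f) :
    ((TI k n)^ν) f Set.univ ≤ (ic k n)^ν * f Set.univ := by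
  classical
  unfold TI ic
  exact hf.op_pow_le (fun C => by split_ifs <;> norm_num) cset ν Set.univ

lemma TI_pow_nonneg (k n ν : ℕ) {f : Set (Fin n → Bool) → ℝ} (hf : Good f) :
    0 ≤ ((TI k n)^ν) f Set.univ := by
  classical
  unfold TI
  exact (hf.op_pow (fun C => by split_ifs <;> norm_num) cset ν).1 Set.univ

lemma TA_pow_expand (k n m : ℕ) : ((TA k n)^m) ne Set.univ =
    ∑ ν ∈ range (m+1), (m.choose ν : ℝ) *
      ((TI k n)^ν) (((TO k n)^(m-ν)) ne) Set.univ := by
  classical
  have hc : Commute (TI k n) (TO k n) := op_comm _ _ _ _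
  rw [TA_eq, hc.add_pow, LinearMap.sum_apply, Finset.sum_apply]
  apply Finset.sum_congr rfl
  intro ν _
  rw [← Nat.cast_comm, Module.End.mul_apply, Module.End.natCast_apply, Pi.smul_apply,
    Module.End.mul_apply, nsmul_eq_mul]

lemma probSat_nonneg (k n m : ℕ) : 0 ≤ probSat k n m := by
  unfold probSat; positivity

lemma probSat_le_one (k n m : ℕ) : probSat k n m ≤ 1 := by
  classical
  unfold probSat
  apply div_le_one_of_le₀ _ (by positivity)
  have h := card_le_univ (univ.filter fun F : Fin m → (properClauses k n) =>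
      Satisfiable fun i => (F i : Finset (Fin n × Bool)))
  rw [Fintype.card_fun, Fintype.card_fin, Fintype.card_coe] at h
  exact_mod_cast h

lemma probSat_anti (k n : ℕ) (ho : 0 < oc k n) {m m' : ℕ} (h : m ≤ m') :
    probSat k n m' ≤ probSat k n m := by
  classical
  induction m', h using Nat.le_induction with
  | base => exact le_rfl
  | succ m' _ ih =>
    refine le_trans ?_ ih
    have h1 : ((TO k n)^(m'+1)) ne Set.univ ≤ oc k n * ((TO k n)^m') ne Set.univ := by
      rw [pow_succ', Module.End.mul_apply]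
      have := (good_TO k n m').op_le (w := fun C : Fin k → Fin n × Bool => if Inj C then (1:ℝ) else 0)
        (fun C => by split_ifs <;> norm_num) cset Set.univ
      unfold oc
      exact this
    rw [TO_pow_ne, TO_pow_ne, pow_succ'] at h1
    have h2 : 0 < oc k n * (oc k n)^m' := by positivity
    have h3 : oc k n * (probSat k n m' * (oc k n)^m') = probSat k n m' * (oc k n * (oc k n)^m') := by
      ring
    rw [h3] at h1
    exact le_of_mul_le_mul_right h1 h2

lemma sum_nu (x y : ℝ) (m : ℕ) : ∑ ν ∈ range (m+1), (m.choose ν : ℝ) * (x^ν * y^(m-ν)) * ν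
    = m * x * (x+y)^(m-1) := by
  cases m with
  | zero => simp
  | succ M =>
    rw [Finset.sum_range_succ']
    have h : ∀ j ∈ range (M+1), (((M+1).choose (j+1) : ℕ) : ℝ) * (x^(j+1) * y^(M+1-(j+1))) *
        ((j+1 : ℕ) : ℝ) = ((M+1 : ℕ) : ℝ) * x * (x^j * y^(M-j) * (M.choose j : ℝ)) := by
      intro j _
      have h1 : (((M+1) * M.choose j : ℕ) : ℝ) = (((M+1).choose (j+1) * (j+1) : ℕ) : ℝ) := by
        exact_mod_cast Nat.add_one_mul_choose_eq M j
      have e : M + 1 - (j+1) = M - j := by omega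
      rw [e]
      push_cast at h1 ⊢
      calc ((M+1).choose (j+1) : ℝ) * (x^(j+1) * y^(M-j)) * ((j:ℝ)+1)
          = (((M+1).choose (j+1) : ℝ) * ((j:ℝ)+1)) * (x^(j+1) * y^(M-j)) := by ring
        _ = (((M:ℝ)+1) * (M.choose j : ℝ)) * (x^(j+1) * y^(M-j)) := by rw [h1]
        _ = _ := by ring
    rw [Finset.sum_congr rfl h, ← Finset.mul_sum, ← add_pow]
    simp

lemma qSat_lower (k n m : ℕ) (hn : 1 ≤ n) :
    probSat k n m * (oc k n)^m ≤ qSat k n m * ((2 * n : ℝ)^k)^m := by
  rw [← TA_pow_ne k n m hn, TA_pow_expand, ← TO_pow_ne]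
  have h := Finset.single_le_sum (s := range (m+1)) (f := fun ν => (m.choose ν : ℝ) *
      ((TI k n)^ν) (((TO k n)^(m-ν)) ne) Set.univ)
    (fun ν _ => mul_nonneg (by positivity) (TI_pow_nonneg k n ν (good_TO k n (m-ν))))
    (mem_range.mpr (Nat.succ_pos m))
  simpa using h

lemma qSat_upper (k n m m' s : ℕ) (hn : 1 ≤ n) (ho : 0 < oc k n) (hm : m' + s ≤ m) :
    qSat k n m * ((2 * n : ℝ)^k)^m ≤ ((2 * n : ℝ)^k)^m * probSat k n m' +
      (m * ic k n * ((2 * n : ℝ)^k)^(m-1)) / (s+1) := by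
  rw [← TA_pow_ne k n m hn, TA_pow_expand]
  have h1 : ∀ ν ∈ range (m+1), (m.choose ν : ℝ) *
      ((TI k n)^ν) (((TO k n)^(m-ν)) ne) Set.univ ≤
      ((ic k n)^ν * (oc k n)^(m-ν) * (m.choose ν : ℝ)) * probSat k n m' +
        ((m.choose ν : ℝ) * ((ic k n)^ν * (oc k n)^(m-ν)) * ν) / (s+1) := by
    intro ν hν
    have hi := ic_nonneg k n
    have hb : 0 ≤ (m.choose ν : ℝ) * ((ic k n)^ν * (oc k n)^(m-ν)) := by positivity
    have h2 := TI_pow_le k n ν (good_TO k n (m-ν))
    rw [TO_pow_ne] at h2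
    have h3 : probSat k n (m-ν) ≤ probSat k n m' + ν / (s+1) := by
      rcases Nat.lt_or_ge s ν with hs | hs
      · have a1 := probSat_le_one k n (m-ν)
        have a2 := probSat_nonneg k n m'
        have a3 : (1:ℝ) ≤ ν / (s+1) := by
          rw [le_div_iff₀ (by positivity), one_mul]
          exact_mod_cast hs
        linarith
      · have a1 := probSat_anti k n ho (m := m') (m' := m-ν) (by omega)
        have a2 : (0:ℝ) ≤ ν / (s+1) := by positivity
        linarith
    calc (m.choose ν : ℝ) * ((TI k n)^ν) (((TO k n)^(m-ν)) ne) Set.univ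
        ≤ (m.choose ν : ℝ) * ((ic k n)^ν * (probSat k n (m-ν) * (oc k n)^(m-ν))) :=
          mul_le_mul_of_nonneg_left h2 (by positivity)
      _ = ((m.choose ν : ℝ) * ((ic k n)^ν * (oc k n)^(m-ν))) * probSat k n (m-ν) := by ring
      _ ≤ ((m.choose ν : ℝ) * ((ic k n)^ν * (oc k n)^(m-ν))) * (probSat k n m' + ν / (s+1)) :=
          mul_le_mul_of_nonneg_left h3 hb
      _ = _ := by ring
  refine (Finset.sum_le_sum h1).trans ?_
  rw [Finset.sum_add_distrib, ← Finset.sum_mul, ← Finset.sum_div, ← add_pow, ic_add_oc, sum_nu,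
    ic_add_oc]

lemma ic_le (k n : ℕ) (hn : 1 ≤ n) (hkn : k ≤ n) :
    ic k n ≤ (2 * n : ℝ)^k * ((k:ℝ)^2/n) := by
  have h1 := oc_ge k n hn hkn
  have h2 := ic_add_oc k n
  linarith

lemma oc_pos (k n : ℕ) (hn : 1 ≤ n) (hkn : k ≤ n) : 0 < oc k n := by
  rw [oc_eq]
  have : 0 < n.descFactorial k := Nat.pos_of_ne_zero (fun h => by
    rw [Nat.descFactorial_eq_zero_iff_lt] at h
    omega)
  positivity

theorem qSat_ge (k : ℕ) (hk : 1 ≤ k) (c1 : ℝ) :
    ∃ κ : ℝ, 0 < κ ∧ ∀ᶠ n : ℕ in atTop, ∀ m : ℕ, (m : ℝ) ≤ c1 * n →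
      κ * probSat k n m ≤ qSat k n m := by
  refine ⟨Real.exp (-(2 * (k:ℝ)^2 * c1)), Real.exp_pos _, ?_⟩
  filter_upwards [eventually_ge_atTop (2*k^2+k+1)] with n hn m hm
  have hn1 : 1 ≤ n := by omega
  have hn0 : (0:ℝ) < n := by exact_mod_cast hn1
  have hkn : k ≤ n := by nlinarith
  set A := (2 * n : ℝ)^k with hA
  have hA0 : 0 < A := by positivity
  set x := (k:ℝ)^2/n with hx
  have hx0 : 0 ≤ x := by positivity
  have hx1 : x ≤ 1/2 := by
    rw [hx, div_le_iff₀ hn0]
    have : (2*k^2 : ℝ) ≤ n := by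
      have : 2*k^2 ≤ n := by omega
      exact_mod_cast this
    linarith
  have h1 : Real.exp (-(2*x)) ≤ 1 - x := by
    rw [Real.exp_neg]
    have h2 := Real.add_one_le_exp (2*x)
    have h3 : (Real.exp (2*x))⁻¹ ≤ (2*x+1)⁻¹ := inv_anti₀ (by positivity) h2
    refine h3.trans ?_
    rw [inv_le_iff_one_le_mul₀ (by positivity)]
    nlinarith
  have h2 : Real.exp (-(2 * (k:ℝ)^2 * c1)) ≤ (1-x)^m := by
    have h3 : Real.exp (-(2*x))^m ≤ (1-x)^m := pow_le_pow_left₀ (Real.exp_pos _).le h1 m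
    refine le_trans ?_ h3
    rw [← Real.exp_nat_mul]
    apply Real.exp_le_exp.mpr
    have h4 : (m:ℝ) * x ≤ (k:ℝ)^2 * c1 := by
      rw [hx, mul_div_assoc', div_le_iff₀ hn0]
      nlinarith [sq_nonneg (k:ℝ)]
    nlinarith
  have h5 := qSat_lower k n m hn1
  have h6 : A * (1 - x) ≤ oc k n := oc_ge k n hn1 hkn
  have h7 : (A * (1-x))^m ≤ (oc k n)^m := pow_le_pow_left₀ (by
    apply mul_nonneg hA0.le; linarith) h6 m
  have hp := probSat_nonneg k n m
  have h8 : probSat k n m * ((1-x)^m * A^m) ≤ qSat k n m * A^m := by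
    refine le_trans ?_ h5
    apply mul_le_mul_of_nonneg_left _ hp
    rw [← mul_pow, mul_comm (1-x)]
    exact h7
  have hAm : 0 < A^m := by positivity
  have h9 : probSat k n m * (1-x)^m ≤ qSat k n m := by
    have : (probSat k n m * (1-x)^m) * A^m ≤ qSat k n m * A^m := by
      calc (probSat k n m * (1-x)^m) * A^m = probSat k n m * ((1-x)^m * A^m) := by ring
        _ ≤ _ := h8
    exact le_of_mul_le_mul_right this hAm
  refine le_trans ?_ h9
  rw [mul_comm]
  exact mul_le_mul_of_nonneg_left h2 hp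

theorem probSat_ge (k : ℕ) (hk : 1 ≤ k) (c1 ε : ℝ) (hε : 0 < ε) :
    ∃ s : ℕ, ∀ᶠ n : ℕ in atTop, ∀ m : ℕ, (m : ℝ) ≤ c1 * n → ∀ m' : ℕ, m' + s ≤ m →
      qSat k n m - ε ≤ probSat k n m' := by
  refine ⟨⌈c1 * (k:ℝ)^2 / ε⌉₊, ?_⟩
  set s := ⌈c1 * (k:ℝ)^2 / ε⌉₊ with hs
  filter_upwards [eventually_ge_atTop (k+1)] with n hn m hm m' hm'
  have hn1 : 1 ≤ n := by omega
  have hn0 : (0:ℝ) < n := by exact_mod_cast hn1
  have hkn : k ≤ n := by omega
  set A := (2 * n : ℝ)^k with hA
  have hA0 : 0 < A := by positivity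
  have hAm : 0 < A^m := by positivity
  have h1 := qSat_upper k n m m' s hn1 (oc_pos k n hn1 hkn) hm'
  have h2 : (m * ic k n * A^(m-1)) / (s+1) ≤ ε * A^m := by
    rcases Nat.eq_zero_or_pos m with h0 | h0
    · subst h0
      simp
      positivity
    · have e : A^m = A * A^(m-1) := by
        rw [← pow_succ']; congr 1; omega
      have h3 : (m:ℝ) * ic k n ≤ c1 * (k:ℝ)^2 * A := by
        have h4 := ic_le k n hn1 hkn
        have h5 : (m:ℝ) * ic k n ≤ m * (A * ((k:ℝ)^2/n)) :=
          mul_le_mul_of_nonneg_left h4 (by positivity)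
        refine h5.trans ?_
        have h6 : (m:ℝ) * (A * ((k:ℝ)^2/n)) = (m * ((k:ℝ)^2 * A))/n := by ring
        rw [h6, div_le_iff₀ hn0]
        have : 0 ≤ (k:ℝ)^2 * A := by positivity
        nlinarith
      have h4 : c1 * (k:ℝ)^2 ≤ ε * (s+1) := by
        have h5 : c1 * (k:ℝ)^2 / ε ≤ s := Nat.le_ceil _
        rw [div_le_iff₀ hε] at h5
        nlinarith
      rw [div_le_iff₀ (by positivity), e]
      have h7 : 0 ≤ A^(m-1) := by positivity
      calc (m:ℝ) * ic k n * A^(m-1) ≤ (c1 * (k:ℝ)^2 * A) * A^(m-1) :=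
            mul_le_mul_of_nonneg_right h3 h7
        _ ≤ (ε * (s+1) * A) * A^(m-1) := by
            apply mul_le_mul_of_nonneg_right _ h7
            exact mul_le_mul_of_nonneg_right h4 hA0.le
        _ = _ := by ring
  have h3 : qSat k n m * A^m ≤ (probSat k n m' + ε) * A^m := by linarith
  have h4 := le_of_mul_le_mul_right h3 hAm
  linarith

theorem transfer (k : ℕ) (hk : 1 ≤ k) (α : ℝ) (hα : 0 < α)
    (h1 : ∀ c : ℝ, 0 ≤ c → c < α → Tendsto (fun n : ℕ => qSat k n ⌊c * n⌋₊) atTop (𝓝 1))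
    (h0 : ∀ c : ℝ, α < c → Tendsto (fun n : ℕ => qSat k n ⌊c * n⌋₊) atTop (𝓝 0)) :
    (∀ c : ℝ, 0 ≤ c → c < α → Tendsto (fun n : ℕ => probSat k n ⌊c * n⌋₊) atTop (𝓝 1)) ∧
      (∀ c : ℝ, α < c → Tendsto (fun n : ℕ => probSat k n ⌊c * n⌋₊) atTop (𝓝 0)) := by
  constructor
  · intro c hc0 hc
    obtain ⟨c', hcc, hc'⟩ := exists_between hc
    rw [Metric.tendsto_atTop]
    intro ε hε
    obtain ⟨s, hs⟩ := probSat_ge k hk c' (ε/2) (by positivity)
    have hq := h1 c' (by linarith) hc'
    rw [Metric.tendsto_atTop] at hq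
    obtain ⟨n1, hn1⟩ := hq (ε/2) (by positivity)
    obtain ⟨n2, hn2⟩ := eventually_atTop.mp hs
    obtain ⟨n3, hn3⟩ := exists_nat_gt ((s+1)/(c'-c))
    refine ⟨max (max n1 n2) n3, fun n hn => ?_⟩
    have a1 : n1 ≤ n := le_trans (le_trans (le_max_left _ _) (le_max_left _ _)) hn
    have a2 : n2 ≤ n := le_trans (le_trans (le_max_right _ _) (le_max_left _ _)) hn
    have a3 : n3 ≤ n := le_trans (le_max_right _ _) hn
    have hc'0 : 0 ≤ c' := by linarith
    have hm : ((⌊c' * n⌋₊ : ℕ) : ℝ) ≤ c' * n := Nat.floor_le (by positivity)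
    have hm' : ⌊c * n⌋₊ + s ≤ ⌊c' * n⌋₊ := by
      rw [Nat.le_floor_iff (by positivity)]
      push_cast
      have b1 : ((⌊c * n⌋₊ : ℕ) : ℝ) ≤ c * n := Nat.floor_le (by positivity)
      have b2 : ((s:ℝ)+1)/(c'-c) < n := by
        have : (n3:ℝ) ≤ n := by exact_mod_cast a3
        linarith
      rw [div_lt_iff₀ (by linarith)] at b2
      nlinarith
    have b := hn2 n a2 _ hm _ hm'
    have b3 := hn1 n a1
    rw [Real.dist_eq, abs_lt] at b3 ⊢
    have b4 := probSat_le_one k n ⌊c * n⌋₊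
    constructor
    · linarith [b3.1]
    · linarith
  · intro c hc
    obtain ⟨κ, hκ, hge⟩ := qSat_ge k hk c
    have hq := h0 c hc
    have hlim : Tendsto (fun n : ℕ => κ⁻¹ * qSat k n ⌊c * n⌋₊) atTop (𝓝 0) := by
      have := hq.const_mul κ⁻¹
      rwa [mul_zero] at this
    refine tendsto_of_tendsto_of_tendsto_of_le_of_le' tendsto_const_nhds hlim
      (Eventually.of_forall fun n => probSat_nonneg k n _) ?_
    filter_upwards [hge] with n hn
    have hm : ((⌊c * n⌋₊ : ℕ) : ℝ) ≤ c * n := Nat.floor_le (by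
      have : 0 < c := by linarith
      positivity)
    have := hn _ hm
    rw [inv_mul_eq_div, le_div_iff₀ hκ]
    linarith

end Vale.P170.Tr
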