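import Vale.Agent.P170.Cov

/-!
# Random k-SAT: supermultiplicativity of the satisfiability probability (interpolation)
-/

namespace Vale.P170

open Finset

/-! ### A clause operator through a map of literals -/

section general

variable {V W : Type*} [Fintype V] [DecidableEq V] [Fintype W] [DecidableEq W] {k : ℕ}

/-- Adding one random clause whose literals are images under `φ` of random literals on `W`. -/
noncomputable def Pmap (k : ℕ) (φ : W × Bool → V × Bool) :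
    Module.End ℝ (Set (V → Bool) → ℝ) :=
  op (fun _ : Fin k → W × Bool => ((2 * Fintype.card W : ℝ) ^ k)⁻¹)
    (fun C => cset fun i => φ (C i))

/-- Average of `chi` over the image literals. -/
noncomputable def bmap (φ : W × Bool → V × Bool) (S : Set (V → Bool)) : ℝ :=
  ∑ l : W × Bool, (2 * Fintype.card W : ℝ)⁻¹ * chi (φ l) S

theorem Pmap_pos (φ : W × Bool → V × Bool) : Pos (Pmap k φ) := op_pos P_weight_nonneg _

theorem bmap_nonneg (φ : W × Bool → V × Bool) (S : Set (V → Bool)) : 0 ≤ bmap φ S :=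
  sum_nonneg fun l _ => mul_nonneg (L_weight_nonneg l) (chi_nonneg _ _)

theorem ne_sub_Pmap [Nonempty W] (hk : 0 < k) (φ : W × Bool → V × Bool) (S : Set (V → Bool)) :
    ne S - Pmap k φ ne S = bmap φ S ^ k := by
  have h1 : ne S = ∑ C : Fin k → W × Bool, ((2 * Fintype.card W : ℝ) ^ k)⁻¹ * ne S := by
    rw [← sum_mul, P_weight_sum, one_mul]
  have h2 : ne S - Pmap k φ ne S
      = ∑ C : Fin k → W × Bool, ((2 * Fintype.card W : ℝ) ^ k)⁻¹ * ∏ i, chi (φ (C i)) S := by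
    conv_lhs => rw [h1, Pmap, op_apply]
    rw [← sum_sub_distrib]
    refine sum_congr rfl fun C _ => ?_
    rw [← mul_sub, ne_sub_ne hk]
  rw [h2, sum_prod_clause (fun _ l => chi (φ l) S), prod_const, card_univ, Fintype.card_fin,
    bmap]

end general

section interpolation

variable {V1 V2 : Type*} [Fintype V1] [DecidableEq V1] [Fintype V2] [DecidableEq V2] {k : ℕ}

/-- Literals of the first block. -/
def liL (l : V1 × Bool) : (V1 ⊕ V2) × Bool := (Sum.inl l.1, l.2)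

/-- Literals of the second block. -/
def liR (l : V2 × Bool) : (V1 ⊕ V2) × Bool := (Sum.inr l.1, l.2)

/-- Fraction of variables in the first block. -/
noncomputable def al1 (V1 V2 : Type*) [Fintype V1] [Fintype V2] : ℝ :=
  (Fintype.card V1 : ℝ) / (Fintype.card V1 + Fintype.card V2)

/-- Fraction of variables in the second block. -/
noncomputable def al2 (V1 V2 : Type*) [Fintype V1] [Fintype V2] : ℝ :=
  (Fintype.card V2 : ℝ) / (Fintype.card V1 + Fintype.card V2)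

theorem al1_nonneg : 0 ≤ al1 V1 V2 := by unfold al1; positivity

theorem al2_nonneg : 0 ≤ al2 V1 V2 := by unfold al2; positivity

theorem al_add [Nonempty V1] : al1 V1 V2 + al2 V1 V2 = 1 := by
  have h1 : (0 : ℝ) < Fintype.card V1 := by exact_mod_cast Fintype.card_pos
  have h2 : (0 : ℝ) ≤ Fintype.card V2 := Nat.cast_nonneg _
  unfold al1 al2
  field_simp

/-- Choose a block with probability proportional to its size, then a random clause in it. -/
noncomputable def Psep (V1 V2 : Type*) [Fintype V1] [DecidableEq V1] [Fintype V2]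
    [DecidableEq V2] (k : ℕ) : Module.End ℝ (Set (V1 ⊕ V2 → Bool) → ℝ) :=
  al1 V1 V2 • Pmap k (liL : V1 × Bool → (V1 ⊕ V2) × Bool)
    + al2 V1 V2 • Pmap k (liR : V2 × Bool → (V1 ⊕ V2) × Bool)

theorem bfr_eq_al [Nonempty V1] [Nonempty V2] (S : Set (V1 ⊕ V2 → Bool)) :
    bfr S = al1 V1 V2 * bmap (liL : V1 × Bool → (V1 ⊕ V2) × Bool) S
      + al2 V1 V2 * bmap (liR : V2 × Bool → (V1 ⊕ V2) × Bool) S := by
  have h1 : (0 : ℝ) < Fintype.card V1 := by exact_mod_cast Fintype.card_pos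
  have h2 : (0 : ℝ) < Fintype.card V2 := by exact_mod_cast Fintype.card_pos
  have e1 : ∀ x : ℝ, al1 V1 V2 * ((2 * Fintype.card V1 : ℝ)⁻¹ * x)
      = (2 * Fintype.card (V1 ⊕ V2) : ℝ)⁻¹ * x := by
    intro x
    unfold al1
    rw [Fintype.card_sum]
    push_cast
    field_simp
  have e2 : ∀ x : ℝ, al2 V1 V2 * ((2 * Fintype.card V2 : ℝ)⁻¹ * x)
      = (2 * Fintype.card (V1 ⊕ V2) : ℝ)⁻¹ * x := by
    intro x
    unfold al2
    rw [Fintype.card_sum]
    push_cast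
    field_simp
  rw [bfr_eq, bmap, bmap, mul_sum, mul_sum]
  simp only [e1, e2]
  rw [Fintype.sum_prod_type, Fintype.sum_sum_type, Fintype.sum_prod_type, Fintype.sum_prod_type]
  rfl

theorem P_ne_ge [Nonempty V1] [Nonempty V2] (hk : 0 < k) :
    Psep V1 V2 k ne ≤ P (V1 ⊕ V2) k ne := by
  intro S
  have h1 := ne_sub_Pmap (k := k) hk (liL : V1 × Bool → (V1 ⊕ V2) × Bool) S
  have h2 := ne_sub_Pmap (k := k) hk (liR : V2 × Bool → (V1 ⊕ V2) × Bool) S
  have h3 := ne_sub_P (k := k) hk S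
  have h4 := bfr_eq_al S
  have h5 : (al1 V1 V2 * bmap (liL : V1 × Bool → (V1 ⊕ V2) × Bool) S
      + al2 V1 V2 * bmap (liR : V2 × Bool → (V1 ⊕ V2) × Bool) S) ^ k
      ≤ al1 V1 V2 * bmap (liL : V1 × Bool → (V1 ⊕ V2) × Bool) S ^ k
      + al2 V1 V2 * bmap (liR : V2 × Bool → (V1 ⊕ V2) × Bool) S ^ k := by
    have := (convexOn_pow (𝕜 := ℝ) k).2
      (Set.mem_Ici.2 (bmap_nonneg (liL : V1 × Bool → (V1 ⊕ V2) × Bool) S))
      (Set.mem_Ici.2 (bmap_nonneg (liR : V2 × Bool → (V1 ⊕ V2) × Bool) S))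
      (al1_nonneg (V1 := V1) (V2 := V2)) (al2_nonneg (V1 := V1) (V2 := V2)) al_add
    simpa using this
  have h6 : Psep V1 V2 k ne S = al1 V1 V2 * Pmap k (liL : V1 × Bool → (V1 ⊕ V2) × Bool) ne S
      + al2 V1 V2 * Pmap k (liR : V2 × Bool → (V1 ⊕ V2) × Bool) ne S := by
    simp [Psep]
  have h7 : al1 V1 V2 = 1 - al2 V1 V2 := by
    have := al_add (V1 := V1) (V2 := V2)
    linarith
  rw [h6]
  rw [← h4] at h5
  have e1 : Pmap k (liL : V1 × Bool → (V1 ⊕ V2) × Bool) ne S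
      = ne S - bmap (liL : V1 × Bool → (V1 ⊕ V2) × Bool) S ^ k := by linarith
  have e2 : Pmap k (liR : V2 × Bool → (V1 ⊕ V2) × Bool) ne S
      = ne S - bmap (liR : V2 × Bool → (V1 ⊕ V2) × Bool) S ^ k := by linarith
  have e3 : P (V1 ⊕ V2) k ne S = ne S - bfr S ^ k := by linarith
  rw [e1, e2, e3]
  have e4 : al1 V1 V2 * (ne S - bmap (liL : V1 × Bool → (V1 ⊕ V2) × Bool) S ^ k)
      + al2 V1 V2 * (ne S - bmap (liR : V2 × Bool → (V1 ⊕ V2) × Bool) S ^ k)
      = (al1 V1 V2 + al2 V1 V2) * ne S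
        - (al1 V1 V2 * bmap (liL : V1 × Bool → (V1 ⊕ V2) × Bool) S ^ k
        + al2 V1 V2 * bmap (liR : V2 × Bool → (V1 ⊕ V2) × Bool) S ^ k) := by ring
  rw [e4, al_add]
  linarith

theorem Psep_pos : Pos (Psep V1 V2 k) := by
  intro f hf S
  have h1 := Pmap_pos (k := k) (liL : V1 × Bool → (V1 ⊕ V2) × Bool) f hf S
  have h2 := Pmap_pos (k := k) (liR : V2 × Bool → (V1 ⊕ V2) × Bool) f hf S
  have h3 := al1_nonneg (V1 := V1) (V2 := V2)
  have h4 := al2_nonneg (V1 := V1) (V2 := V2)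
  simp only [Psep, LinearMap.add_apply, LinearMap.smul_apply, Pi.add_apply, Pi.smul_apply,
    smul_eq_mul]
  exact add_nonneg (mul_nonneg h3 h1) (mul_nonneg h4 h2)

theorem P_Psep_commute : Commute (P (V1 ⊕ V2) k) (Psep V1 V2 k) := by
  unfold Psep
  exact ((op_commute _ _ _ _).smul_right _).add_right ((op_commute _ _ _ _).smul_right _)

theorem P_pow_ge [Nonempty V1] [Nonempty V2] (hk : 0 < k) (m : ℕ) :
    (Psep V1 V2 k ^ m) ne ≤ (P (V1 ⊕ V2) k ^ m) ne := by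
  induction m with
  | zero => simp
  | succ m ih =>
    have h1 : (P (V1 ⊕ V2) k ^ m) (Psep V1 V2 k ne) = Psep V1 V2 k ((P (V1 ⊕ V2) k ^ m) ne) := by
      rw [← Module.End.mul_apply, ← Module.End.mul_apply, (P_Psep_commute.pow_left m).eq]
    calc (Psep V1 V2 k ^ (m + 1)) ne = Psep V1 V2 k ((Psep V1 V2 k ^ m) ne) := pow_succ_apply' _ _ _
      _ ≤ Psep V1 V2 k ((P (V1 ⊕ V2) k ^ m) ne) := Psep_pos.mono ih
      _ = (P (V1 ⊕ V2) k ^ m) (Psep V1 V2 k ne) := h1.symm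
      _ ≤ (P (V1 ⊕ V2) k ^ m) (P (V1 ⊕ V2) k ne) := (P_pos.pow m).mono (P_ne_ge hk)
      _ = (P (V1 ⊕ V2) k ^ (m + 1)) ne := (pow_succ_apply _ _ _).symm

/-- Rectangles. -/
def rect (S1 : Set (V1 → Bool)) (S2 : Set (V2 → Bool)) : Set (V1 ⊕ V2 → Bool) :=
  {σ | (fun v => σ (Sum.inl v)) ∈ S1 ∧ (fun v => σ (Sum.inr v)) ∈ S2}

theorem rect_inter_left (S1 : Set (V1 → Bool)) (S2 : Set (V2 → Bool)) (C : Fin k → V1 × Bool) :
    rect S1 S2 ∩ cset (fun i => (liL (C i) : (V1 ⊕ V2) × Bool)) = rect (S1 ∩ cset C) S2 := by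
  ext σ
  simp only [rect, cset, liL, Set.mem_inter_iff, Set.mem_ofPred_eq]
  tauto

theorem rect_inter_right (S1 : Set (V1 → Bool)) (S2 : Set (V2 → Bool)) (C : Fin k → V2 × Bool) :
    rect S1 S2 ∩ cset (fun i => (liR (C i) : (V1 ⊕ V2) × Bool)) = rect S1 (S2 ∩ cset C) := by
  ext σ
  simp only [rect, cset, liR, Set.mem_inter_iff, Set.mem_ofPred_eq]
  tauto

theorem ne_rect (S1 : Set (V1 → Bool)) (S2 : Set (V2 → Bool)) :
    ne (rect S1 S2) = ne S1 * ne S2 := by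
  by_cases h1 : S1.Nonempty
  · by_cases h2 : S2.Nonempty
    · obtain ⟨σ1, h3⟩ := h1
      obtain ⟨σ2, h4⟩ := h2
      have h5 : (rect S1 S2).Nonempty := ⟨Sum.elim σ1 σ2, by simpa [rect] using ⟨h3, h4⟩⟩
      rw [ne_of_nonempty h5, ne_of_nonempty ⟨σ1, h3⟩, ne_of_nonempty ⟨σ2, h4⟩, one_mul]
    · have h5 : ¬ (rect S1 S2).Nonempty := fun ⟨σ, hσ⟩ => h2 ⟨_, hσ.2⟩
      rw [ne_of_not h5, ne_of_not h2, mul_zero]
  · have h5 : ¬ (rect S1 S2).Nonempty := fun ⟨σ, hσ⟩ => h1 ⟨_, hσ.1⟩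
    rw [ne_of_not h5, ne_of_not h1, zero_mul]

theorem Pmap_pow_left (f : Set (V1 ⊕ V2 → Bool) → ℝ) (g : Set (V1 → Bool) → ℝ)
    (S2 : Set (V2 → Bool)) (c : ℝ) (h : ∀ S1, f (rect S1 S2) = g S1 * c) (j : ℕ) :
    ∀ S1, (Pmap k (liL : V1 × Bool → (V1 ⊕ V2) × Bool) ^ j) f (rect S1 S2)
      = (P V1 k ^ j) g S1 * c := by
  induction j with
  | zero => intro S1; simpa using h S1
  | succ j ih =>
    intro S1
    rw [pow_succ_apply', pow_succ_apply', P_apply, Pmap, op_apply, sum_mul]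
    refine sum_congr rfl fun C _ => ?_
    have := ih (S1 ∩ cset C)
    rw [Pmap] at this
    rw [rect_inter_left, this]
    ring

theorem Pmap_pow_right (f : Set (V1 ⊕ V2 → Bool) → ℝ) (g : Set (V2 → Bool) → ℝ)
    (S1 : Set (V1 → Bool)) (c : ℝ) (h : ∀ S2, f (rect S1 S2) = c * g S2) (j : ℕ) :
    ∀ S2, (Pmap k (liR : V2 × Bool → (V1 ⊕ V2) × Bool) ^ j) f (rect S1 S2)
      = c * (P V2 k ^ j) g S2 := by
  induction j with
  | zero => intro S2; simpa using h S2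
  | succ j ih =>
    intro S2
    rw [pow_succ_apply', pow_succ_apply', P_apply, Pmap, op_apply, mul_sum]
    refine sum_congr rfl fun C _ => ?_
    have := ih (S2 ∩ cset C)
    rw [Pmap] at this
    rw [rect_inter_right, this]
    ring

theorem rect_univ : (rect Set.univ Set.univ : Set (V1 ⊕ V2 → Bool)) = Set.univ := by
  ext σ
  simp [rect]

theorem both_blocks (i j : ℕ) :
    (Pmap k (liL : V1 × Bool → (V1 ⊕ V2) × Bool) ^ i)
      ((Pmap k (liR : V2 × Bool → (V1 ⊕ V2) × Bool) ^ j) ne) Set.univ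
      = pS V1 k i * pS V2 k j := by
  rw [← rect_univ]
  have h1 : ∀ S1 : Set (V1 → Bool), (Pmap k (liR : V2 × Bool → (V1 ⊕ V2) × Bool) ^ j) ne
      (rect S1 Set.univ) = ne S1 * pS V2 k j := fun S1 =>
    Pmap_pow_right ne ne S1 (ne S1) (fun S2 => ne_rect S1 S2) j Set.univ
  exact Pmap_pow_left _ ne Set.univ (pS V2 k j) h1 i Set.univ

theorem LR_commute : Commute (Pmap k (liL : V1 × Bool → (V1 ⊕ V2) × Bool))
    (Pmap k (liR : V2 × Bool → (V1 ⊕ V2) × Bool)) := op_commute _ _ _ _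

/-- **Supermultiplicativity** (for disjoint unions of variable sets). -/
theorem pS_sum_ge [Nonempty V1] [Nonempty V2] (hk : 0 < k) (m : ℕ) :
    ∑ j ∈ range (m + 1), (m.choose j : ℝ) * al1 V1 V2 ^ j * al2 V1 V2 ^ (m - j) *
      (pS V1 k j * pS V2 k (m - j)) ≤ pS (V1 ⊕ V2) k m := by
  refine le_trans (le_of_eq ?_) (P_pow_ge hk m Set.univ)
  have hc : Commute (al1 V1 V2 • Pmap k (liL : V1 × Bool → (V1 ⊕ V2) × Bool))
      (al2 V1 V2 • Pmap k (liR : V2 × Bool → (V1 ⊕ V2) × Bool)) :=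
    (LR_commute.smul_left _).smul_right _
  rw [Psep, hc.add_pow, LinearMap.sum_apply, Finset.sum_apply]
  refine sum_congr rfl fun j _ => ?_
  rw [smul_pow, smul_pow]
  have h1 : ((al1 V1 V2 ^ j • Pmap k (liL : V1 × Bool → (V1 ⊕ V2) × Bool) ^ j) *
      (al2 V1 V2 ^ (m - j) • Pmap k (liR : V2 × Bool → (V1 ⊕ V2) × Bool) ^ (m - j)) *
      ((m.choose j : ℕ) : Module.End ℝ (Set (V1 ⊕ V2 → Bool) → ℝ))) ne
      = ((m.choose j : ℝ) * al1 V1 V2 ^ j * al2 V1 V2 ^ (m - j)) •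
        (Pmap k (liL : V1 × Bool → (V1 ⊕ V2) × Bool) ^ j)
          ((Pmap k (liR : V2 × Bool → (V1 ⊕ V2) × Bool) ^ (m - j)) ne) := by
    rw [Module.End.mul_apply, Module.End.mul_apply]
    have h2 : ((m.choose j : ℕ) : Module.End ℝ (Set (V1 ⊕ V2 → Bool) → ℝ)) ne
        = (m.choose j : ℝ) • (ne : Set (V1 ⊕ V2 → Bool) → ℝ) := by
      rw [Module.End.natCast_apply, Nat.cast_smul_eq_nsmul]
    rw [h2]
    simp only [LinearMap.smul_apply, map_smul, smul_smul]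
    congr 1
    ring
  rw [h1, Pi.smul_apply, both_blocks, smul_eq_mul]

end interpolation

section congr

variable {V W : Type*} [Fintype V] [DecidableEq V] [Fintype W] [DecidableEq W] {k : ℕ}

/-- Transport of sets of assignments. -/
def tr (e : V ≃ W) (T : Set (W → Bool)) : Set (V → Bool) := {σ | (fun w => σ (e.symm w)) ∈ T}

theorem ne_tr (e : V ≃ W) (T : Set (W → Bool)) : ne (tr e T) = ne T := by
  by_cases h : T.Nonempty
  · obtain ⟨τ, hτ⟩ := h
    have h1 : (tr e T).Nonempty := ⟨fun v => τ (e v), by simpa [tr] using hτ⟩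
    rw [ne_of_nonempty h1, ne_of_nonempty ⟨τ, hτ⟩]
  · have h1 : ¬ (tr e T).Nonempty := fun ⟨σ, hσ⟩ => h ⟨_, hσ⟩
    rw [ne_of_not h1, ne_of_not h]

theorem P_tr (e : V ≃ W) (f : Set (V → Bool) → ℝ) (T : Set (W → Bool)) :
    P V k f (tr e T) = P W k (fun T => f (tr e T)) T := by
  rw [P_apply, P_apply, Fintype.card_congr e]
  let E : (Fin k → W × Bool) ≃ (Fin k → V × Bool) :=
    (Equiv.refl _).arrowCongr (e.symm.prodCongr (Equiv.refl _))
  rw [← Equiv.sum_comp E]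
  refine sum_congr rfl fun C _ => ?_
  congr 2

theorem P_pow_tr (e : V ≃ W) (m : ℕ) :
    ∀ (f : Set (V → Bool) → ℝ) (T : Set (W → Bool)),
      (P V k ^ m) f (tr e T) = (P W k ^ m) (fun T => f (tr e T)) T := by
  induction m with
  | zero => intro f T; simp
  | succ m ih =>
    intro f T
    have h : (fun T => (P V k ^ m) f (tr e T)) = (P W k ^ m) fun T => f (tr e T) :=
      funext fun T => ih f T
    rw [pow_succ_apply', pow_succ_apply', P_tr, h]

theorem pS_congr (e : V ≃ W) (m : ℕ) : pS V k m = pS W k m := by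
  have h1 : tr e Set.univ = Set.univ := by ext σ; simp [tr]
  have h2 : (fun T : Set (W → Bool) => ne (tr e T)) = ne := funext fun T => ne_tr e T
  rw [pS, pS, ← h1, P_pow_tr, h2]

end congr

/-- **Supermultiplicativity.** -/
theorem pS_super (k : ℕ) (hk : 0 < k) (n1 n2 m : ℕ) (h1 : 1 ≤ n1) (h2 : 1 ≤ n2) :
    ∑ j ∈ range (m + 1), (m.choose j : ℝ) * ((n1 : ℝ) / (n1 + n2)) ^ j *
      ((n2 : ℝ) / (n1 + n2)) ^ (m - j) * (pS (Fin n1) k j * pS (Fin n2) k (m - j))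
      ≤ pS (Fin (n1 + n2)) k m := by
  have : Nonempty (Fin n1) := ⟨⟨0, h1⟩⟩
  have : Nonempty (Fin n2) := ⟨⟨0, h2⟩⟩
  have h := pS_sum_ge (V1 := Fin n1) (V2 := Fin n2) hk m
  rw [pS_congr finSumFinEquiv] at h
  simpa [al1, al2] using h

end Vale.P170
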