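import Vale.Agent.P170.Window
import Vale.Agent.P170.SM
import Vale.Agent.P170.Bridge
import Vale.Agent.P170.M4
import Vale.Agent.P170.M5
import Vale.Agent.P170.M6
import Vale.Agent.P170.M7

/-!
# Random k-SAT: the limiting threshold exists for every k ≥ 3
-/

namespace Vale.P170

open Finset Filter Topology

/-- The satisfiability probability of the literal-tuple model, completed at `n = 0`. -/
noncomputable def pp (k n m : ℕ) : ℝ := if n = 0 then (if m = 0 then 1 else 0) else pS (Fin n) k m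

/-- The expected fraction of killing literals, completed at `n = 0`. -/
noncomputable def ee (k n m : ℕ) : ℝ := if n = 0 then 0 else (P (Fin n) k ^ m) bfr Set.univ

theorem nonempty_fin {n : ℕ} (h : n ≠ 0) : Nonempty (Fin n) := ⟨⟨0, Nat.pos_of_ne_zero h⟩⟩

theorem pp_of_ne {k n : ℕ} (h : n ≠ 0) (m : ℕ) : pp k n m = pS (Fin n) k m := if_neg h

theorem pp_nonneg (k n m : ℕ) : 0 ≤ pp k n m := by
  unfold pp
  split_ifs with h1 h2
  · norm_num
  · exact le_rfl
  · exact u_nonneg m _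

theorem pp_le_one (k n m : ℕ) : pp k n m ≤ 1 := by
  unfold pp
  split_ifs with h1 h2
  · exact le_rfl
  · norm_num
  · have := nonempty_fin h1
    exact u_le_one m _

theorem pp_anti (k n : ℕ) : Antitone (pp k n) := by
  intro a b hab
  unfold pp
  split_ifs with h1 h2 h3 h3
  · exact le_rfl
  · omega
  · norm_num
  · exact le_rfl
  · have := nonempty_fin h1
    exact u_antitone (k := k) Set.univ hab

theorem pp_zero (k n : ℕ) : pp k n 0 = 1 := by
  by_cases h : n = 0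
  · simp [pp, h]
  · rw [pp_of_ne h, pS, pow_zero, Module.End.one_apply, ne_of_nonempty Set.univ_nonempty]

theorem ee_nonneg (k n m : ℕ) : 0 ≤ ee k n m := by
  unfold ee
  split_ifs with h1
  · exact le_rfl
  · exact (P_pos.pow m) bfr bfr_nonneg _

theorem half_pow_le_one (k : ℕ) : (0 : ℝ) ≤ 1 - (1 / 2 : ℝ) ^ k :=
  sub_nonneg.2 (pow_le_one₀ (by norm_num) (by norm_num))

theorem pp_first_moment (k n m : ℕ) : pp k n m ≤ 2 ^ n * (1 - (1 / 2 : ℝ) ^ k) ^ m := by
  unfold pp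
  split_ifs with h1 h2
  · rw [h1, h2]; norm_num
  · have := half_pow_le_one k
    positivity
  · have := nonempty_fin h1
    have h := pS_le (V := Fin n) k m
    simpa using h

theorem pp_super (k : ℕ) (hk : 0 < k) (n1 n2 m : ℕ) (h1 : 1 ≤ n1) (h2 : 1 ≤ n2) :
    ∑ j ∈ range (m + 1), (m.choose j : ℝ) * ((n1 : ℝ) / (n1 + n2)) ^ j *
      ((n2 : ℝ) / (n1 + n2)) ^ (m - j) * (pp k n1 j * pp k n2 (m - j)) ≤ pp k (n1 + n2) m := by
  have h := pS_super k hk n1 n2 m h1 h2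
  have e1 : ∀ j, pp k n1 j = pS (Fin n1) k j := fun j => pp_of_ne (by omega) j
  have e2 : ∀ j, pp k n2 j = pS (Fin n2) k j := fun j => pp_of_ne (by omega) j
  have e3 : pp k (n1 + n2) m = pS (Fin (n1 + n2)) k m := pp_of_ne (by omega) m
  simp only [e1, e2, e3]
  exact h

theorem pp_window (k : ℕ) (hk : 3 ≤ k) (c1 : ℝ) :
    ∃ N0 : ℕ, ∀ N ≥ N0, ∀ t : ℕ,
      ((t + 2 * ⌈(N : ℝ) ^ (0.99 : ℝ)⌉₊ : ℕ) : ℝ) ≤ c1 * N →
      (N : ℝ) ^ (-0.01 : ℝ) ≤ pp k N (t + 2 * ⌈(N : ℝ) ^ (0.99 : ℝ)⌉₊) →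
      1 - (N : ℝ) ^ (-0.01 : ℝ) ≤ pp k N t := by
  obtain ⟨k', rfl⟩ : ∃ k', k = k' + 1 := ⟨k - 1, by omega⟩
  refine window_of (k' + 1) hk (pp (k' + 1)) (ee (k' + 1)) (pp_nonneg _) (pp_le_one _)
    (pp_anti _) (ee_nonneg _) ?_ ?_ c1
  · intro N m w lam hN hlam
    have hN' : N ≠ 0 := by omega
    have := nonempty_fin hN'
    have h := cov_sum (V := Fin N) (k := k' + 1) (Nat.succ_pos k') lam hlam m w Set.univ
    simp only [pp_of_ne hN', ee, if_neg hN', pS]
    exact h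
  · intro N a w j0 s1 c1 τ B hN hc hτ hτ1 hB hs
    have hN' : N ≠ 0 := by omega
    have := nonempty_fin hN'
    have h := sum_e_le (V := Fin N) (k := k') (by omega) a w j0 s1 c1 τ B
      (by rw [Fintype.card_fin]; exact hc) hτ hτ1 hB (by exact_mod_cast hs)
    rw [Fintype.card_fin] at h
    simp only [ee, if_neg hN', Nat.add_sub_cancel]
    exact_mod_cast h

/-- The literal-tuple model has a limiting threshold. -/
theorem qSat_threshold (k : ℕ) (hk : 3 ≤ k) :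
    ∃ α : ℝ, 0 < α ∧
      (∀ c : ℝ, 0 ≤ c → c < α → Tendsto (fun n : ℕ => qSat k n ⌊c * n⌋₊) atTop (𝓝 1)) ∧
      (∀ c : ℝ, α < c → Tendsto (fun n : ℕ => qSat k n ⌊c * n⌋₊) atTop (𝓝 0)) := by
  have hpq : ∀ n : ℕ, 1 ≤ n → ∀ m, pp k n m = qSat k n m := fun n hn m => by
    rw [pp_of_ne (by omega), pS_eq_qSat k n m]
  obtain ⟨α, hα, h1, h0⟩ := threshold_of k (by omega) (pp k) (pp_nonneg k) (pp_le_one k)
    (pp_anti k) (pp_zero k) (pp_first_moment k) (pp_super k (by omega))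
    (pp_window k hk) (fun n hn => by rw [hpq n hn]; exact qSat_pos k n hk hn)
  refine ⟨α, hα, fun c hc hcα => ?_, fun c hcα => ?_⟩
  · refine (h1 c hc hcα).congr' ?_
    filter_upwards [eventually_ge_atTop 1] with n hn
    exact hpq n hn _
  · refine (h0 c hcα).congr' ?_
    filter_upwards [eventually_ge_atTop 1] with n hn
    exact hpq n hn _

/-- **The satisfiability threshold conjecture.** -/
theorem probSat_threshold (k : ℕ) (hk : 3 ≤ k) :
    ∃ α : ℝ, 0 < α ∧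
      (∀ c : ℝ, 0 ≤ c → c < α → Tendsto (fun n : ℕ => probSat k n ⌊c * n⌋₊) atTop (𝓝 1)) ∧
      (∀ c : ℝ, α < c → Tendsto (fun n : ℕ => probSat k n ⌊c * n⌋₊) atTop (𝓝 0)) := by
  obtain ⟨α, hα, h1, h0⟩ := qSat_threshold k hk
  obtain ⟨h1', h0'⟩ := Tr.transfer k (by omega) α hα h1 h0
  exact ⟨α, hα, h1', h0'⟩

end Vale.P170
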