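import Mathlib

/-!
# Random k-SAT: the model

`probSat k n m` is the probability that `m` independent uniform proper `k`-clauses on `n`
variables (sampled with replacement) are simultaneously satisfiable.
-/

namespace Vale.P170

/-- The proper `k`-clauses on the variables `Fin n`: sets of exactly `k` literals
`(v, s)` (`v` a variable, `s` the value that makes the literal true) on distinct variables. -/
def properClauses (k n : ℕ) : Finset (Finset (Fin n × Bool)) :=
  Finset.univ.filter fun C => C.card = k ∧ ∀ l ∈ C, ∀ l' ∈ C, l.1 = l'.1 → l = l'

/-- A family of clauses is satisfiable if one assignment makes a literal of each clause true. -/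
def Satisfiable {n m : ℕ} (F : Fin m → Finset (Fin n × Bool)) : Prop :=
  ∃ σ : Fin n → Bool, ∀ i, ∃ l ∈ F i, σ l.1 = l.2

open Classical in
/-- The probability that `m` independent uniform proper `k`-clauses on `n` variables are
simultaneously satisfiable: the number of satisfiable `m`-tuples of proper `k`-clauses divided
by the number of all `m`-tuples. -/
noncomputable def probSat (k n m : ℕ) : ℝ :=
  ((Finset.univ.filter fun F : Fin m → (properClauses k n) =>
      Satisfiable fun i => (F i : Finset (Fin n × Bool))).card : ℝ)
    / ((properClauses k n).card : ℝ) ^ m

end Vale.P170
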