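import Vale.Agent.P170.Defs

/-!
# Random k-SAT: the operators adding a random clause or a random literal
-/

namespace Vale.P170

open Finset

section general

variable {Ω κ κ' : Type*} [Fintype κ] [Fintype κ']

theorem op_apply (w : κ → ℝ) (c : κ → Set Ω) (f : Set Ω → ℝ) (S : Set Ω) :
    op w c f S = ∑ i, w i * f (S ∩ c i) := rfl

theorem op_commute (w : κ → ℝ) (c : κ → Set Ω) (w' : κ' → ℝ) (c' : κ' → Set Ω) :
    Commute (op w c) (op w' c') := by
  refine LinearMap.ext fun f => funext fun S => ?_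
  simp only [Module.End.mul_apply, op_apply, mul_sum]
  rw [sum_comm]
  refine sum_congr rfl fun i _ => sum_congr rfl fun j _ => ?_
  rw [Set.inter_right_comm]
  ring

/-- The operator `f ↦ (S ↦ f (S ∩ X))`. -/
noncomputable def restr (X : Set Ω) : Module.End ℝ (Set Ω → ℝ) :=
  op (fun _ : Unit => 1) (fun _ => X)

theorem restr_apply (X : Set Ω) (f : Set Ω → ℝ) (S : Set Ω) : restr X f S = f (S ∩ X) := by
  simp [restr, op_apply]

/-- Positive operators. -/
def Pos (T : Module.End ℝ (Set Ω → ℝ)) : Prop := ∀ f : Set Ω → ℝ, 0 ≤ f → 0 ≤ T f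

theorem Pos.mono {T : Module.End ℝ (Set Ω → ℝ)} (hT : Pos T) {f g : Set Ω → ℝ} (h : f ≤ g) :
    T f ≤ T g := by
  have := hT (g - f) (sub_nonneg.2 h)
  rw [map_sub] at this
  exact sub_nonneg.1 this

theorem Pos.one : Pos (1 : Module.End ℝ (Set Ω → ℝ)) := fun _ h => h

theorem Pos.mul {T T' : Module.End ℝ (Set Ω → ℝ)} (h : Pos T) (h' : Pos T') : Pos (T * T') :=
  fun f hf => h _ (h' f hf)

theorem Pos.pow {T : Module.End ℝ (Set Ω → ℝ)} (h : Pos T) (n : ℕ) : Pos (T ^ n) := by
  induction n with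
  | zero => simpa using Pos.one
  | succ n ih => rw [pow_succ]; exact ih.mul h

theorem op_pos {w : κ → ℝ} (hw : ∀ i, 0 ≤ w i) (c : κ → Set Ω) : Pos (op w c) := by
  intro f hf S
  exact sum_nonneg fun i _ => mul_nonneg (hw i) (hf _)

theorem op_pow_inter (w : κ → ℝ) (c : κ → Set Ω) (n : ℕ) (f : Set Ω → ℝ) (S X : Set Ω) :
    ((op w c) ^ n) f (S ∩ X) = ((op w c) ^ n) (fun S => f (S ∩ X)) S := by
  have h : Commute ((op w c) ^ n) (restr X) := (op_commute _ _ _ _).pow_left n
  have h1 : ((op w c) ^ n * restr X) f S = (restr X * (op w c) ^ n) f S := by rw [h.eq]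
  rw [Module.End.mul_apply, Module.End.mul_apply, restr_apply] at h1
  have h2 : restr X f = fun S => f (S ∩ X) := funext fun S => restr_apply X f S
  rw [← h1, h2]

theorem pow_succ_apply' (T : Module.End ℝ (Set Ω → ℝ)) (n : ℕ) (f : Set Ω → ℝ) :
    (T ^ (n + 1)) f = T ((T ^ n) f) := by
  rw [pow_succ', Module.End.mul_apply]

theorem pow_succ_apply (T : Module.End ℝ (Set Ω → ℝ)) (n : ℕ) (f : Set Ω → ℝ) :
    (T ^ (n + 1)) f = (T ^ n) (T f) := by
  rw [pow_succ, Module.End.mul_apply]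

theorem pow_add_apply (T : Module.End ℝ (Set Ω → ℝ)) (n m : ℕ) (f : Set Ω → ℝ) :
    (T ^ (n + m)) f = (T ^ n) ((T ^ m) f) := by
  rw [pow_add, Module.End.mul_apply]

theorem ne_nonneg (S : Set Ω) : 0 ≤ ne S := by
  unfold ne; split_ifs <;> norm_num

theorem ne_le_one (S : Set Ω) : ne S ≤ 1 := by
  unfold ne; split_ifs <;> norm_num

theorem ne_of_nonempty {S : Set Ω} (h : S.Nonempty) : ne S = 1 := by
  simp [ne, h]

theorem ne_empty_iff {S : Set Ω} : ne S = 0 ↔ ¬ S.Nonempty := by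
  unfold ne; split_ifs with h <;> simp [h]

theorem ne_of_not {S : Set Ω} (h : ¬ S.Nonempty) : ne S = 0 := ne_empty_iff.2 h

theorem ne_mono {S T : Set Ω} (h : S ⊆ T) : ne S ≤ ne T := by
  by_cases hS : S.Nonempty
  · rw [ne_of_nonempty hS, ne_of_nonempty (hS.mono h)]
  · rw [ne_of_not hS]; exact ne_nonneg T

theorem ne_mul_self (S : Set Ω) : ne S * ne S = ne S := by
  unfold ne; split_ifs <;> norm_num

/-- A function of states is monotone if it is monotone for inclusion; this is preserved. -/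
theorem op_mono_set {w : κ → ℝ} (hw : ∀ i, 0 ≤ w i) (c : κ → Set Ω) {f : Set Ω → ℝ}
    (hf : Monotone f) : Monotone (op w c f) := by
  intro S T h
  simp only [op_apply]
  exact sum_le_sum fun i _ => mul_le_mul_of_nonneg_left
    (hf (Set.inter_subset_inter_left _ h)) (hw i)

theorem op_anti_set {w : κ → ℝ} (hw : ∀ i, 0 ≤ w i) (c : κ → Set Ω) {f : Set Ω → ℝ}
    (hf : Antitone f) : Antitone (op w c f) := by
  intro S T h
  simp only [op_apply]
  exact sum_le_sum fun i _ => mul_le_mul_of_nonneg_left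
    (hf (Set.inter_subset_inter_left _ h)) (hw i)

theorem op_pow_mono_set {w : κ → ℝ} (hw : ∀ i, 0 ≤ w i) (c : κ → Set Ω) {f : Set Ω → ℝ}
    (hf : Monotone f) (n : ℕ) : Monotone (((op w c) ^ n) f) := by
  induction n with
  | zero => simpa using hf
  | succ n ih => rw [pow_succ_apply']; exact op_mono_set hw c ih

theorem op_pow_anti_set {w : κ → ℝ} (hw : ∀ i, 0 ≤ w i) (c : κ → Set Ω) {f : Set Ω → ℝ}
    (hf : Antitone f) (n : ℕ) : Antitone (((op w c) ^ n) f) := by
  induction n with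
  | zero => simpa using hf
  | succ n ih => rw [pow_succ_apply']; exact op_anti_set hw c ih

theorem op_const {w : κ → ℝ} (c : κ → Set Ω) (hw : ∑ i, w i = 1) (a : ℝ) :
    op w c (fun _ => a) = fun _ => a := by
  funext S
  simp only [op_apply]
  rw [← sum_mul, hw, one_mul]

theorem op_pow_const {w : κ → ℝ} (c : κ → Set Ω) (hw : ∑ i, w i = 1) (a : ℝ) (n : ℕ) :
    ((op w c) ^ n) (fun _ => a) = fun _ => a := by
  induction n with
  | zero => simp
  | succ n ih => rw [pow_succ_apply, op_const c hw, ih]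

end general

section clauses

variable {V : Type*} [Fintype V] [DecidableEq V] {k : ℕ}

theorem card_lit_fun : (Fintype.card (Fin k → V × Bool) : ℝ) = (2 * Fintype.card V : ℝ) ^ k := by
  simp [mul_comm]

theorem P_weight_nonneg (_ : Fin k → V × Bool) : 0 ≤ ((2 * Fintype.card V : ℝ) ^ k)⁻¹ := by
  positivity

theorem L_weight_nonneg (_ : V × Bool) : 0 ≤ (2 * Fintype.card V : ℝ)⁻¹ := by
  positivity

theorem P_apply (f : Set (V → Bool) → ℝ) (S : Set (V → Bool)) :
    P V k f S = ∑ C : Fin k → V × Bool, ((2 * Fintype.card V : ℝ) ^ k)⁻¹ * f (S ∩ cset C) := rfl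

theorem L_apply (f : Set (V → Bool) → ℝ) (S : Set (V → Bool)) :
    L V f S = ∑ l : V × Bool, (2 * Fintype.card V : ℝ)⁻¹ * f (S ∩ lset l) := rfl

theorem P_pos : Pos (P V k) := op_pos P_weight_nonneg _

theorem L_pos : Pos (L V) := op_pos L_weight_nonneg _

theorem P_weight_sum [Nonempty V] :
    ∑ _C : Fin k → V × Bool, ((2 * Fintype.card V : ℝ) ^ k)⁻¹ = 1 := by
  rw [sum_const, card_univ, nsmul_eq_mul, card_lit_fun, mul_inv_cancel₀]
  have : (0 : ℝ) < Fintype.card V := by exact_mod_cast Fintype.card_pos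
  positivity

theorem L_weight_sum [Nonempty V] :
    ∑ _l : V × Bool, (2 * Fintype.card V : ℝ)⁻¹ = 1 := by
  rw [sum_const, card_univ, nsmul_eq_mul]
  have : (0 : ℝ) < Fintype.card V := by exact_mod_cast Fintype.card_pos
  simp only [Fintype.card_prod, Fintype.card_bool, Nat.cast_mul, Nat.cast_ofNat]
  field_simp

theorem P_pow_const [Nonempty V] (a : ℝ) (n : ℕ) :
    ((P V k) ^ n) (fun _ => a) = fun _ => a := op_pow_const _ P_weight_sum a n

theorem L_pow_const [Nonempty V] (a : ℝ) (n : ℕ) :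
    ((L V) ^ n) (fun _ => a) = fun _ => a := op_pow_const _ L_weight_sum a n

/-- `∑_C w ∏_i g i (C i) = ∏_i (∑_l w g i l)`. -/
theorem sum_prod_clause (g : Fin k → V × Bool → ℝ) :
    ∑ C : Fin k → V × Bool, ((2 * Fintype.card V : ℝ) ^ k)⁻¹ * ∏ i, g i (C i)
      = ∏ i, ∑ l : V × Bool, (2 * Fintype.card V : ℝ)⁻¹ * g i l := by
  rw [Finset.prod_univ_sum, ← mul_sum, Fintype.piFinset_univ, mul_sum]
  refine sum_congr rfl fun C _ => ?_
  rw [prod_mul_distrib, prod_const, card_univ, Fintype.card_fin, inv_pow]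

theorem lset_sub_cset (C : Fin k → V × Bool) (i : Fin k) : lset (C i) ⊆ cset C := by
  intro σ hσ
  exact ⟨i, hσ⟩

theorem cset_eq (C : Fin k → V × Bool) : cset C = ⋃ i, lset (C i) := by
  ext σ
  simp [cset, lset]

theorem chi_nonneg (l : V × Bool) (S : Set (V → Bool)) : 0 ≤ chi l S := by
  unfold chi; split_ifs <;> norm_num

theorem chi_le_one (l : V × Bool) (S : Set (V → Bool)) : chi l S ≤ 1 := by
  unfold chi; split_ifs <;> norm_num

theorem chi_eq (l : V × Bool) (S : Set (V → Bool)) :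
    chi l S = ne S * (1 - ne (S ∩ lset l)) := by
  unfold chi
  by_cases h1 : S.Nonempty
  · by_cases h2 : (S ∩ lset l).Nonempty
    · simp [h2, ne_of_nonempty]
    · simp [h1, h2, ne_of_nonempty h1, ne_of_not h2]
  · simp [h1, ne_of_not h1]

theorem ne_sub_ne (hk : 0 < k) (C : Fin k → V × Bool) (S : Set (V → Bool)) :
    ne S - ne (S ∩ cset C) = ∏ i, chi (C i) S := by
  by_cases h1 : S.Nonempty
  · by_cases h2 : (S ∩ cset C).Nonempty
    · rw [ne_of_nonempty h1, ne_of_nonempty h2, sub_self]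
      obtain ⟨σ, hσ, i, hi⟩ := h2
      refine (prod_eq_zero (mem_univ i) ?_).symm
      unfold chi
      rw [if_neg]
      rintro ⟨-, h⟩
      exact h ⟨σ, hσ, hi⟩
    · rw [ne_of_nonempty h1, ne_of_not h2, sub_zero]
      refine (prod_eq_one fun i _ => ?_).symm
      unfold chi
      rw [if_pos]
      refine ⟨h1, fun h => h2 (h.mono ?_)⟩
      exact Set.inter_subset_inter_right _ (lset_sub_cset C i)
  · have h2 : ¬ (S ∩ cset C).Nonempty := fun h => h1 (h.mono Set.inter_subset_left)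
    rw [ne_of_not h1, ne_of_not h2, sub_zero]
    refine (prod_eq_zero (mem_univ (⟨0, hk⟩ : Fin k)) ?_).symm
    unfold chi
    rw [if_neg]
    rintro ⟨h, -⟩
    exact h1 h

theorem bfr_eq (S : Set (V → Bool)) :
    bfr S = ∑ l : V × Bool, (2 * Fintype.card V : ℝ)⁻¹ * chi l S := by
  unfold bfr
  rw [← mul_sum, div_eq_inv_mul]

theorem bfr_nonneg (S : Set (V → Bool)) : 0 ≤ bfr S := by
  rw [bfr_eq]
  exact sum_nonneg fun l _ => mul_nonneg (L_weight_nonneg l) (chi_nonneg _ _)

theorem bfr_le_one [Nonempty V] (S : Set (V → Bool)) : bfr S ≤ 1 := by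
  rw [bfr_eq, ← L_weight_sum (V := V)]
  exact sum_le_sum fun l _ => mul_le_of_le_one_right (L_weight_nonneg l) (chi_le_one _ _)

/-- The probability that one random clause kills `S` is `bfr S ^ k`. -/
theorem ne_sub_P [Nonempty V] (hk : 0 < k) (S : Set (V → Bool)) :
    ne S - P V k ne S = bfr S ^ k := by
  have h1 : ne S = ∑ C : Fin k → V × Bool, ((2 * Fintype.card V : ℝ) ^ k)⁻¹ * ne S := by
    rw [← sum_mul, P_weight_sum, one_mul]
  have h2 : ne S - P V k ne S
      = ∑ C : Fin k → V × Bool, ((2 * Fintype.card V : ℝ) ^ k)⁻¹ * ∏ i, chi (C i) S := by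
    conv_lhs => rw [h1, P_apply]
    rw [← sum_sub_distrib]
    refine sum_congr rfl fun C _ => ?_
    rw [← mul_sub, ne_sub_ne hk]
  rw [h2, sum_prod_clause (fun _ l => chi l S), prod_const, card_univ, Fintype.card_fin,
    ← bfr_eq]

end clauses

end Vale.P170
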