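import Vale.Agent.P170.Kill

/-!
# Random k-SAT: the self-consistency bound for the killing literals
-/

namespace Vale.P170

open Finset

variable {V : Type*} [Fintype V] [DecidableEq V] {k : ℕ}

/-- The negation of a literal. -/
def bar (x : V × Bool) : V × Bool := (x.1, !x.2)

open Classical in
/-- Adding one random clause which is discarded (weight `0`) if it contains the literal `y`. -/
noncomputable def Pr (y : V × Bool) (k : ℕ) : Module.End ℝ (Set (V → Bool) → ℝ) :=
  op (fun C : Fin k → V × Bool => if ∃ i, C i = y then 0 else ((2 * Fintype.card V : ℝ) ^ k)⁻¹)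
    cset

theorem Pr_weight_nonneg (y : V × Bool) (C : Fin k → V × Bool) [Decidable (∃ i, C i = y)] :
    0 ≤ if ∃ i, C i = y then (0 : ℝ) else ((2 * Fintype.card V : ℝ) ^ k)⁻¹ := by
  split_ifs
  · exact le_rfl
  · exact P_weight_nonneg C

theorem Pr_pos (y : V × Bool) : Pos (Pr (V := V) y k) :=
  op_pos (fun C => by classical exact Pr_weight_nonneg y C) _

/-- `S` nonempty and killed by the literal `x` together with `j` random `k`-clauses. -/
noncomputable def Psi (x : V × Bool) (k j : ℕ) (S : Set (V → Bool)) : ℝ :=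
  ne S * (P V k ^ j) em (S ∩ lset x)

theorem Psi_nonneg (x : V × Bool) (j : ℕ) (S : Set (V → Bool)) : 0 ≤ Psi x k j S :=
  mul_nonneg (ne_nonneg S) ((P_pos.pow j) em em_nonneg _)

theorem Qem_anti (j : ℕ) : Antitone ((P V k ^ j) em) :=
  op_pow_anti_set P_weight_nonneg _ em_anti j

theorem Qem_nonneg (j : ℕ) (S : Set (V → Bool)) : 0 ≤ (P V k ^ j) em S :=
  (P_pos.pow j) em em_nonneg S

theorem Qem_le_one [Nonempty V] (j : ℕ) (S : Set (V → Bool)) : (P V k ^ j) em S ≤ 1 := by
  have h := ((P_pos (V := V) (k := k)).pow j).mono (f := em) (g := fun _ => 1)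
    (fun S => em_le_one S) S
  rwa [P_pow_const] at h

theorem P_Psi_le (x : V × Bool) (j : ℕ) :
    P V (k + 1) (Psi x k j) ≤ Pr (bar x) (k + 1) (Psi x k j)
      + (((k + 1 : ℕ) : ℝ) * (2 * Fintype.card V : ℝ)⁻¹) • Psi x k (j + 1) := by
  classical
  intro S
  set w : ℝ := ((2 * Fintype.card V : ℝ) ^ (k + 1))⁻¹ with hw
  have hw0 : 0 ≤ w := by positivity
  -- the contribution of the clauses containing `bar x` at position `i`
  set g : Fin (k + 1) → (Fin (k + 1) → V × Bool) → ℝ := fun i C =>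
    ne S * (P V k ^ j) em (S ∩ lset x ∩ cset (fun a => C (i.succAbove a))) with hg
  have hg0 : ∀ i C, 0 ≤ g i C := fun i C => mul_nonneg (ne_nonneg S) (Qem_nonneg _ _)
  have h1 : ∀ C : Fin (k + 1) → V × Bool, (∃ i, C i = bar x) →
      Psi x k j (S ∩ cset C) ≤ ∑ i, (if C i = bar x then (1 : ℝ) else 0) * g i C := by
    rintro C ⟨i, hi⟩
    have h2 : Psi x k j (S ∩ cset C) ≤ g i C := by
      rw [hg]
      refine mul_le_mul (ne_mono Set.inter_subset_left) (Qem_anti j ?_) (Qem_nonneg _ _)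
        (ne_nonneg S)
      rintro σ ⟨⟨h3, h4⟩, a, h5⟩
      exact ⟨⟨h3, i.succAbove a, h5⟩, h4⟩
    refine h2.trans ?_
    refine le_trans ?_ (single_le_sum (fun i _ => mul_nonneg (by split_ifs <;> norm_num)
      (hg0 i C)) (mem_univ i))
    rw [if_pos hi, one_mul]
  have h2 : P V (k + 1) (Psi x k j) S ≤ Pr (bar x) (k + 1) (Psi x k j) S
      + ∑ C : Fin (k + 1) → V × Bool, w *
          ∑ i, (if C i = bar x then (1 : ℝ) else 0) * g i C := by
    rw [P_apply, Pr, op_apply, ← sum_add_distrib]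
    refine sum_le_sum fun C _ => ?_
    by_cases hC : ∃ i, C i = bar x
    · rw [if_pos hC, zero_mul, zero_add]
      exact mul_le_mul_of_nonneg_left (h1 C hC) hw0
    · rw [if_neg hC]
      have : 0 ≤ w * ∑ i, (if C i = bar x then (1 : ℝ) else 0) * g i C :=
        mul_nonneg hw0 (sum_nonneg fun i _ => mul_nonneg (by split_ifs <;> norm_num) (hg0 i C))
      linarith
  have h3 : ∑ C : Fin (k + 1) → V × Bool, w *
          ∑ i, (if C i = bar x then (1 : ℝ) else 0) * g i C
      = (((k + 1 : ℕ) : ℝ) * (2 * Fintype.card V : ℝ)⁻¹) * Psi x k (j + 1) S := by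
    simp only [mul_sum]
    rw [sum_comm]
    have h4 : ∀ i : Fin (k + 1), ∑ C : Fin (k + 1) → V × Bool,
        w * ((if C i = bar x then (1 : ℝ) else 0) * g i C)
        = (2 * Fintype.card V : ℝ)⁻¹ * Psi x k (j + 1) S := by
      intro i
      rw [← Equiv.sum_comp (Fin.insertNthEquiv (fun _ => V × Bool) i), Fintype.sum_prod_type]
      simp only [Fin.insertNthEquiv_apply, Fin.insertNth_apply_same, hg,
        Fin.insertNth_apply_succAbove]
      rw [Finset.sum_eq_single (bar x)]
      · simp only [if_true, one_mul]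
        rw [Psi, pow_succ_apply', P_apply, mul_sum, mul_sum]
        refine sum_congr rfl fun D _ => ?_
        rw [hw, pow_succ, mul_inv]
        ring
      · intro l _ hl
        simp [hl]
      · intro h
        exact absurd (mem_univ _) h
    simp only [h4]
    rw [sum_const, card_univ, Fintype.card_fin, nsmul_eq_mul]
    ring
  rw [h3] at h2
  exact h2

theorem pascal_sum (n : ℕ) (G : ℕ → ℝ) :
    ∑ j ∈ range (n + 1), (n.choose j : ℝ) * G j + ∑ j ∈ range (n + 1), (n.choose j : ℝ) * G (j + 1)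
      = ∑ j ∈ range (n + 2), ((n + 1).choose j : ℝ) * G j := by
  rw [sum_range_succ' (fun j => ((n + 1).choose j : ℝ) * G j) (n + 1)]
  have h1 : ∀ j ∈ range (n + 1), ((n + 1).choose (j + 1) : ℝ) * G (j + 1)
      = (n.choose j : ℝ) * G (j + 1) + (n.choose (j + 1) : ℝ) * G (j + 1) := by
    intro j _
    rw [Nat.choose_succ_succ]
    push_cast
    ring
  rw [sum_congr rfl h1, sum_add_distrib]
  have h2 : ∑ j ∈ range (n + 1), (n.choose (j + 1) : ℝ) * G (j + 1)
      = ∑ j ∈ range n, (n.choose (j + 1) : ℝ) * G (j + 1) := by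
    rw [sum_range_succ, Nat.choose_succ_self]
    simp
  have h3 : ∑ j ∈ range (n + 1), (n.choose j : ℝ) * G j
      = ∑ j ∈ range n, (n.choose (j + 1) : ℝ) * G (j + 1) + G 0 := by
    rw [sum_range_succ']
    simp
  rw [h2, h3]
  simp
  ring

theorem P_pow_Psi_le (x : V × Bool) (n : ℕ) (S : Set (V → Bool)) :
    (P V (k + 1) ^ n) (Psi x k 0) S ≤ ∑ j ∈ range (n + 1), (n.choose j : ℝ) *
      ((((k + 1 : ℕ) : ℝ) * (2 * Fintype.card V : ℝ)⁻¹) ^ j *
        (Pr (bar x) (k + 1) ^ (n - j)) (Psi x k j) S) := by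
  set μ : ℝ := ((k + 1 : ℕ) : ℝ) * (2 * Fintype.card V : ℝ)⁻¹ with hμ
  have hμ0 : 0 ≤ μ := by positivity
  induction n generalizing S with
  | zero => simp
  | succ n ih =>
    have hle : (P V (k + 1) ^ n) (Psi x k 0) ≤ ∑ j ∈ range (n + 1), ((n.choose j : ℝ) * μ ^ j) •
        (Pr (bar x) (k + 1) ^ (n - j)) (Psi x k j) := by
      intro S
      rw [Finset.sum_apply]
      refine (ih S).trans (le_of_eq (sum_congr rfl fun j _ => ?_))
      rw [Pi.smul_apply, smul_eq_mul, mul_assoc]
    have h1 := (P_pos (V := V) (k := k + 1)).mono hle S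
    rw [← pow_succ_apply', map_sum, Finset.sum_apply] at h1
    refine h1.trans ?_
    rw [← pascal_sum n (fun j => μ ^ j * (Pr (bar x) (k + 1) ^ (n + 1 - j)) (Psi x k j) S),
      ← sum_add_distrib]
    refine sum_le_sum fun j hj => ?_
    rw [mem_range] at hj
    rw [map_smul, Pi.smul_apply, smul_eq_mul]
    have hcomm : Commute (P V (k + 1)) (Pr (bar x) (k + 1) ^ (n - j)) :=
      (op_commute _ _ _ _).pow_right _
    have h2 : P V (k + 1) ((Pr (bar x) (k + 1) ^ (n - j)) (Psi x k j))
        = (Pr (bar x) (k + 1) ^ (n - j)) (P V (k + 1) (Psi x k j)) := by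
      rw [← Module.End.mul_apply, ← Module.End.mul_apply, hcomm.eq]
    rw [h2]
    have h3 := ((Pr_pos (V := V) (k := k + 1) (bar x)).pow (n - j)).mono
      (P_Psi_le (k := k) x j) S
    rw [map_add, map_smul, Pi.add_apply, Pi.smul_apply, smul_eq_mul, ← pow_succ_apply] at h3
    have h4 : n - j + 1 = n + 1 - j := by omega
    have h5 : n + 1 - (j + 1) = n - j := by omega
    rw [h4] at h3
    have h6 : 0 ≤ (n.choose j : ℝ) * μ ^ j := by positivity
    calc (n.choose j : ℝ) * μ ^ j * (Pr (bar x) (k + 1) ^ (n - j)) (P V (k + 1) (Psi x k j)) S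
        ≤ (n.choose j : ℝ) * μ ^ j * ((Pr (bar x) (k + 1) ^ (n + 1 - j)) (Psi x k j) S +
            μ * (Pr (bar x) (k + 1) ^ (n - j)) (Psi x k (j + 1)) S) :=
          mul_le_mul_of_nonneg_left h3 h6
      _ = _ := by
          simp only [h5]
          ring

/-- `S` is stable under making the literal `x` true. -/
def Up (x : V × Bool) (S : Set (V → Bool)) : Prop :=
  ∀ σ ∈ S, Function.update σ x.1 x.2 ∈ S

theorem up_lit (x l : V × Bool) (hl : l ≠ bar x) (σ : V → Bool) (h : σ l.1 = l.2) :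
    Function.update σ x.1 x.2 l.1 = l.2 := by
  by_cases h1 : l.1 = x.1
  · rw [h1, Function.update_self]
    by_contra h2
    apply hl
    refine Prod.ext h1 ?_
    show l.2 = !x.2
    cases hx : x.2 <;> cases hl2 : l.2 <;> simp_all
  · rw [Function.update_of_ne h1, h]

theorem Up.lset {x l : V × Bool} (hl : l ≠ bar x) {S : Set (V → Bool)} (h : Up x S) :
    Up x (S ∩ lset l) := fun σ hσ => ⟨h σ hσ.1, up_lit x l hl σ hσ.2⟩

theorem Up.cset {x : V × Bool} {C : Fin k → V × Bool} (hC : ∀ i, C i ≠ bar x)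
    {S : Set (V → Bool)} (h : Up x S) : Up x (S ∩ cset C) := by
  rintro σ ⟨h1, i, h2⟩
  exact ⟨h σ h1, i, up_lit x (C i) (hC i) σ h2⟩

theorem tau_x_le [Nonempty V] (x : V × Bool) (j : ℕ) :
    ∀ S : Set (V → Bool), Up x S → tau j (S ∩ lset x) ≤ tau j S + j * (2 * Fintype.card V : ℝ)⁻¹ := by
  induction j with
  | zero =>
    intro S hS
    rw [tau_zero, tau_zero, Nat.cast_zero, zero_mul, add_zero, em, em]
    by_cases h : S.Nonempty
    · obtain ⟨σ, hσ⟩ := h
      have h1 : (S ∩ lset x).Nonempty := ⟨_, hS σ hσ, by simp [P170.lset]⟩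
      rw [ne_of_nonempty h1]
      have := ne_le_one S
      linarith
    · rw [ne_of_not h]
      have := ne_nonneg (S ∩ lset x)
      linarith
  | succ j ih =>
    intro S hS
    rw [tau_succ, tau_succ]
    set w : ℝ := (2 * Fintype.card V : ℝ)⁻¹ with hw
    have hw0 : 0 ≤ w := by positivity
    have h1 : ∀ l : V × Bool, w * tau j (S ∩ lset x ∩ lset l)
        ≤ w * tau j (S ∩ lset l) + w * (j * w) + (if l = bar x then w else 0) := by
      intro l
      by_cases hl : l = bar x
      · rw [if_pos hl]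
        have h2 := mul_le_mul_of_nonneg_left (tau_le_one j (S ∩ lset x ∩ lset l)) hw0
        have h3 := mul_nonneg hw0 (tau_nonneg j (S ∩ lset l))
        have h4 : 0 ≤ w * (j * w) := by positivity
        linarith
      · rw [if_neg hl, add_zero, Set.inter_right_comm, ← mul_add]
        exact mul_le_mul_of_nonneg_left (ih _ (hS.lset hl)) hw0
    calc ∑ l : V × Bool, w * tau j (S ∩ lset x ∩ lset l)
        ≤ ∑ l : V × Bool, (w * tau j (S ∩ lset l) + w * (j * w) + (if l = bar x then w else 0)) :=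
          sum_le_sum fun l _ => h1 l
      _ = ∑ l : V × Bool, w * tau j (S ∩ lset l) + j * w + w := by
          rw [sum_add_distrib, sum_add_distrib, ← sum_mul, L_weight_sum, one_mul,
            sum_ite_eq' univ (bar x)]
          simp
      _ = _ := by push_cast; ring

theorem Q_le_prod (j : ℕ) : ∀ (B : Set (V → Bool)) (Br : Fin k → Set (V → Bool)),
    (∀ r, Br r ⊆ B) → 0 < k → (P V k ^ j) em B ≤ ∏ r, tau j (Br r) := by
  induction j with
  | zero =>
    intro B Br hB hk
    simp only [pow_zero, Module.End.one_apply, tau_zero]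
    by_cases h : B.Nonempty
    · rw [em, ne_of_nonempty h, sub_self]
      exact prod_nonneg fun r _ => em_nonneg _
    · have h1 : ∀ r, em (Br r) = 1 := by
        intro r
        rw [em, ne_of_not (fun h2 => h (h2.mono (hB r))), sub_zero]
      simp only [h1, prod_const_one]
      exact em_le_one B
  | succ j ih =>
    intro B Br hB hk
    rw [pow_succ_apply', P_apply]
    have h1 : ∏ r, tau (j + 1) (Br r) = ∑ C : Fin k → V × Bool,
        ((2 * Fintype.card V : ℝ) ^ k)⁻¹ * ∏ r, tau j (Br r ∩ lset (C r)) := by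
      rw [sum_prod_clause (fun r l => tau j (Br r ∩ lset l))]
      exact prod_congr rfl fun r _ => tau_succ _ _
    rw [h1]
    refine sum_le_sum fun C _ => mul_le_mul_of_nonneg_left (ih _ _ (fun r => ?_) hk)
      (P_weight_nonneg C)
    exact Set.inter_subset_inter (hB r) (lset_sub_cset C r)

/-- The bound for `Psi` on `Up` states. -/
noncomputable def Theta (k j : ℕ) (S : Set (V → Bool)) : ℝ :=
  ne S * min 1 ((tau j S + j * (2 * Fintype.card V : ℝ)⁻¹) ^ k)

theorem Theta_nonneg (j : ℕ) (S : Set (V → Bool)) : 0 ≤ Theta k j S := by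
  refine mul_nonneg (ne_nonneg S) (le_min zero_le_one (pow_nonneg ?_ _))
  have := tau_nonneg j S
  positivity

theorem Psi_le_Theta [Nonempty V] (hk : 0 < k) (x : V × Bool) (j : ℕ) (S : Set (V → Bool))
    (hS : Up x S) : Psi x k j S ≤ Theta k j S := by
  refine mul_le_mul_of_nonneg_left (le_min (Qem_le_one _ _) ?_) (ne_nonneg S)
  refine (Q_le_prod j (S ∩ lset x) (fun _ => S ∩ lset x) (fun _ => subset_rfl) hk).trans ?_
  rw [prod_const, card_univ, Fintype.card_fin]
  exact pow_le_pow_left₀ (tau_nonneg _ _) (tau_x_le x j S hS) _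

theorem Pr_pow_Psi_le [Nonempty V] (hk : 0 < k) (x : V × Bool) (j m : ℕ) :
    ∀ S : Set (V → Bool), Up x S →
      (Pr (bar x) (k + 1) ^ m) (Psi x k j) S ≤ (P V (k + 1) ^ m) (Theta k j) S := by
  classical
  induction m with
  | zero => intro S hS; simpa using Psi_le_Theta hk x j S hS
  | succ m ih =>
    intro S hS
    rw [pow_succ_apply', pow_succ_apply', P_apply, Pr, op_apply]
    refine sum_le_sum fun C _ => ?_
    by_cases hC : ∃ i, C i = bar x
    · rw [if_pos hC, zero_mul]
      exact mul_nonneg (P_weight_nonneg C) ((P_pos.pow m) _ (Theta_nonneg j) _)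
    · rw [if_neg hC]
      push Not at hC
      exact mul_le_mul_of_nonneg_left (ih _ (hS.cset hC)) (P_weight_nonneg C)

theorem chi_eq_Psi (x : V × Bool) : (chi x : Set (V → Bool) → ℝ) = Psi x k 0 := by
  funext S
  rw [chi_eq, Psi, pow_zero, Module.End.one_apply, em]

/-- **Self-consistency bound.** -/
theorem self_consistency [Nonempty V] (hk : 0 < k) (n : ℕ) :
    (P V (k + 1) ^ n) bfr Set.univ ≤ ∑ j ∈ range (n + 1), (n.choose j : ℝ) *
      ((((k + 1 : ℕ) : ℝ) * (2 * Fintype.card V : ℝ)⁻¹) ^ j *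
        (P V (k + 1) ^ (n - j)) (Theta k j) Set.univ) := by
  set R : ℝ := ∑ j ∈ range (n + 1), (n.choose j : ℝ) *
      ((((k + 1 : ℕ) : ℝ) * (2 * Fintype.card V : ℝ)⁻¹) ^ j *
        (P V (k + 1) ^ (n - j)) (Theta k j) Set.univ) with hR
  have h1 : ∀ l : V × Bool, (P V (k + 1) ^ n) (chi l) Set.univ ≤ R := by
    intro l
    rw [chi_eq_Psi (k := k)]
    refine (P_pow_Psi_le l n Set.univ).trans ?_
    refine sum_le_sum fun j _ => mul_le_mul_of_nonneg_left ?_ (Nat.cast_nonneg _)
    refine mul_le_mul_of_nonneg_left ?_ (by positivity)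
    exact Pr_pow_Psi_le hk l j (n - j) Set.univ fun σ _ => Set.mem_univ _
  have h2 : (bfr : Set (V → Bool) → ℝ)
      = ∑ l : V × Bool, ((2 * Fintype.card V : ℝ)⁻¹) • (chi l : Set (V → Bool) → ℝ) := by
    funext S
    rw [bfr_eq, Finset.sum_apply]
    rfl
  rw [h2, map_sum, Finset.sum_apply]
  calc ∑ l : V × Bool, (P V (k + 1) ^ n) (((2 * Fintype.card V : ℝ)⁻¹) • chi l) Set.univ
      = ∑ l : V × Bool, (2 * Fintype.card V : ℝ)⁻¹ * (P V (k + 1) ^ n) (chi l) Set.univ := by
        refine sum_congr rfl fun l _ => ?_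
        rw [map_smul]
        rfl
    _ ≤ ∑ _l : V × Bool, (2 * Fintype.card V : ℝ)⁻¹ * R :=
        sum_le_sum fun l _ => mul_le_mul_of_nonneg_left (h1 l) (L_weight_nonneg l)
    _ = R := by rw [← sum_mul, L_weight_sum, one_mul]

end Vale.P170
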