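import Vale.Agent.P170.SelfCons

/-!
# Random k-SAT: the averaged bound for the expected fraction of killing literals
-/

namespace Vale.P170

open Finset

variable {V : Type*} [Fintype V] [DecidableEq V] {k : ℕ}

theorem Theta_le_one (j : ℕ) (S : Set (V → Bool)) : Theta k j S ≤ 1 := by
  have h1 := ne_le_one S
  have h2 := ne_nonneg S
  have h3 : min 1 ((tau j S + j * (2 * Fintype.card V : ℝ)⁻¹) ^ k) ≤ 1 := min_le_left _ _
  calc Theta k j S ≤ ne S * 1 := mul_le_mul_of_nonneg_left h3 h2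
    _ ≤ 1 := by linarith

theorem Theta_le [Nonempty V] (j0 s1 j : ℕ) (hj : j ≤ j0) (τ : ℝ) (hτ : 0 < τ)
    (hτ1 : τ ≤ 1)
    (hs : (2 * (k + 1 : ℕ) : ℝ) ^ j0 * (1 - (τ / 2 ^ j0) ^ (k + 1)) ^ s1 ≤ 1 / 2)
    (S : Set (V → Bool)) :
    Theta k j S ≤ (τ + j0 * (2 * Fintype.card V : ℝ)⁻¹) ^ k
      + 2 * (ne S - u (k + 1) (j0 * s1) S) := by
  have hpos : 0 ≤ (τ + j0 * (2 * Fintype.card V : ℝ)⁻¹) ^ k := by positivity
  have hu := u_le_ne (k := k + 1) (j0 * s1) S
  have hu0 := u_nonneg (k := k + 1) (j0 * s1) S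
  by_cases hS : S.Nonempty
  · have hne := ne_of_nonempty hS
    by_cases h : τ ≤ tau j S
    · have h1 := Theta_le_one (k := k) j S
      have hδ : 0 < τ / 2 ^ j0 := by positivity
      have h2 : τ / 2 ^ j0 * 2 ^ j ≤ tau j S := by
        refine le_trans ?_ h
        rw [div_mul_eq_mul_div, div_le_iff₀ (by positivity)]
        exact mul_le_mul_of_nonneg_left (pow_le_pow_right₀ (by norm_num) hj) hτ.le
      have h3 := kill (k := k + 1) (Nat.succ_pos k) (τ / 2 ^ j0) hδ s1 j S h2
      have hδ1 : τ / 2 ^ j0 ≤ 1 := by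
        rw [div_le_one (by positivity)]
        exact hτ1.trans (one_le_pow₀ (by norm_num))
      have h4 : 0 ≤ (1 - (τ / 2 ^ j0) ^ (k + 1)) ^ s1 :=
        pow_nonneg (sub_nonneg.2 (pow_le_one₀ hδ.le hδ1)) _
      have h5 : (2 * (k + 1 : ℕ) : ℝ) ^ j ≤ (2 * (k + 1 : ℕ) : ℝ) ^ j0 := by
        refine pow_le_pow_right₀ ?_ hj
        push_cast
        linarith [(Nat.cast_nonneg k : (0 : ℝ) ≤ k)]
      have h6 : u (k + 1) (j0 * s1) S ≤ u (k + 1) (j * s1) S :=
        u_antitone (k := k + 1) S (Nat.mul_le_mul_right s1 hj)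
      have h7 := mul_le_mul_of_nonneg_right h5 h4
      linarith
    · push Not at h
      have h1 : Theta k j S ≤ (τ + j0 * (2 * Fintype.card V : ℝ)⁻¹) ^ k := by
        rw [Theta, hne, one_mul]
        refine (min_le_right _ _).trans (pow_le_pow_left₀ ?_ ?_ _)
        · have := tau_nonneg j S
          positivity
        · have h2 : (j : ℝ) ≤ j0 := by exact_mod_cast hj
          have h3 : 0 ≤ (2 * Fintype.card V : ℝ)⁻¹ := by positivity
          have h4 := mul_le_mul_of_nonneg_right h2 h3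
          linarith
      linarith
  · have hne := ne_of_not hS
    rw [Theta, hne, zero_mul]
    linarith

theorem P_pow_Theta_le [Nonempty V] (j0 s1 j m : ℕ) (hj : j ≤ j0) (τ : ℝ) (hτ : 0 < τ)
    (hτ1 : τ ≤ 1)
    (hs : (2 * (k + 1 : ℕ) : ℝ) ^ j0 * (1 - (τ / 2 ^ j0) ^ (k + 1)) ^ s1 ≤ 1 / 2)
    (S : Set (V → Bool)) :
    (P V (k + 1) ^ m) (Theta k j) S ≤ (τ + j0 * (2 * Fintype.card V : ℝ)⁻¹) ^ k
      + 2 * (u (k + 1) m S - u (k + 1) (m + j0 * s1) S) := by
  have h1 : (Theta k j : Set (V → Bool) → ℝ)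
      ≤ (fun _ => (τ + j0 * (2 * Fintype.card V : ℝ)⁻¹) ^ k)
        + (2 : ℝ) • (ne - u (k + 1) (j0 * s1)) := fun S => by
    have := Theta_le j0 s1 j hj τ hτ hτ1 hs S
    simpa using this
  have h2 := ((P_pos (V := V) (k := k + 1)).pow m).mono h1 S
  rw [map_add, map_smul, map_sub, P_pow_const] at h2
  rw [u_add]
  simpa [u] using h2

theorem P_pow_Theta_le_one [Nonempty V] (j m : ℕ) (S : Set (V → Bool)) :
    (P V (k + 1) ^ m) (Theta k j) S ≤ 1 := by
  have h2 := ((P_pos (V := V) (k := k + 1)).pow m).mono (f := Theta k j) (g := fun _ => 1)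
    (fun S => Theta_le_one j S) S
  rwa [P_pow_const] at h2

/-- Telescoping for antitone sequences with values in `[0,1]`. -/
theorem tele (q : ℕ → ℝ) (hq : Antitone q) (h0 : ∀ n, 0 ≤ q n) (h1 : ∀ n, q n ≤ 1)
    (a w s : ℕ) : ∑ n ∈ Ico a (a + w), (q n - q (n + s)) ≤ s := by
  have h2 : ∀ n, q n - q (n + s) = ∑ i ∈ range s, (q (n + i) - q (n + (i + 1))) := by
    intro n
    rw [sum_range_sub' (fun i => q (n + i))]
    simp
  simp only [h2]
  rw [sum_comm]
  calc ∑ i ∈ range s, ∑ n ∈ Ico a (a + w), (q (n + i) - q (n + (i + 1)))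
      ≤ ∑ _i ∈ range s, (1 : ℝ) := by
        refine sum_le_sum fun i _ => ?_
        have h3 : ∑ n ∈ Ico a (a + w), (q (n + i) - q (n + (i + 1)))
            ≤ q (a + i) - q (a + w + i) := by
          have h4 : ∀ n, q (n + i) - q (n + (i + 1)) = q (n + i) - q (n + 1 + i) := fun n => by
            rw [show n + (i + 1) = n + 1 + i by ring]
          simp only [h4]
          rw [Finset.sum_Ico_eq_sum_range]
          simp only [Nat.add_sub_cancel_left]
          have h5 : ∀ m, q (a + m + i) - q (a + m + 1 + i)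
              = (fun m => q (a + m + i)) m - (fun m => q (a + m + i)) (m + 1) := fun m => by
            simp only []
            rw [show a + (m + 1) + i = a + m + 1 + i by ring]
          simp only [h5]
          rw [sum_range_sub' (fun m => q (a + m + i))]
          simp
        have h6 := h1 (a + i)
        have h7 := h0 (a + w + i)
        linarith
    _ = s := by simp

theorem exp_partial (lam : ℝ) (hlam : 0 ≤ lam) (T : Finset ℕ) :
    ∑ j ∈ T, lam ^ j / (j.factorial : ℝ) ≤ Real.exp lam := by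
  have h1 : ∑ j ∈ T, lam ^ j / (j.factorial : ℝ)
      ≤ ∑ j ∈ range (T.sup id + 1), lam ^ j / (j.factorial : ℝ) := by
    refine sum_le_sum_of_subset_of_nonneg ?_ fun j _ _ => by positivity
    intro j hj
    rw [mem_range]
    have : id j ≤ T.sup id := Finset.le_sup hj
    simp only [id] at this
    omega
  exact h1.trans (Real.sum_le_exp_of_nonneg hlam _)

theorem choose_mul_pow_le (n j : ℕ) (μ lam : ℝ) (hμ : 0 ≤ μ) (h : n * μ ≤ lam) :
    (n.choose j : ℝ) * μ ^ j ≤ lam ^ j / (j.factorial : ℝ) := by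
  have h1 : (n.choose j : ℝ) ≤ (n : ℝ) ^ j / (j.factorial : ℝ) := Nat.choose_le_pow_div j n
  have h2 : (n : ℝ) ^ j / (j.factorial : ℝ) * μ ^ j = (n * μ) ^ j / (j.factorial : ℝ) := by
    rw [mul_pow]; ring
  calc (n.choose j : ℝ) * μ ^ j ≤ (n : ℝ) ^ j / (j.factorial : ℝ) * μ ^ j :=
        mul_le_mul_of_nonneg_right h1 (pow_nonneg hμ j)
    _ = (n * μ) ^ j / (j.factorial : ℝ) := h2
    _ ≤ lam ^ j / (j.factorial : ℝ) := by
        have h3 : 0 ≤ (n : ℝ) * μ := by positivity
        gcongr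

/-- **The averaged bound for the expected fraction of killing literals.** -/
theorem sum_e_le [Nonempty V] (hk : 0 < k) (a w j0 s1 : ℕ) (c1 τ B : ℝ)
    (hc : ((a + w : ℕ) : ℝ) ≤ c1 * Fintype.card V) (hτ : 0 < τ) (hτ1 : τ ≤ 1) (hB : 1 ≤ B)
    (hs : (2 * (k + 1 : ℕ) : ℝ) ^ j0 * (1 - (τ / 2 ^ j0) ^ (k + 1)) ^ s1 ≤ 1 / 2) :
    ∑ n ∈ Ico a (a + w), (P V (k + 1) ^ n) bfr Set.univ ≤
      Real.exp (c1 * (k + 1 : ℕ) / 2) *
        (w * (τ + j0 / (2 * Fintype.card V)) ^ k + 2 * (j0 * s1)) +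
      w * (B⁻¹) ^ j0 * Real.exp (c1 * (k + 1 : ℕ) / 2 * B) := by
  have hN : (0 : ℝ) < Fintype.card V := by exact_mod_cast Fintype.card_pos
  set μ : ℝ := ((k + 1 : ℕ) : ℝ) * (2 * Fintype.card V : ℝ)⁻¹ with hμ
  have hμ0 : 0 ≤ μ := by positivity
  set lam : ℝ := c1 * (k + 1 : ℕ) / 2 with hlam
  have hc0 : 0 ≤ c1 := by
    by_contra h
    push Not at h
    have h1 : c1 * Fintype.card V < 0 := mul_neg_of_neg_of_pos h hN
    have h2 : (0 : ℝ) ≤ ((a + w : ℕ) : ℝ) := Nat.cast_nonneg _
    linarith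
  have hlam0 : 0 ≤ lam := by positivity
  set q : ℕ → ℕ → ℝ := fun j n => u (k + 1) (n - j) (Set.univ : Set (V → Bool)) with hq
  have hqa : ∀ j, Antitone (q j) := fun j n m h =>
    u_antitone (k := k + 1) Set.univ (Nat.sub_le_sub_right h j)
  have hq0 : ∀ j n, 0 ≤ q j n := fun j n => u_nonneg _ _
  have hq1 : ∀ j n, q j n ≤ 1 := fun j n => u_le_one _ _
  set D : ℝ := (τ + j0 / (2 * Fintype.card V)) ^ k with hD
  have hD0 : 0 ≤ D := by positivity
  have hDeq : (τ + j0 * (2 * Fintype.card V : ℝ)⁻¹) ^ k = D := by rw [hD, div_eq_mul_inv]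
  -- pointwise bound
  have hpt : ∀ n ∈ Ico a (a + w), (P V (k + 1) ^ n) bfr Set.univ ≤
      ∑ j ∈ range (j0 + 1), lam ^ j / (j.factorial : ℝ) * (D + 2 * (q j n - q j (n + j0 * s1)))
        + (B⁻¹) ^ j0 * Real.exp (lam * B) := by
    intro n hn
    rw [mem_Ico] at hn
    have hnμ : n * μ ≤ lam := by
      have h1 : (n : ℝ) ≤ c1 * Fintype.card V := by
        refine le_trans ?_ hc
        exact_mod_cast hn.2.le
      rw [hμ, hlam]
      have h2 : (n : ℝ) * (((k + 1 : ℕ) : ℝ) * (2 * Fintype.card V : ℝ)⁻¹)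
          = n / Fintype.card V * ((k + 1 : ℕ) : ℝ) / 2 := by
        field_simp
      rw [h2]
      have h3 : (n : ℝ) / Fintype.card V ≤ c1 := by rwa [div_le_iff₀ hN]
      gcongr
    refine (self_consistency hk n).trans ?_
    have hsplit : ∑ j ∈ range (n + 1), (n.choose j : ℝ) *
        (μ ^ j * (P V (k + 1) ^ (n - j)) (Theta k j) Set.univ)
        ≤ ∑ j ∈ range (n + 1), ((if j ≤ j0 then lam ^ j / (j.factorial : ℝ) *
            (D + 2 * (q j n - q j (n + j0 * s1))) else 0)
          + (if j ≤ j0 then 0 else lam ^ j / (j.factorial : ℝ))) := by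
      refine sum_le_sum fun j hj => ?_
      rw [mem_range] at hj
      have h1 := choose_mul_pow_le n j μ lam hμ0 hnμ
      have h2 : 0 ≤ (P V (k + 1) ^ (n - j)) (Theta k j) Set.univ :=
        ((P_pos (V := V) (k := k + 1)).pow _) _ (Theta_nonneg j) _
      rw [← mul_assoc]
      by_cases hj0 : j ≤ j0
      · rw [if_pos hj0, if_pos hj0, add_zero]
        refine mul_le_mul h1 ?_ h2 (by positivity)
        have h3 := P_pow_Theta_le (V := V) (k := k) j0 s1 j (n - j) hj0 τ hτ hτ1 hs Set.univ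
        rw [hDeq] at h3
        have h4 : q j (n + j0 * s1)
            = u (k + 1) (n - j + j0 * s1) (Set.univ : Set (V → Bool)) := by
          simp only [hq]
          rw [show n + j0 * s1 - j = n - j + j0 * s1 by omega]
        rw [h4]
        exact h3
      · rw [if_neg hj0, if_neg hj0, zero_add]
        calc (n.choose j : ℝ) * μ ^ j * (P V (k + 1) ^ (n - j)) (Theta k j) Set.univ
            ≤ lam ^ j / (j.factorial : ℝ) * 1 :=
              mul_le_mul h1 (P_pow_Theta_le_one _ _ _) h2 (by positivity)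
          _ = _ := mul_one _
    refine hsplit.trans ?_
    rw [sum_add_distrib]
    refine add_le_add ?_ ?_
    · -- terms `j ≤ j0`
      have hnn : ∀ j, 0 ≤ lam ^ j / (j.factorial : ℝ) *
          (D + 2 * (q j n - q j (n + j0 * s1))) := by
        intro j
        have := hqa j (Nat.le_add_right n (j0 * s1))
        have h3 : 0 ≤ D + 2 * (q j n - q j (n + j0 * s1)) := by linarith
        positivity
      rw [← sum_filter]
      refine sum_le_sum_of_subset_of_nonneg ?_ fun j _ _ => hnn j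
      intro j hj
      rw [mem_filter] at hj
      rw [mem_range]
      omega
    · -- terms `j > j0`
      have h5 : ∀ j ∈ range (n + 1), (if j ≤ j0 then 0 else lam ^ j / (j.factorial : ℝ))
          ≤ (B⁻¹) ^ j0 * ((lam * B) ^ j / (j.factorial : ℝ)) := by
        intro j _
        by_cases hj0 : j ≤ j0
        · rw [if_pos hj0]
          positivity
        · rw [if_neg hj0]
          push Not at hj0
          have h6 : lam ^ j ≤ (B⁻¹) ^ j0 * (lam * B) ^ j := by
            have h7 : (B⁻¹) ^ j0 * (lam * B) ^ j = lam ^ j * B ^ (j - j0) := by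
              have h8 : B ^ j = B ^ j0 * B ^ (j - j0) := by
                rw [← pow_add, Nat.add_sub_cancel' hj0.le]
              have hB0 : B ≠ 0 := by positivity
              rw [mul_pow, h8, inv_pow]
              field_simp
            rw [h7]
            exact le_mul_of_one_le_right (by positivity) (one_le_pow₀ hB)
          calc lam ^ j / (j.factorial : ℝ) ≤ ((B⁻¹) ^ j0 * (lam * B) ^ j) / (j.factorial : ℝ) := by
                gcongr
            _ = _ := by rw [mul_div_assoc]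
      refine (sum_le_sum h5).trans ?_
      rw [← mul_sum]
      refine mul_le_mul_of_nonneg_left (exp_partial _ ?_ _) (by positivity)
      positivity
  refine (sum_le_sum hpt).trans ?_
  rw [sum_add_distrib, sum_comm, sum_const, Nat.card_Ico, Nat.add_sub_cancel_left, nsmul_eq_mul,
    ← mul_assoc]
  refine add_le_add ?_ le_rfl
  have hfin : ∀ j ∈ range (j0 + 1), ∑ n ∈ Ico a (a + w), lam ^ j / (j.factorial : ℝ) *
      (D + 2 * (q j n - q j (n + j0 * s1)))
      ≤ lam ^ j / (j.factorial : ℝ) * (w * D + 2 * (j0 * s1)) := by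
    intro j _
    rw [← mul_sum, sum_add_distrib, ← mul_sum, sum_const, Nat.card_Ico, Nat.add_sub_cancel_left,
      nsmul_eq_mul]
    have h1 := tele (q j) (hqa j) (hq0 j) (hq1 j) a w (j0 * s1)
    push_cast at h1
    refine mul_le_mul_of_nonneg_left ?_ (by positivity)
    linarith
  refine (sum_le_sum hfin).trans ?_
  rw [← sum_mul]
  refine mul_le_mul_of_nonneg_right (exp_partial lam hlam0 _) ?_
  positivity

end Vale.P170
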